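import Mathlib

/-!
Linear algebra over the rationals for sums of wedge products of covectors: perturbation of
the kernel, a generic point, the contraction step, parity, and extraction of a basis.
-/

namespace Vale.Agent.Lib.P039B

open Module

open scoped Matrix

noncomputable section

section pert

variable {P Q : Type*} [AddCommGroup P] [Module ℚ P] [FiniteDimensional ℚ P]
  [AddCommGroup Q] [Module ℚ Q]

theorem inj_pert (L0 L1 : P →ₗ[ℚ] Q) (h : LinearMap.ker L0 = ⊥) :
    {y : ℚ | LinearMap.ker (L0 + y • L1) ≠ ⊥}.Finite := by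
  obtain ⟨R, hR⟩ := L0.exists_leftInverse_of_injective h
  let N : End ℚ P := R ∘ₗ L1
  have hfin : Set.Finite {μ | N.HasEigenvalue μ} := Module.End.finite_hasEigenvalue N
  refine (hfin.image (fun t => -t⁻¹)).subset ?_
  intro y hy
  obtain ⟨u, hu, hu0⟩ := Submodule.exists_mem_ne_zero_of_ne_bot hy
  have h1 : L0 u + y • L1 u = 0 := by simpa using hu
  have h2 : u + y • N u = 0 := by
    have := congrArg R h1
    have h3 : R (L0 u) = u := by
      have := congrFun (congrArg DFunLike.coe hR) u
      simpa using this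
    rw [map_add, map_smul, h3] at this
    simpa [N] using this
  have hy0 : y ≠ 0 := by
    rintro rfl
    simp at h2
    exact hu0 h2
  have h3 : N u = (-y⁻¹) • u := by
    have h4 : y • N u = -u := by
      rw [eq_neg_iff_add_eq_zero, add_comm]
      exact h2
    calc N u = y⁻¹ • (y • N u) := by rw [smul_smul, inv_mul_cancel₀ hy0, one_smul]
      _ = (-y⁻¹) • u := by rw [h4]; simp
  refine ⟨-y⁻¹, ?_, by simp⟩
  exact Module.End.hasEigenvalue_of_hasEigenvector ⟨Module.End.mem_eigenspace_iff.mpr h3, hu0⟩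

end pert

section forms

variable {X : Type*} [AddCommGroup X] [Module ℚ X] [FiniteDimensional ℚ X]

/-- Alternating bilinear form. -/
def Alt (B : X →ₗ[ℚ] X →ₗ[ℚ] ℚ) : Prop := ∀ u, B u u = 0

omit [FiniteDimensional ℚ X] in
theorem Alt.antisymm {B : X →ₗ[ℚ] X →ₗ[ℚ] ℚ} (h : Alt B) (u v : X) : B u v = -B v u := by
  have h1 := h (u + v)
  simp only [map_add, LinearMap.add_apply, h u, h v, zero_add, add_zero] at h1
  linarith

theorem ker_le_pert (B C : X →ₗ[ℚ] X →ₗ[ℚ] ℚ) :
    {y : ℚ | finrank ℚ (LinearMap.ker B) < finrank ℚ (LinearMap.ker (B + y • C))}.Finite := by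
  obtain ⟨C0, hC0⟩ := Submodule.exists_isCompl (LinearMap.ker B)
  have h0 : LinearMap.ker (B ∘ₗ C0.subtype) = ⊥ := by
    rw [LinearMap.ker_eq_bot']
    intro c hc
    have h1 : (c : X) ∈ LinearMap.ker B := by simpa using hc
    have := hC0.disjoint.le_bot ⟨h1, c.2⟩
    exact Subtype.ext (by simpa using this)
  refine (inj_pert (B ∘ₗ C0.subtype) (C ∘ₗ C0.subtype) h0).subset ?_
  intro y hy hbot
  have hcomp : (B ∘ₗ C0.subtype + y • C ∘ₗ C0.subtype) = (B + y • C) ∘ₗ C0.subtype := by
    ext c v
    simp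
  rw [hcomp] at hbot
  have hdis : Disjoint (LinearMap.ker (B + y • C)) C0 := by
    rw [Submodule.disjoint_def]
    intro u hu hu'
    have h3 : (⟨u, hu'⟩ : C0) ∈ LinearMap.ker ((B + y • C) ∘ₗ C0.subtype) := by
      simpa using hu
    rw [hbot] at h3
    simpa using h3
  have h5 := Submodule.finrank_add_finrank_le_of_disjoint hdis
  have h6 := Submodule.finrank_add_eq_of_isCompl hC0
  simp only [Set.mem_setOf_eq] at hy
  omega

theorem ker_lt_pert (B C : X →ₗ[ℚ] X →ₗ[ℚ] ℚ) (hB : Alt B) {φ ψ : X}
    (hφ : B φ = 0) (hψ : B ψ = 0) (hne : C φ ψ ≠ 0) :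
    {y : ℚ | finrank ℚ (LinearMap.ker B) ≤ finrank ℚ (LinearMap.ker (B + y • C))}.Finite := by
  obtain ⟨C0, hC0⟩ := Submodule.exists_isCompl (LinearMap.ker B)
  let L0 : (C0 × ℚ) →ₗ[ℚ] (X →ₗ[ℚ] ℚ) :=
    (B ∘ₗ C0.subtype) ∘ₗ LinearMap.fst ℚ C0 ℚ +
      (LinearMap.toSpanSingleton ℚ (X →ₗ[ℚ] ℚ) (C φ)) ∘ₗ LinearMap.snd ℚ C0 ℚ
  let L1 : (C0 × ℚ) →ₗ[ℚ] (X →ₗ[ℚ] ℚ) := (C ∘ₗ C0.subtype) ∘ₗ LinearMap.fst ℚ C0 ℚ
  have hL0 : ∀ c s, L0 (c, s) = B c + s • C φ := by
    intro c s
    simp [L0]
  have hL1 : ∀ c s, L1 (c, s) = C c := by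
    intro c s
    simp [L1]
  have h0 : LinearMap.ker L0 = ⊥ := by
    rw [LinearMap.ker_eq_bot']
    rintro ⟨c, s⟩ hc
    rw [hL0] at hc
    have h1 : B c ψ + s * C φ ψ = 0 := by
      have := congrArg (fun f => f ψ) hc
      simpa using this
    have h2 : B c ψ = 0 := by
      rw [hB.antisymm, hψ]
      simp
    have hs : s = 0 := by
      rw [h2, zero_add] at h1
      exact (mul_eq_zero.mp h1).resolve_right hne
    subst hs
    have h3 : (c : X) ∈ LinearMap.ker B := by
      rw [LinearMap.mem_ker]
      simpa using hc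
    have := hC0.disjoint.le_bot ⟨h3, c.2⟩
    have hc0 : c = 0 := Subtype.ext (by simpa using this)
    simp [hc0]
  have hφ0 : φ ≠ 0 := by
    rintro rfl
    simp at hne
  have hφC : φ ∉ C0 := by
    intro hc
    have hk : φ ∈ LinearMap.ker B := LinearMap.mem_ker.mpr hφ
    have := hC0.disjoint.le_bot ⟨hk, hc⟩
    exact hφ0 (by simpa using this)
  refine ((inj_pert L0 L1 h0).union (Set.finite_singleton (0 : ℚ))).subset ?_
  intro y hy
  by_contra hnot
  simp only [Set.mem_union, Set.mem_setOf_eq, Set.mem_singleton_iff, not_or, not_not] at hnot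
  obtain ⟨hbot, hy0⟩ := hnot
  have hdis : Disjoint (LinearMap.ker (B + y • C)) (C0 ⊔ Submodule.span ℚ {φ}) := by
    rw [Submodule.disjoint_def]
    intro u hu hu'
    obtain ⟨c, hc, w, hw, rfl⟩ := Submodule.mem_sup.mp hu'
    obtain ⟨s, rfl⟩ := Submodule.mem_span_singleton.mp hw
    have h1 : (L0 + y • L1) ((⟨c, hc⟩ : C0), y * s) = 0 := by
      rw [LinearMap.add_apply, LinearMap.smul_apply, hL0, hL1]
      have h2 : (B + y • C) (c + s • φ) = 0 := LinearMap.mem_ker.mp hu
      simp only [LinearMap.add_apply, LinearMap.smul_apply, map_add, map_smul, hφ, smul_zero,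
        add_zero] at h2
      rw [← h2]
      simp only [smul_add, smul_smul, mul_comm s y, smul_zero, zero_add]
      abel
    have h3 : (((⟨c, hc⟩ : C0), y * s) : C0 × ℚ) ∈ LinearMap.ker (L0 + y • L1) :=
      LinearMap.mem_ker.mpr h1
    rw [hbot] at h3
    have h4 : (((⟨c, hc⟩ : C0), y * s) : C0 × ℚ) = 0 := by simpa using h3
    have h5 : c = 0 := by
      have := congrArg (fun p => (p.1 : X)) h4
      simpa using this
    have h6 : y * s = 0 := congrArg Prod.snd h4
    have h7 : s = 0 := (mul_eq_zero.mp h6).resolve_left hy0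
    simp [h5, h7]
  have h5 := Submodule.finrank_add_finrank_le_of_disjoint hdis
  have h6 := Submodule.finrank_add_eq_of_isCompl hC0
  have h7 : finrank ℚ (C0 ⊔ Submodule.span ℚ {φ} : Submodule ℚ X) = finrank ℚ C0 + 1 :=
    Submodule.finrank_sup_span_singleton hφC
  simp only [Set.mem_setOf_eq] at hy
  omega

/-- An alternating form has a kernel of the parity of the space. -/
theorem even_finrank_ker (B : X →ₗ[ℚ] X →ₗ[ℚ] ℚ) (hB : Alt B) (hX : Even (finrank ℚ X)) :
    Even (finrank ℚ (LinearMap.ker B)) := by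
  obtain ⟨C0, hC0⟩ := Submodule.exists_isCompl (LinearMap.ker B)
  let b := Module.finBasis ℚ C0
  let M : Matrix (Fin (finrank ℚ C0)) (Fin (finrank ℚ C0)) ℚ :=
    fun i j => B (b i) (b j)
  have hMT : Mᵀ = -M := by
    ext i j
    show B (b j) (b i) = - B (b i) (b j)
    exact hB.antisymm _ _
  have hdet : M.det ≠ 0 := by
    intro hd
    obtain ⟨v, hv, hMv⟩ := Matrix.exists_mulVec_eq_zero_iff.mpr hd
    let c : C0 := ∑ j, v j • b j
    have hc : ∀ i, B (b i) c = 0 := by
      intro i
      have := congrFun hMv i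
      simp only [Matrix.mulVec, dotProduct, Pi.zero_apply] at this
      rw [← this]
      simp only [c, Submodule.coe_sum, Submodule.coe_smul, map_sum, map_smul, smul_eq_mul]
      refine Finset.sum_congr rfl ?_
      intro j _
      ring
    have hc1 : ∀ u : C0, B u c = 0 := by
      intro u
      have hu : (u : C0) = ∑ i, b.repr u i • b i := (b.sum_repr u).symm
      rw [hu]
      simp only [Submodule.coe_sum, Submodule.coe_smul, map_sum, LinearMap.sum_apply,
        map_smul, LinearMap.smul_apply, hc, smul_zero, Finset.sum_const_zero]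
    have hc2 : B c = 0 := by
      ext w
      rw [LinearMap.zero_apply, hB.antisymm, neg_eq_zero]
      have hw : w ∈ LinearMap.ker B ⊔ C0 := by
        rw [hC0.sup_eq_top]
        trivial
      obtain ⟨k, hk, c', hc', rfl⟩ := Submodule.mem_sup.mp hw
      rw [map_add, LinearMap.add_apply, LinearMap.mem_ker.mp hk]
      simpa using hc1 ⟨c', hc'⟩
    have hc3 : (c : X) ∈ LinearMap.ker B := LinearMap.mem_ker.mpr hc2
    have hc4 := hC0.disjoint.le_bot ⟨hc3, c.2⟩
    have hc5 : c = 0 := Subtype.ext (by simpa using hc4)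
    have hind := b.linearIndependent
    rw [Fintype.linearIndependent_iff] at hind
    obtain ⟨j, hj⟩ := Function.ne_iff.mp hv
    exact hj (hind v hc5 j)
  have h1 : M.det = (-1) ^ (finrank ℚ C0) * M.det := by
    have h2 := Matrix.det_transpose M
    rw [hMT, Matrix.det_neg] at h2
    simp only [Fintype.card_fin] at h2
    exact h2.symm
  have h2 : ((-1 : ℚ)) ^ (finrank ℚ C0) = 1 := by
    field_simp at h1
    linarith
  have h3 : Even (finrank ℚ C0) := by
    by_contra hodd
    rw [Nat.not_even_iff_odd] at hodd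
    rw [hodd.neg_one_pow] at h2
    norm_num at h2
  have h6 := Submodule.finrank_add_eq_of_isCompl hC0
  have h7 := (Nat.even_add.mp (h6 ▸ hX))
  exact h7.mpr h3

/-- Alternating: the range of an alternating form is the annihilator of its kernel. -/
theorem exists_eq_of_vanish_ker (B : X →ₗ[ℚ] X →ₗ[ℚ] ℚ) (hB : Alt B) (l : Dual ℚ X)
    (hl : ∀ u ∈ LinearMap.ker B, l u = 0) : ∃ p, B p = l := by
  let B0 : X →ₗ[ℚ] Dual ℚ X := B
  have hle : LinearMap.range B0 ≤ (LinearMap.ker B0).dualAnnihilator := by
    rintro _ ⟨u, rfl⟩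
    rw [Submodule.mem_dualAnnihilator]
    intro k hk
    show B u k = 0
    have hk' : B k = 0 := hk
    rw [hB.antisymm, hk']
    simp
  have heq : LinearMap.range B0 = (LinearMap.ker B0).dualAnnihilator := by
    apply Submodule.eq_of_le_of_finrank_le hle
    have h1 := LinearMap.finrank_range_add_finrank_ker B0
    have h2 := Subspace.finrank_add_finrank_dualAnnihilator_eq (LinearMap.ker B0)
    omega
  have hl' : l ∈ (LinearMap.ker B0).dualAnnihilator := by
    rw [Submodule.mem_dualAnnihilator]
    exact hl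
  rw [← heq] at hl'
  exact hl'

end forms

section wedge

variable {W : Type*} [AddCommGroup W] [Module ℚ W]

/-- The alternating form attached to a pair of covectors. -/
def wedge (a b : Dual ℚ W) : W →ₗ[ℚ] W →ₗ[ℚ] ℚ :=
  LinearMap.mk₂ ℚ (fun u v => a u * b v - b u * a v)
    (by intro u u' v; simp only [map_add]; ring)
    (by intro c u v; simp only [map_smul, smul_eq_mul]; ring)
    (by intro u v v'; simp only [map_add]; ring)
    (by intro c u v; simp only [map_smul, smul_eq_mul]; ring)

@[simp] theorem wedge_apply (a b : Dual ℚ W) (u v : W) :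
    wedge a b u v = a u * b v - b u * a v := rfl

theorem wedge_alt (a b : Dual ℚ W) (u : W) : wedge a b u u = 0 := by
  simp
  ring

/-- The kernel of a form inside a subspace. -/
def Kr (B : W →ₗ[ℚ] W →ₗ[ℚ] ℚ) (U : Submodule ℚ W) : Submodule ℚ W where
  carrier := {u | u ∈ U ∧ ∀ v ∈ U, B u v = 0}
  add_mem' := by
    rintro a b ⟨ha, ha'⟩ ⟨hb, hb'⟩
    refine ⟨U.add_mem ha hb, ?_⟩
    intro v hv
    simp [ha' v hv, hb' v hv]
  zero_mem' := ⟨U.zero_mem, by simp⟩
  smul_mem' := by
    rintro c a ⟨ha, ha'⟩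
    refine ⟨U.smul_mem c ha, ?_⟩
    intro v hv
    simp [ha' v hv]

theorem mem_Kr {B : W →ₗ[ℚ] W →ₗ[ℚ] ℚ} {U : Submodule ℚ W} {u : W} :
    u ∈ Kr B U ↔ u ∈ U ∧ ∀ v ∈ U, B u v = 0 := Iff.rfl

/-- Restriction of a form to a subspace. -/
def res (U : Submodule ℚ W) (B : W →ₗ[ℚ] W →ₗ[ℚ] ℚ) : U →ₗ[ℚ] U →ₗ[ℚ] ℚ :=
  B.domRestrict₁₂ U U

@[simp] theorem res_apply (U : Submodule ℚ W) (B : W →ₗ[ℚ] W →ₗ[ℚ] ℚ) (u v : U) :
    res U B u v = B u v := rfl

theorem res_add_smul (U : Submodule ℚ W) (B C : W →ₗ[ℚ] W →ₗ[ℚ] ℚ) (y : ℚ) :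
    res U (B + y • C) = res U B + y • res U C := by
  ext u v
  simp

theorem Kr_eq_map (U : Submodule ℚ W) (B : W →ₗ[ℚ] W →ₗ[ℚ] ℚ) :
    Kr B U = (LinearMap.ker (res U B)).map U.subtype := by
  ext u
  constructor
  · rintro ⟨hu, hu'⟩
    refine ⟨⟨u, hu⟩, ?_, rfl⟩
    show res U B ⟨u, hu⟩ = 0
    ext v
    exact hu' v v.2
  · rintro ⟨u', hu', rfl⟩
    refine ⟨u'.2, ?_⟩
    intro v hv
    have : res U B u' = 0 := hu'
    exact congrArg (fun f => f ⟨v, hv⟩) this

theorem finrank_Kr (U : Submodule ℚ W) (B : W →ₗ[ℚ] W →ₗ[ℚ] ℚ) :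
    finrank ℚ (Kr B U) = finrank ℚ (LinearMap.ker (res U B)) := by
  rw [Kr_eq_map]
  exact Submodule.finrank_map_subtype_eq U _

variable [FiniteDimensional ℚ W]

/-- The contraction step. -/
theorem contraction (B : W →ₗ[ℚ] W →ₗ[ℚ] ℚ) (hB : ∀ u, B u u = 0) (U : Submodule ℚ W)
    (l : Dual ℚ W) (hne : ∃ u ∈ U, l u ≠ 0) (hvan : ∀ u ∈ Kr B U, l u = 0) :
    finrank ℚ (Kr B U) + 1 ≤ finrank ℚ (Kr B (U ⊓ LinearMap.ker l)) := by
  have hA : Alt (res U B) := fun u => hB u
  obtain ⟨p, hp⟩ := exists_eq_of_vanish_ker (res U B) hA (l ∘ₗ U.subtype) (by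
    intro u hu
    have hu' : (u : W) ∈ Kr B U := by
      rw [Kr_eq_map]
      exact ⟨u, hu, rfl⟩
    exact hvan _ hu')
  have hpl : ∀ v : U, B p v = l v := by
    intro v
    have := congrArg (fun f => f v) hp
    simpa using this
  have hp0 : l p = 0 := by
    rw [← hpl p]
    exact hB _
  have hle : Kr B U ≤ Kr B (U ⊓ LinearMap.ker l) := by
    rintro u ⟨hu, hu'⟩
    refine ⟨⟨hu, LinearMap.mem_ker.mpr (hvan u ⟨hu, hu'⟩)⟩, ?_⟩
    intro v hv
    exact hu' v hv.1
  have hpm : (p : W) ∈ Kr B (U ⊓ LinearMap.ker l) := by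
    refine ⟨⟨p.2, LinearMap.mem_ker.mpr hp0⟩, ?_⟩
    intro v hv
    rw [hpl ⟨v, hv.1⟩]
    exact LinearMap.mem_ker.mp hv.2
  have hpn : (p : W) ∉ Kr B U := by
    rintro ⟨_, h⟩
    obtain ⟨u, hu, hlu⟩ := hne
    apply hlu
    rw [← hpl ⟨u, hu⟩]
    exact h u hu
  have h1 := Submodule.finrank_sup_span_singleton hpn
  have h2 : Kr B U ⊔ Submodule.span ℚ {(p : W)} ≤ Kr B (U ⊓ LinearMap.ker l) := by
    apply sup_le hle
    rw [Submodule.span_singleton_le_iff_mem]
    exact hpm
  have h3 := Submodule.finrank_mono h2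
  omega

end wedge

section generic

variable {W : Type*} [AddCommGroup W] [Module ℚ W] [FiniteDimensional ℚ W]
variable {L ι : Type*} [Fintype L] [DecidableEq L] [Fintype ι]

/-- The form with coefficients `x`. -/
def Ax (a b : L → Dual ℚ W) (x : L → ℚ) : W →ₗ[ℚ] W →ₗ[ℚ] ℚ :=
  ∑ l, x l • wedge (a l) (b l)

theorem Ax_alt (a b : L → Dual ℚ W) (x : L → ℚ) (u : W) : Ax a b x u u = 0 := by
  simp only [Ax, LinearMap.sum_apply, LinearMap.smul_apply, wedge_alt, smul_zero,
    Finset.sum_const_zero]

theorem Ax_update (a b : L → Dual ℚ W) (x : L → ℚ) (l : L) (y : ℚ) :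
    Ax a b (Function.update x l (x l + y)) = Ax a b x + y • wedge (a l) (b l) := by
  unfold Ax
  rw [← Finset.add_sum_erase Finset.univ
      (fun m => Function.update x l (x l + y) m • wedge (a m) (b m)) (Finset.mem_univ l),
    ← Finset.add_sum_erase Finset.univ (fun m => x m • wedge (a m) (b m)) (Finset.mem_univ l)]
  have : ∑ m ∈ Finset.univ.erase l, Function.update x l (x l + y) m • wedge (a m) (b m) =
      ∑ m ∈ Finset.univ.erase l, x m • wedge (a m) (b m) := by
    refine Finset.sum_congr rfl ?_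
    intro m hm
    rw [Function.update_of_ne (Finset.ne_of_mem_erase hm)]
  rw [this, Function.update_self, add_smul]
  abel

/-- There is a point with all coordinates nonzero at which every line is isotropic on all the
kernels of a finite family of subspaces. -/
theorem exists_generic (a b : L → Dual ℚ W) (U : ι → Submodule ℚ W) :
    ∃ x : L → ℚ, (∀ l, x l ≠ 0) ∧ ∀ i l, ∀ p ∈ Kr (Ax a b x) (U i), ∀ q ∈ Kr (Ax a b x) (U i),
      wedge (a l) (b l) p q = 0 := by
  classical
  let f : (L → ℚ) → ℕ := fun x => ∑ i, finrank ℚ (LinearMap.ker (res (U i) (Ax a b x)))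
  let X : Set (L → ℚ) := {x | ∀ l, x l ≠ 0}
  have hX : X.Nonempty := ⟨fun _ => 1, fun _ => one_ne_zero⟩
  obtain ⟨x, hx, hmin⟩ : ∃ x ∈ X, ∀ x' ∈ X, f x ≤ f x' := by
    have hwf := Nat.lt_wfRel.wf
    obtain ⟨n, ⟨x, hx, rfl⟩, hn⟩ := hwf.has_min (f '' X) (hX.image f)
    refine ⟨x, hx, ?_⟩
    intro x' hx'
    by_contra hlt
    exact hn (f x') ⟨x', hx', rfl⟩ (not_le.mp hlt)
  refine ⟨x, hx, ?_⟩
  intro i0 l0 p hp q hq
  by_contra hne
  have hp' : (⟨p, hp.1⟩ : U i0) ∈ LinearMap.ker (res (U i0) (Ax a b x)) := by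
    rw [LinearMap.mem_ker]
    ext v
    exact hp.2 v v.2
  have hq' : (⟨q, hq.1⟩ : U i0) ∈ LinearMap.ker (res (U i0) (Ax a b x)) := by
    rw [LinearMap.mem_ker]
    ext v
    exact hq.2 v v.2
  have hbad0 := ker_lt_pert (res (U i0) (Ax a b x)) (res (U i0) (wedge (a l0) (b l0)))
    (fun u => Ax_alt a b x u) (LinearMap.mem_ker.mp hp') (LinearMap.mem_ker.mp hq') hne
  have hbad1 : (⋃ i, {y : ℚ | finrank ℚ (LinearMap.ker (res (U i) (Ax a b x))) <
      finrank ℚ (LinearMap.ker (res (U i) (Ax a b x) + y • res (U i) (wedge (a l0) (b l0))))}).Finite :=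
    Set.finite_iUnion (fun i => ker_le_pert _ _)
  have hbad2 : ({y : ℚ | x l0 + y = 0}).Finite := by
    apply Set.Finite.subset (Set.finite_singleton (- x l0))
    intro y hy
    have : x l0 + y = 0 := hy
    show y = - x l0
    linarith
  obtain ⟨y, hy⟩ := ((hbad0.union hbad1).union hbad2).exists_notMem
  simp only [Set.mem_union, not_or] at hy
  obtain ⟨⟨hy0, hy1⟩, hy2⟩ := hy
  have hx' : Function.update x l0 (x l0 + y) ∈ X := by
    intro l
    by_cases hl : l = l0
    · subst hl
      rw [Function.update_self]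
      exact hy2
    · rw [Function.update_of_ne hl]
      exact hx l
  have hle := hmin _ hx'
  have hlt : f (Function.update x l0 (x l0 + y)) < f x := by
    apply Finset.sum_lt_sum
    · intro i _
      rw [Ax_update, res_add_smul]
      by_contra hh
      apply hy1
      rw [Set.mem_iUnion]
      exact ⟨i, not_le.mp hh⟩
    · refine ⟨i0, Finset.mem_univ _, ?_⟩
      rw [Ax_update, res_add_smul]
      by_contra hh
      exact hy0 (not_lt.mp hh)
  omega

end generic

section extract

variable {W : Type*} [AddCommGroup W] [Module ℚ W] [FiniteDimensional ℚ W]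
variable {L : Type*} [DecidableEq L]

/-- A nondegenerate sum of wedges contains a subfamily of lines whose covectors separate
points, of total size at most the dimension. -/
theorem extract (a b : L → Dual ℚ W) (x : L → ℚ) (S : Finset L) :
    ∀ U : Submodule ℚ W, Kr (∑ l ∈ S, x l • wedge (a l) (b l)) U = ⊥ →
      ∃ T ⊆ S, 2 * T.card ≤ finrank ℚ U ∧
        ∀ u ∈ U, (∀ l ∈ T, a l u = 0 ∧ b l u = 0) → u = 0 := by
  induction S using Finset.induction_on with
  | empty =>
    intro U hU
    refine ⟨∅, subset_rfl, by simp, ?_⟩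
    intro u hu _
    have : u ∈ Kr (∑ l ∈ (∅ : Finset L), x l • wedge (a l) (b l)) U := by
      refine ⟨hu, ?_⟩
      intro v _
      simp
    rw [hU] at this
    simpa using this
  | insert l0 S hl0 ih =>
    intro U hU
    rw [Finset.sum_insert hl0] at hU
    set B' := ∑ l ∈ S, x l • wedge (a l) (b l) with hB'
    set B := x l0 • wedge (a l0) (b l0) + B' with hB
    by_cases hdeg : Kr B' U = ⊥
    · obtain ⟨T, hT, h1, h2⟩ := ih U hdeg
      exact ⟨T, hT.trans (Finset.subset_insert _ _), h1, h2⟩
    · obtain ⟨u, hu, hu0⟩ := Submodule.exists_mem_ne_zero_of_ne_bot hdeg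
      have hB'alt : ∀ v, B' v v = 0 := by
        intro v
        simp only [hB', LinearMap.sum_apply, LinearMap.smul_apply, wedge_alt, smul_zero,
          Finset.sum_const_zero]
      have hBapply : ∀ v w, B v w = x l0 * (a l0 v * b l0 w - b l0 v * a l0 w) + B' v w := by
        intro v w
        simp [hB]
      -- x l0 is nonzero and the covectors are independent on `U`
      have hxne : x l0 ≠ 0 := by
        intro h0
        have : u ∈ Kr B U := by
          refine ⟨hu.1, ?_⟩
          intro v hv
          rw [hBapply, h0, zero_mul, zero_add]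
          exact hu.2 v hv
        rw [hU] at this
        exact hu0 (by simpa using this)
      have ha : ∃ u1 ∈ U, a l0 u1 ≠ 0 := by
        by_contra hcon
        push Not at hcon
        have : u ∈ Kr B U := by
          refine ⟨hu.1, ?_⟩
          intro v hv
          rw [hBapply, hcon u hu.1, hcon v hv, hu.2 v hv]
          ring
        rw [hU] at this
        exact hu0 (by simpa using this)
      obtain ⟨u1, hu1, ha1⟩ := ha
      have hb : ∃ u2 ∈ U, a l0 u2 = 0 ∧ b l0 u2 ≠ 0 := by
        by_contra hcon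
        push Not at hcon
        have hprop : ∀ v ∈ U, b l0 v = (b l0 u1 / a l0 u1) * a l0 v := by
          intro v hv
          have h1 : v - (a l0 v / a l0 u1) • u1 ∈ U :=
            U.sub_mem hv (U.smul_mem _ hu1)
          have h2 : a l0 (v - (a l0 v / a l0 u1) • u1) = 0 := by
            simp only [map_sub, map_smul, smul_eq_mul]
            field_simp
            ring
          have h3 := hcon _ h1 h2
          simp only [map_sub, map_smul, smul_eq_mul] at h3
          have h4 : b l0 v = (a l0 v / a l0 u1) * b l0 u1 := by linarith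
          rw [h4]
          field_simp
        have : u ∈ Kr B U := by
          refine ⟨hu.1, ?_⟩
          intro v hv
          rw [hBapply, hprop u hu.1, hprop v hv, hu.2 v hv]
          ring
        rw [hU] at this
        exact hu0 (by simpa using this)
      obtain ⟨u2, hu2, ha2, hb2⟩ := hb
      -- the smaller space
      set U1 := U ⊓ LinearMap.ker (a l0) with hU1
      set U2 := U1 ⊓ LinearMap.ker (b l0) with hU2
      have hlt1 : U1 < U := by
        refine lt_of_le_of_ne inf_le_left ?_
        intro h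
        have : u1 ∈ U1 := by rw [h]; exact hu1
        exact ha1 (LinearMap.mem_ker.mp this.2)
      have hlt2 : U2 < U1 := by
        refine lt_of_le_of_ne inf_le_left ?_
        intro h
        have h2 : u2 ∈ U1 := ⟨hu2, LinearMap.mem_ker.mpr ha2⟩
        have : u2 ∈ U2 := by rw [h]; exact h2
        exact hb2 (LinearMap.mem_ker.mp this.2)
      have hf1 := Submodule.finrank_lt_finrank_of_lt hlt1
      have hf2 := Submodule.finrank_lt_finrank_of_lt hlt2
      have hmemU2 : ∀ {v}, v ∈ U2 ↔ v ∈ U ∧ a l0 v = 0 ∧ b l0 v = 0 := by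
        intro v
        constructor
        · rintro ⟨⟨h1, h2⟩, h3⟩
          exact ⟨h1, LinearMap.mem_ker.mp h2, LinearMap.mem_ker.mp h3⟩
        · rintro ⟨h1, h2, h3⟩
          exact ⟨⟨h1, LinearMap.mem_ker.mpr h2⟩, LinearMap.mem_ker.mpr h3⟩
      have hbot : Kr B' U2 = ⊥ := by
        rw [Submodule.eq_bot_iff]
        intro w hw
        by_contra hw0
        obtain ⟨hw1, hw2⟩ := hw
        obtain ⟨hwU, hwa, hwb⟩ := hmemU2.mp hw1
        -- dual vectors
        let v1 := (1 / a l0 u1) • u1 - ((b l0 u1 / a l0 u1) / b l0 u2) • u2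
        let v2 := (1 / b l0 u2) • u2
        have hv1U : v1 ∈ U := U.sub_mem (U.smul_mem _ hu1) (U.smul_mem _ hu2)
        have hv2U : v2 ∈ U := U.smul_mem _ hu2
        have hav1 : a l0 v1 = 1 := by
          simp only [v1, map_sub, map_smul, smul_eq_mul, ha2]
          field_simp
          ring
        have hbv1 : b l0 v1 = 0 := by
          simp only [v1, map_sub, map_smul, smul_eq_mul]
          field_simp
          ring
        have hav2 : a l0 v2 = 0 := by
          simp only [v2, map_smul, smul_eq_mul, ha2, mul_zero]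
        have hbv2 : b l0 v2 = 1 := by
          simp only [v2, map_smul, smul_eq_mul]
          field_simp
        set α := B' w v1 with hα
        set β := B' w v2 with hβ
        have hcomb : ∀ v ∈ U, B' w v = α * a l0 v + β * b l0 v := by
          intro v hv
          have h1 : v - (a l0 v) • v1 - (b l0 v) • v2 ∈ U2 := by
            rw [hmemU2]
            refine ⟨U.sub_mem (U.sub_mem hv (U.smul_mem _ hv1U)) (U.smul_mem _ hv2U), ?_, ?_⟩
            · simp only [map_sub, map_smul, smul_eq_mul, hav1, hav2]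
              ring
            · simp only [map_sub, map_smul, smul_eq_mul, hbv1, hbv2]
              ring
          have h2 := hw2 _ h1
          simp only [map_sub, map_smul, smul_eq_mul] at h2
          rw [hα, hβ]
          linarith
        have huv : B' w u = 0 := by
          have h1 := hu.2 w hwU
          have h2 : B' u w + B' w u = 0 := by
            have h3 := hB'alt (u + w)
            simp only [map_add, LinearMap.add_apply, hB'alt u, hB'alt w, zero_add,
              add_zero] at h3
            linarith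
          linarith
        have hrel : α * a l0 u + β * b l0 u = 0 := by
          rw [← hcomb u hu.1]
          exact huv
        have hnz : a l0 u ≠ 0 ∨ b l0 u ≠ 0 := by
          by_contra hcon
          push Not at hcon
          have : u ∈ Kr B U := by
            refine ⟨hu.1, ?_⟩
            intro v hv
            rw [hBapply, hcon.1, hcon.2, hu.2 v hv]
            ring
          rw [hU] at this
          exact hu0 (by simpa using this)
        -- the scalar
        obtain ⟨s, hs1, hs2⟩ : ∃ s : ℚ, β + x l0 * s * a l0 u = 0 ∧ α - x l0 * s * b l0 u = 0 := by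
          by_cases hau : a l0 u = 0
          · have hbu : b l0 u ≠ 0 := hnz.resolve_left (fun h => h hau)
            refine ⟨α / (x l0 * b l0 u), ?_, ?_⟩
            · rw [hau] at hrel ⊢
              have : β = 0 := by
                have h : β * b l0 u = 0 := by linarith
                exact (mul_eq_zero.mp h).resolve_right hbu
              rw [this]
              ring
            · field_simp
              ring
          · refine ⟨-β / (x l0 * a l0 u), ?_, ?_⟩
            · field_simp
              ring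
            · field_simp
              linear_combination hrel
        have hzero : w + s • u ∈ Kr B U := by
          refine ⟨U.add_mem hwU (U.smul_mem _ hu.1), ?_⟩
          intro v hv
          rw [hBapply]
          simp only [map_add, map_smul, smul_eq_mul, LinearMap.add_apply, LinearMap.smul_apply,
            hwa, hwb, hu.2 v hv, hcomb v hv]
          linear_combination (a l0 v) * hs2 + (b l0 v) * hs1
        rw [hU] at hzero
        have hw' : w + s • u = 0 := by simpa using hzero
        have hs0 : s ≠ 0 := by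
          rintro rfl
          simp at hw'
          exact hw0 hw'
        have hau : s * a l0 u = 0 := by
          have := congrArg (a l0) hw'
          simpa [hwa] using this
        have hbu : s * b l0 u = 0 := by
          have := congrArg (b l0) hw'
          simpa [hwb] using this
        rcases hnz with h | h
        · exact h ((mul_eq_zero.mp hau).resolve_left hs0)
        · exact h ((mul_eq_zero.mp hbu).resolve_left hs0)
      obtain ⟨T, hT, h1, h2⟩ := ih U2 hbot
      refine ⟨insert l0 T, Finset.insert_subset_insert _ hT, ?_, ?_⟩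
      · rw [Finset.card_insert_of_notMem (fun h => hl0 (hT h))]
        omega
      · intro v hv hall
        have hl := hall l0 (Finset.mem_insert_self _ _)
        apply h2 v (hmemU2.mpr ⟨hv, hl.1, hl.2⟩)
        intro l hlT
        exact hall l (Finset.mem_insert_of_mem hlT)

end extract

end

end Vale.Agent.Lib.P039B
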