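import Vale.Agent.Lib.P039B.Nbrs

/-!
The planar bipartite bound: connected pieces, pairwise without edges, whose neighbours lie in
`S` and which have at least four neighbours each, number at most `|S| - 2`.
-/

namespace Vale.Agent.Lib.P039B

open Finset Module

open scoped Classical

noncomputable section

variable {D V E F : Type} [Fintype D] [Fintype V] [Fintype E] [Fintype F]

theorem exists_other {α : Type} (s : Finset α) (f : α → 𝔽) {a : α} (ha : a ∈ s) (hfa : f a ≠ 0)
    (hsum : ∑ x ∈ s, f x = 0) : ∃ b ∈ s, b ≠ a ∧ f b ≠ 0 := by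
  by_contra hcon
  push Not at hcon
  have : ∑ x ∈ s, f x = f a :=
    Finset.sum_eq_single a (fun b hb hne => hcon b hb hne) (fun h => absurd ha h)
  rw [this] at hsum
  exact hfa hsum

namespace PMap

variable {M : PMap D V E F}

section data

variable {ι : Type} [Fintype ι] (C : ι → Finset V) (S : Finset V)

/-- Hypotheses on the pieces. -/
structure Pieces (M : PMap D V E F) (C : ι → Finset V) (S : Finset V) : Prop where
  disj : ∀ i j, i ≠ j → Disjoint (C i) (C j)
  noedge : ∀ i j, i ≠ j → ∀ d, M.vt d ∈ C i → M.vt (M.α d) ∉ C j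
  nbrS : ∀ i d, M.vt d ∈ C i → M.vt (M.α d) ∉ C i → M.vt (M.α d) ∈ S
  disjS : ∀ i, Disjoint (C i) S
  conn : ∀ i, ∀ g : V → 𝔽, (∀ d, M.vt d ∈ C i → M.vt (M.α d) ∈ C i →
    g (M.vt d) = g (M.vt (M.α d))) → ∀ u ∈ C i, ∀ v ∈ C i, g u = g v
  four : ∀ i, 4 ≤ (M.nbr (C i)).card

variable {C S}

/-- Pairs of a piece and one of its neighbours. -/
abbrev Lk (M : PMap D V E F) (C : ι → Finset V) : Type := Σ i, {y // y ∈ M.nbr (C i)}

/-- A dart from the piece to the neighbour. -/
def lkD (l : Lk M C) : D :=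
  (mem_nbr.1 l.2.2).2.choose

theorem lkD_tail (l : Lk M C) : M.vt (lkD l) ∈ C l.1 :=
  (mem_nbr.1 l.2.2).2.choose_spec.1

theorem lkD_head (l : Lk M C) : M.vt (M.α (lkD l)) = l.2.1 :=
  (mem_nbr.1 l.2.2).2.choose_spec.2

theorem lk_head_notin (l : Lk M C) : l.2.1 ∉ C l.1 := (mem_nbr.1 l.2.2).1

/-- The edge of a pair. -/
def lkE (l : Lk M C) : E := M.ed (lkD l)

theorem lk_ext {l l' : Lk M C} (h1 : l.1 = l'.1) (h2 : l.2.1 = l'.2.1) : l = l' := by
  obtain ⟨i, y, hy⟩ := l
  obtain ⟨i', y', hy'⟩ := l'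
  simp only at h1 h2
  subst h1
  subst h2
  rfl

/-- The edges inside a piece. -/
def Ein (M : PMap D V E F) (C : ι → Finset V) : Finset E :=
  univ.filter fun e => ∃ d, M.ed d = e ∧ ∃ i, M.vt d ∈ C i ∧ M.vt (M.α d) ∈ C i

/-- All the edges used. -/
def E3 (M : PMap D V E F) (C : ι → Finset V) : Finset E :=
  Ein M C ∪ univ.image (lkE (M := M) (C := C))

theorem mem_Ein {d : D} : M.ed d ∈ Ein M C ↔ ∃ i, M.vt d ∈ C i ∧ M.vt (M.α d) ∈ C i := by
  simp only [Ein, mem_filter, mem_univ, true_and]
  constructor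
  · rintro ⟨d', hd', i, h1, h2⟩
    rcases (M.ed_eq d' d).1 hd' with h | h
    · subst h
      exact ⟨i, h1, h2⟩
    · subst h
      refine ⟨i, h2, ?_⟩
      rw [M.α_α]
      exact h1
  · rintro ⟨i, h1, h2⟩
    exact ⟨d, rfl, i, h1, h2⟩

theorem dart_of_lkE {l : Lk M C} {d : D} (h : M.ed d = lkE l) : d = lkD l ∨ d = M.α (lkD l) :=
  (M.ed_eq (lkD l) d).1 h.symm

variable (hP : Pieces M C S)

include hP

theorem lk_head_mem_S (l : Lk M C) : l.2.1 ∈ S := by
  have := hP.nbrS l.1 (lkD l) (lkD_tail l) (by rw [lkD_head]; exact lk_head_notin l)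
  rwa [lkD_head] at this

theorem piece_unique {i j : ι} {v : V} (h1 : v ∈ C i) (h2 : v ∈ C j) : i = j := by
  by_contra hne
  exact Finset.disjoint_left.1 (hP.disj i j hne) h1 h2

theorem notin_piece_of_S {v : V} (h : v ∈ S) (i : ι) : v ∉ C i := fun h' =>
  Finset.disjoint_left.1 (hP.disjS i) h' h

theorem lkE_injective : Function.Injective (lkE (M := M) (C := C)) := by
  intro l l' h
  rcases dart_of_lkE (l := l') (d := lkD l) h with h1 | h1
  · have h2 : l.1 = l'.1 := by
      apply piece_unique hP (lkD_tail l)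
      rw [h1]
      exact lkD_tail l'
    refine lk_ext h2 ?_
    rw [← lkD_head l, ← lkD_head l', h1]
  · exfalso
    have h2 := lkD_tail l
    rw [h1] at h2
    have h3 : M.vt (M.α (lkD l')) ∈ S := by
      rw [lkD_head]
      exact lk_head_mem_S hP l'
    exact notin_piece_of_S hP h3 _ h2

theorem lkE_notin_Ein (l : Lk M C) : lkE l ∉ Ein M C := by
  intro h
  obtain ⟨i, h1, h2⟩ := mem_Ein.1 h
  have h3 := piece_unique hP h1 (lkD_tail l)
  subst h3
  rw [lkD_head] at h2
  exact lk_head_notin l h2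

theorem lkD_inj : Function.Injective (lkD (M := M) (C := C)) := by
  intro l l' h
  apply lkE_injective hP
  show M.ed (lkD l) = M.ed (lkD l')
  rw [h]

/-- Parity at a vertex of `S`. -/
theorem parity_S {z : E → 𝔽} (hz : z ∈ M.ZS (E3 M C)) {y : V} (hy : y ∈ S) :
    ∑ l ∈ univ.filter (fun l : Lk M C => l.2.1 = y), z (lkE l) = 0 := by
  have h0 := hz.1 y
  rw [← h0, ← Finset.sum_filter]
  have hinj : Set.InjOn (fun l : Lk M C => M.α (lkD l))
      (↑(univ.filter (fun l : Lk M C => l.2.1 = y)) : Set (Lk M C)) := by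
    intro l _ l' _ h
    apply lkD_inj hP
    exact M.α.injective h
  have hsub : (univ.filter (fun l : Lk M C => l.2.1 = y)).image (fun l => M.α (lkD l)) ⊆
      univ.filter fun d => M.vt d = y := by
    intro d hd
    obtain ⟨l, hl, rfl⟩ := mem_image.1 hd
    have hl' : l.2.1 = y := (mem_filter.1 hl).2
    simp [lkD_head, hl']
  rw [← Finset.sum_subset hsub, Finset.sum_image hinj]
  · refine Finset.sum_congr rfl ?_
    intro l _
    rw [M.ed_α]
    rfl
  · intro d hd hd'
    have hdy : M.vt d = y := (mem_filter.1 hd).2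
    apply hz.2
    intro hmem
    rcases mem_union.1 hmem with h | h
    · obtain ⟨i, h1, _⟩ := mem_Ein.1 h
      exact notin_piece_of_S hP hy i (hdy ▸ h1)
    · obtain ⟨l, _, hl⟩ := mem_image.1 h
      rcases dart_of_lkE hl.symm with h1 | h1
      · have h2 := lkD_tail l
        rw [← h1, hdy] at h2
        exact notin_piece_of_S hP hy _ h2
      · apply hd'
        refine mem_image.2 ⟨l, ?_, h1.symm⟩
        have h3 : l.2.1 = y := by
          rw [← lkD_head, ← h1, hdy]
        simp [h3]

/-- Parity at a piece. -/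
theorem parity_piece {z : E → 𝔽} (hz : z ∈ M.ZS (E3 M C)) (i : ι) :
    ∑ l ∈ univ.filter (fun l : Lk M C => l.1 = i), z (lkE l) = 0 := by
  -- the sum over the darts with tail in the piece
  have h0 : ∑ d ∈ univ.filter (fun d => M.vt d ∈ C i), z (M.ed d) = 0 := by
    rw [← Finset.sum_fiberwise_of_maps_to (s := univ.filter (fun d => M.vt d ∈ C i))
      (t := C i) (g := M.vt) (fun d hd => (mem_filter.1 hd).2)]
    apply Finset.sum_eq_zero
    intro v hv
    have h1 := hz.1 v
    rw [← Finset.sum_filter] at h1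
    rw [← h1]
    apply Finset.sum_congr _ (fun _ _ => rfl)
    ext d
    simp only [mem_filter, mem_univ, true_and]
    constructor
    · exact fun h => h.2
    · exact fun h => ⟨h ▸ hv, h⟩
  have h1 : ∑ d ∈ univ.filter (fun d => M.vt d ∈ C i ∧ M.vt (M.α d) ∈ C i), z (M.ed d) = 0 := by
    apply Finset.sum_involution (fun d _ => M.α d)
    · intro d _
      rw [M.ed_α, add_self_F]
    · intro d _ _
      exact M.α_ne d
    · intro d hd
      obtain ⟨h1, h2⟩ := (mem_filter.1 hd).2
      simp only [mem_filter, mem_univ, true_and, M.α_α]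
      exact ⟨h2, h1⟩
    · intro d _
      exact M.α_α d
  have hsplit : ∑ d ∈ univ.filter (fun d => M.vt d ∈ C i), z (M.ed d) =
      ∑ d ∈ univ.filter (fun d => M.vt d ∈ C i ∧ M.vt (M.α d) ∈ C i), z (M.ed d) +
      ∑ d ∈ univ.filter (fun d => M.vt d ∈ C i ∧ M.vt (M.α d) ∉ C i), z (M.ed d) := by
    rw [← Finset.sum_union]
    · apply Finset.sum_congr _ (fun _ _ => rfl)
      ext d
      simp only [mem_filter, mem_univ, true_and, mem_union]
      tauto
    · rw [Finset.disjoint_left]
      intro d hd hd'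
      exact (mem_filter.1 hd').2.2 (mem_filter.1 hd).2.2
  rw [h1, zero_add] at hsplit
  rw [h0] at hsplit
  rw [hsplit]
  have hinj : Set.InjOn (lkD (M := M) (C := C))
      (↑(univ.filter (fun l : Lk M C => l.1 = i)) : Set (Lk M C)) :=
    fun l _ l' _ h => lkD_inj hP h
  have hsub : (univ.filter (fun l : Lk M C => l.1 = i)).image lkD ⊆
      univ.filter fun d => M.vt d ∈ C i ∧ M.vt (M.α d) ∉ C i := by
    intro d hd
    obtain ⟨l, hl, rfl⟩ := mem_image.1 hd
    have hl' : l.1 = i := (mem_filter.1 hl).2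
    subst hl'
    simp only [mem_filter, mem_univ, true_and]
    refine ⟨lkD_tail l, ?_⟩
    rw [lkD_head]
    exact lk_head_notin l
  rw [← Finset.sum_subset hsub, Finset.sum_image hinj]
  · rfl
  · intro d hd hd'
    obtain ⟨h1, h2⟩ := (mem_filter.1 hd).2
    apply hz.2
    intro hmem
    rcases mem_union.1 hmem with h | h
    · obtain ⟨j, h3, h4⟩ := mem_Ein.1 h
      have := piece_unique hP h1 h3
      subst this
      exact h2 h4
    · obtain ⟨l, _, hl⟩ := mem_image.1 h
      rcases dart_of_lkE hl.symm with h3 | h3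
      · apply hd'
        refine mem_image.2 ⟨l, ?_, h3.symm⟩
        have h4 : l.1 = i := by
          apply piece_unique hP (lkD_tail l)
          rw [← h3]
          exact h1
        simp [h4]
      · have h4 : M.vt (M.α (lkD l)) ∈ S := by
          rw [lkD_head]
          exact lk_head_mem_S hP l
        rw [h3] at h1
        exact notin_piece_of_S hP h4 i h1

/-- A nonzero even set has at least four link edges. -/
theorem four_le_support {z : E → 𝔽} (hz : z ∈ M.ZS (E3 M C)) {l0 : Lk M C}
    (hl0 : z (lkE l0) ≠ 0) :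
    4 ≤ (univ.filter fun l : Lk M C => z (lkE l) ≠ 0).card := by
  obtain ⟨l1, hl1, hne1, hz1⟩ := exists_other _ (fun l : Lk M C => z (lkE l))
    (a := l0) (by simp) hl0 (parity_piece hP hz l0.1)
  obtain ⟨l2, hl2, hne2, hz2⟩ := exists_other _ (fun l : Lk M C => z (lkE l))
    (a := l0) (by simp) hl0 (parity_S hP hz (lk_head_mem_S hP l0))
  obtain ⟨l3, hl3, hne3, hz3⟩ := exists_other _ (fun l : Lk M C => z (lkE l))
    (a := l1) (by simp) hz1 (parity_S hP hz (lk_head_mem_S hP l1))
  have h11 : l1.1 = l0.1 := (mem_filter.1 hl1).2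
  have h22 : l2.2.1 = l0.2.1 := (mem_filter.1 hl2).2
  have h33 : l3.2.1 = l1.2.1 := (mem_filter.1 hl3).2
  have hy : l1.2.1 ≠ l0.2.1 := fun h => hne1 (lk_ext h11 h)
  have hi2 : l2.1 ≠ l0.1 := fun h => hne2 (lk_ext h h22)
  have n01 : l0 ≠ l1 := hne1.symm
  have n02 : l0 ≠ l2 := hne2.symm
  have n03 : l0 ≠ l3 := by
    intro h
    apply hy
    rw [← h33, ← h]
  have n12 : l1 ≠ l2 := by
    intro h
    apply hy
    rw [h, h22]
  have n13 : l1 ≠ l3 := hne3.symm
  have n23 : l2 ≠ l3 := by
    intro h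
    apply hy
    rw [← h33, ← h, h22]
  have hsub : ({l0, l1, l2, l3} : Finset (Lk M C)) ⊆
      univ.filter fun l : Lk M C => z (lkE l) ≠ 0 := by
    intro x hx
    simp only [mem_insert, mem_singleton] at hx
    simp only [mem_filter, mem_univ, true_and]
    rcases hx with rfl | rfl | rfl | rfl <;> assumption
  have hcard : ({l0, l1, l2, l3} : Finset (Lk M C)).card = 4 := by
    rw [Finset.card_insert_of_notMem, Finset.card_insert_of_notMem, Finset.card_pair n23]
    · simp [n12, n13]
    · simp [n01, n02, n03]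
  have := Finset.card_le_card hsub
  omega

/-- The boundary of a class lies in the chosen edge set. -/
theorem bdCl_mem (s : M.Bk (E3 M C) → 𝔽) : M.bdCl (E3 M C) s ∈ M.ZS (E3 M C) := by
  refine ⟨M.bd_mem_Zsp _, ?_⟩
  intro e he
  obtain ⟨d, rfl⟩ := M.ed_surj e
  rw [M.bdCl_apply, M.cl_across _ he, add_self_F]

omit hP in
/-- The map from classes to link edges. -/
def Γ (M : PMap D V E F) (C : ι → Finset V) : (M.Bk (E3 M C) → 𝔽) →ₗ[𝔽] (Lk M C → 𝔽) :=
  LinearMap.funLeft 𝔽 𝔽 lkE ∘ₗ M.bdCl (E3 M C)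

omit hP in
/-- Generators. -/
def gen (M : PMap D V E F) (C : ι → Finset V) (B : M.Bk (E3 M C)) : Lk M C → 𝔽 :=
  Γ M C (fun j => if B = j then 1 else 0)

omit hP in
theorem gen_apply (B : M.Bk (E3 M C)) (l : Lk M C) :
    gen M C B l = (if B = M.cl (E3 M C) (M.fc (lkD l)) then 1 else 0) +
      (if B = M.cl (E3 M C) (M.fc (M.α (lkD l))) then 1 else 0) := by
  show M.bdCl (E3 M C) _ (M.ed (lkD l)) = _
  rw [M.bdCl_apply]

omit hP in
theorem sum_support_le :
    ∑ B, (univ.filter fun l => gen M C B l ≠ 0).card ≤ 2 * Fintype.card (Lk M C) := by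
  have h1 : ∀ B : M.Bk (E3 M C), (univ.filter fun l => gen M C B l ≠ 0).card =
      ∑ l, if gen M C B l ≠ 0 then 1 else 0 := by
    intro B
    rw [Finset.card_filter]
  simp_rw [h1]
  rw [Finset.sum_comm]
  have h2 : ∀ l : Lk M C, ∑ B, (if gen M C B l ≠ 0 then 1 else 0) ≤ 2 := by
    intro l
    rw [← Finset.card_filter]
    have hsub : (univ.filter fun B => gen M C B l ≠ 0) ⊆
        {M.cl (E3 M C) (M.fc (lkD l)), M.cl (E3 M C) (M.fc (M.α (lkD l)))} := by
      intro B hB
      have hB' := (mem_filter.1 hB).2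
      rw [gen_apply] at hB'
      simp only [mem_insert, mem_singleton]
      by_contra hcon
      push Not at hcon
      apply hB'
      simp [hcon.1, hcon.2]
    exact (Finset.card_le_card hsub).trans Finset.card_le_two
  calc _ ≤ ∑ _l : Lk M C, 2 := Finset.sum_le_sum (fun l _ => h2 l)
    _ = _ := by simp [mul_comm, Finset.card_univ]

/-- The number of nonzero generators. -/
theorem four_G_le :
    4 * (univ.filter fun B => gen M C B ≠ 0).card ≤ 2 * Fintype.card (Lk M C) := by
  refine le_trans ?_ sum_support_le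
  calc 4 * (univ.filter fun B => gen M C B ≠ 0).card
      = ∑ _B ∈ univ.filter (fun B => gen M C B ≠ 0), 4 := by simp [mul_comm]
    _ ≤ ∑ B ∈ univ.filter (fun B => gen M C B ≠ 0),
        (univ.filter fun l => gen M C B l ≠ 0).card := by
        apply Finset.sum_le_sum
        intro B hB
        have hB' := (mem_filter.1 hB).2
        obtain ⟨l, hl⟩ := Function.ne_iff.1 hB'
        exact four_le_support hP (bdCl_mem hP _) hl
    _ ≤ _ := Finset.sum_le_sum_of_subset (Finset.subset_univ _)

omit hP in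
theorem sum_gen : ∑ B, gen M C B = 0 := by
  have h1 := LinearMap.pi_apply_eq_sum_univ (Γ M C) (fun _ => (1 : 𝔽))
  simp only [one_smul] at h1
  have h2 : Γ M C (fun _ => 1) = 0 := by
    ext l
    show M.bdCl (E3 M C) _ (M.ed (lkD l)) = 0
    rw [M.bdCl_apply, add_self_F]
  rw [h2] at h1
  exact h1.symm

omit hP in
theorem finrank_range_Γ :
    finrank 𝔽 (LinearMap.range (Γ M C)) + 1 ≤ (univ.filter fun B => gen M C B ≠ 0).card ∨
      finrank 𝔽 (LinearMap.range (Γ M C)) = 0 := by
  set G := univ.filter fun B => gen M C B ≠ 0 with hG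
  rcases Finset.eq_empty_or_nonempty G with hemp | ⟨B0, hB0⟩
  · right
    have hzero : ∀ B, gen M C B = 0 := by
      intro B
      by_contra h
      have : B ∈ G := by simp [hG, h]
      rw [hemp] at this
      simp at this
    have : LinearMap.range (Γ M C) = ⊥ := by
      rw [LinearMap.range_eq_bot]
      apply LinearMap.ext
      intro s
      rw [LinearMap.pi_apply_eq_sum_univ (Γ M C) s]
      have h3 : ∀ B, Γ M C (fun j => if B = j then 1 else 0) = 0 := hzero
      simp [h3]
    rw [this]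
    simp
  · left
    have hspan : LinearMap.range (Γ M C) ≤
        Submodule.span 𝔽 (((G.erase B0).image (gen M C) : Finset _) : Set (Lk M C → 𝔽)) := by
      have hall : ∀ B, gen M C B ∈
          Submodule.span 𝔽 (((G.erase B0).image (gen M C) : Finset _) : Set (Lk M C → 𝔽)) := by
        have hoth : ∀ B, B ≠ B0 → gen M C B ∈
            Submodule.span 𝔽 (((G.erase B0).image (gen M C) : Finset _) : Set (Lk M C → 𝔽)) := by
          intro B hB
          by_cases h : gen M C B = 0
          · rw [h]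
            exact Submodule.zero_mem _
          · apply Submodule.subset_span
            simp only [coe_image, Set.mem_image, Finset.mem_coe]
            exact ⟨B, Finset.mem_erase.2 ⟨hB, by simp [hG, h]⟩, rfl⟩
        intro B
        by_cases hB : B = B0
        · subst hB
          have h1 := sum_gen (M := M) (C := C)
          rw [← Finset.add_sum_erase _ _ (Finset.mem_univ B)] at h1
          have h2 : gen M C B = - ∑ b ∈ univ.erase B, gen M C b :=
            eq_neg_of_add_eq_zero_left h1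
          rw [h2]
          apply Submodule.neg_mem
          apply Submodule.sum_mem
          intro b hb
          exact hoth b (Finset.ne_of_mem_erase hb)
        · exact hoth B hB
      rintro _ ⟨s, rfl⟩
      rw [LinearMap.pi_apply_eq_sum_univ (Γ M C) s]
      apply Submodule.sum_mem
      intro B _
      exact Submodule.smul_mem _ _ (hall B)
    have h1 := Submodule.finrank_mono hspan
    have h2 : finrank 𝔽 (Submodule.span 𝔽 (((G.erase B0).image (gen M C) : Finset _) :
        Set (Lk M C → 𝔽))) ≤ ((G.erase B0).image (gen M C)).card :=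
      finrank_span_finset_le_card _
    have h3 := Finset.card_image_le (s := G.erase B0) (f := gen M C)
    have h4 := Finset.card_erase_of_mem hB0
    have h5 := Finset.card_pos.2 ⟨B0, hB0⟩
    omega

omit hP in
/-- Dimension of the image in the link coordinates. -/
theorem finrank_link :
    finrank 𝔽 (M.ZS (E3 M C)) ≤ finrank 𝔽 (LinearMap.range (Γ M C)) +
      finrank 𝔽 (M.ZS (Ein M C)) := by
  let ρ : (E → 𝔽) →ₗ[𝔽] (Lk M C → 𝔽) := LinearMap.funLeft 𝔽 𝔽 lkE
  let ρ' := ρ.domRestrict (M.ZS (E3 M C))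
  have h1 := LinearMap.finrank_range_add_finrank_ker ρ'
  have h2 : LinearMap.range ρ' ≤ LinearMap.range (Γ M C) := by
    rintro _ ⟨⟨z, hz⟩, rfl⟩
    obtain ⟨s, rfl⟩ := M.ZS_le_range _ hz
    exact ⟨s, rfl⟩
  have h3 := Submodule.finrank_mono h2
  have h4 : (LinearMap.ker ρ').map (M.ZS (E3 M C)).subtype ≤ M.ZS (Ein M C) := by
    rintro _ ⟨⟨z, hz⟩, hz0, rfl⟩
    refine ⟨hz.1, ?_⟩
    intro e he
    by_cases he3 : e ∈ E3 M C
    · rcases mem_union.1 he3 with h | h
      · exact absurd h he
      · obtain ⟨l, _, rfl⟩ := mem_image.1 h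
        have := congrFun (LinearMap.mem_ker.1 hz0) l
        exact this
    · exact hz.2 e he3
  have h5 := Submodule.finrank_mono h4
  rw [Submodule.finrank_map_subtype_eq] at h5
  omega

/-- The number of independent constant functions on the pieces. -/
theorem finrank_Cst_le :
    finrank 𝔽 (M.Cst (Ein M C) (univ.biUnion C)) ≤ Fintype.card ι := by
  have hne : ∀ i, (C i).Nonempty := by
    intro i
    have h1 := hP.four i
    obtain ⟨y, hy⟩ := Finset.card_pos.1 (show 0 < (M.nbr (C i)).card by omega)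
    obtain ⟨_, d, hd, _⟩ := mem_nbr.1 hy
    exact ⟨_, hd⟩
  choose rep hrep using hne
  let T : (M.Cst (Ein M C) (univ.biUnion C)) →ₗ[𝔽] (ι → 𝔽) :=
    (LinearMap.funLeft 𝔽 𝔽 rep).domRestrict _
  have hinj : Function.Injective T := by
    rw [← LinearMap.ker_eq_bot, LinearMap.ker_eq_bot']
    rintro ⟨g, hg1, hg2⟩ hT
    apply Subtype.ext
    ext v
    by_cases hv : v ∈ (univ.biUnion C : Finset V)
    · obtain ⟨i, _, hi⟩ := Finset.mem_biUnion.1 hv
      have h1 := hP.conn i g (by
        intro d hd1 hd2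
        exact hg2 d (mem_Ein.2 ⟨i, hd1, hd2⟩)) v hi (rep i) (hrep i)
      have h2 := congrFun hT i
      show g v = 0
      rw [h1]
      exact h2
    · exact hg1 v hv
  have := LinearMap.finrank_le_finrank_of_injective hinj
  simpa using this

/-- The planar bipartite bound. -/
theorem comps_le [Nonempty ι] : Fintype.card ι + 2 ≤ S.card := by
  set V1 : Finset V := univ.biUnion C with hV1
  have hne : (V1 ∪ S).Nonempty := by
    obtain ⟨i⟩ := ‹Nonempty ι›
    have h1 := hP.four i
    obtain ⟨y, hy⟩ := Finset.card_pos.1 (show 0 < (M.nbr (C i)).card by omega)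
    obtain ⟨_, d, hd, _⟩ := mem_nbr.1 hy
    exact ⟨_, mem_union_left _ (Finset.mem_biUnion.2 ⟨i, mem_univ _, hd⟩)⟩
  have hVin : ∀ d, M.ed d ∈ Ein M C → M.vt d ∈ V1 := by
    intro d hd
    obtain ⟨i, h1, _⟩ := mem_Ein.1 hd
    exact Finset.mem_biUnion.2 ⟨i, mem_univ _, h1⟩
  have hV3 : ∀ d, M.ed d ∈ E3 M C → M.vt d ∈ V1 ∪ S := by
    intro d hd
    rcases mem_union.1 hd with h | h
    · exact mem_union_left _ (hVin d h)
    · obtain ⟨l, _, hl⟩ := mem_image.1 h
      rcases dart_of_lkE hl.symm with h1 | h1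
      · rw [h1]
        exact mem_union_left _ (Finset.mem_biUnion.2 ⟨l.1, mem_univ _, lkD_tail l⟩)
      · rw [h1, lkD_head]
        exact mem_union_right _ (lk_head_mem_S hP l)
  have hdisj : Disjoint V1 S := by
    rw [Finset.disjoint_left]
    intro v hv hv'
    obtain ⟨i, _, hi⟩ := Finset.mem_biUnion.1 hv
    exact Finset.disjoint_left.1 (hP.disjS i) hi hv'
  have hdisjE : Disjoint (Ein M C) (univ.image (lkE (M := M) (C := C))) := by
    rw [Finset.disjoint_left]
    intro e he he'
    obtain ⟨l, _, rfl⟩ := mem_image.1 he'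
    exact lkE_notin_Ein hP l he
  have hE3card : (E3 M C).card = (Ein M C).card + Fintype.card (Lk M C) := by
    unfold E3
    rw [Finset.card_union_of_disjoint hdisjE,
      Finset.card_image_of_injective _ (lkE_injective hP), Finset.card_univ]
  have hLk : 4 * Fintype.card ι ≤ Fintype.card (Lk M C) := by
    rw [Fintype.card_sigma]
    calc 4 * Fintype.card ι = ∑ _i : ι, 4 := by simp [mul_comm, Finset.card_univ]
      _ ≤ _ := Finset.sum_le_sum (fun i _ => by simpa using hP.four i)
  have h1 := M.finrank_ZS (E3 M C) (V1 ∪ S) hV3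
  have h2 := M.one_le_finrank_Cst (E3 M C) (V1 ∪ S) hne hV3
  have h3 := M.finrank_ZS (Ein M C) V1 hVin
  have h4 : finrank 𝔽 (M.Cst (Ein M C) V1) ≤ Fintype.card ι := finrank_Cst_le hP
  have h5 := finrank_link (M := M) (C := C)
  have h6 := four_G_le hP
  have h7 := finrank_range_Γ (M := M) (C := C)
  have h8 : 1 ≤ Fintype.card ι := Fintype.card_pos
  rw [Finset.card_union_of_disjoint hdisj] at h1
  rcases h7 with h7 | h7 <;> omega

end data

end PMap

end

end Vale.Agent.Lib.P039B
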