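import Vale.Agent.Lib.P039B.Cut

/-!
Contraction of the faces of one colour of a properly three coloured cubic plane map.
-/

namespace Vale.Agent.Lib.P039B

open Finset Module

open scoped Classical

noncomputable section

set_option linter.unusedSectionVars false

variable {D V E F : Type} [Fintype D] [Fintype V] [Fintype E] [Fintype F]

/-- A cubic map with a proper colouring of its faces by three colours. -/
structure Tricol (N : PMap D V E F) (c : F → Fin 3) : Prop where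
  σ3 : ∀ d, N.σ (N.σ (N.σ d)) = d
  σ1 : ∀ d, N.σ d ≠ d
  proper : ∀ d, c (N.fc d) ≠ c (N.fc (N.α d))

theorem fin3_third : ∀ a b e r : Fin 3, a ≠ b → b ≠ e → e ≠ a → a ≠ r → b ≠ r → e = r := by
  decide

namespace Tricol

variable {N : PMap D V E F} {c : F → Fin 3} (hN : Tricol N c) (r : Fin 3)

include hN

theorem col_σ (d : D) : c (N.fc (N.σ d)) ≠ c (N.fc d) := by
  rw [← N.fc_α]
  exact (hN.proper d).symm

theorem col_σσ (d : D) : c (N.fc (N.σ (N.σ d))) ≠ c (N.fc d) := by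
  have := hN.col_σ (N.σ (N.σ d))
  rw [hN.σ3] at this
  exact this.symm

theorem red_third (x : D) (h1 : c (N.fc x) ≠ r) (h2 : c (N.fc (N.σ x)) ≠ r) :
    c (N.fc (N.σ (N.σ x))) = r :=
  fin3_third _ _ _ r (hN.col_σ x).symm (hN.col_σ (N.σ x)).symm (hN.col_σσ x) h1 h2

theorem vt_cases {d x : D} (h : N.vt x = N.vt d) : x = d ∨ x = N.σ d ∨ x = N.σ (N.σ d) := by
  have h1 := PMap.darts_at hN.σ3 hN.σ1 d
  have h2 : x ∈ univ.filter fun e => N.vt e = N.vt d := by
    simp [h]
  rw [h1] at h2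
  simpa using h2

theorem red_unique {d d' : D} (h : N.vt d = N.vt d') (h1 : c (N.fc d) = r)
    (h2 : c (N.fc d') = r) : d = d' := by
  rcases hN.vt_cases h.symm with h3 | h3 | h3
  · exact h3.symm
  · exfalso
    apply hN.col_σ d
    rw [← h3, h1, h2]
  · exfalso
    apply hN.col_σσ d
    rw [← h3, h1, h2]

theorem red_exists (x : D) : ∃ d, N.vt d = N.vt x ∧ c (N.fc d) = r := by
  by_cases h1 : c (N.fc x) = r
  · exact ⟨x, rfl, h1⟩
  by_cases h2 : c (N.fc (N.σ x)) = r
  · exact ⟨N.σ x, N.vt_σ x, h2⟩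
  · exact ⟨N.σ (N.σ x), by rw [N.vt_σ, N.vt_σ], hN.red_third r x h1 h2⟩

theorem nonred_σ {d : D} (h : c (N.fc d) = r) : c (N.fc (N.σ d)) ≠ r := by
  rw [← h]
  exact hN.col_σ d

theorem nonred_σσ {d : D} (h : c (N.fc d) = r) : c (N.fc (N.σ (N.σ d))) ≠ r := by
  rw [← h]
  exact hN.col_σσ d

/-- The head of a dart joining the two other faces is again next to a red corner. -/
theorem red_aM {d : D} (h : c (N.fc d) = r) :
    c (N.fc (N.σ (N.σ (N.α (N.σ d))))) = r := by
  apply hN.red_third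
  · rw [N.fc_α]
    exact hN.nonred_σσ r h
  · rw [← N.fc_α, N.α_α]
    exact hN.nonred_σ r h

/-- The rotation of the contracted map. -/
def sM : Equiv.Perm {d : D // c (N.fc d) = r} where
  toFun d := ⟨N.α (N.σ (N.σ d.1)), by rw [N.fc_α, hN.σ3]; exact d.2⟩
  invFun d := ⟨N.σ (N.α d.1), by rw [N.fc_step]; exact d.2⟩
  left_inv := by
    intro d
    apply Subtype.ext
    show N.σ (N.α (N.α (N.σ (N.σ d.1)))) = d.1
    rw [N.α_α, hN.σ3]
  right_inv := by
    intro d
    apply Subtype.ext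
    show N.α (N.σ (N.σ (N.σ (N.α d.1)))) = d.1
    rw [hN.σ3, N.α_α]

/-- The reversal of the contracted map. -/
def aM : Equiv.Perm {d : D // c (N.fc d) = r} :=
  Function.Involutive.toPerm (fun d => ⟨N.σ (N.σ (N.α (N.σ d.1))), hN.red_aM r d.2⟩) (by
    intro d
    apply Subtype.ext
    show N.σ (N.σ (N.α (N.σ (N.σ (N.σ (N.α (N.σ d.1))))))) = d.1
    rw [hN.σ3, N.α_α, hN.σ3])

theorem sM_val (d : {d : D // c (N.fc d) = r}) : (hN.sM r d).1 = N.α (N.σ (N.σ d.1)) := rfl

theorem sM_inv_val (d : {d : D // c (N.fc d) = r}) : ((hN.sM r)⁻¹ d).1 = N.σ (N.α d.1) := rfl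

theorem aM_val (d : {d : D // c (N.fc d) = r}) : (hN.aM r d).1 = N.σ (N.σ (N.α (N.σ d.1))) := rfl

theorem σ_aM (d : {d : D // c (N.fc d) = r}) : N.σ (hN.aM r d).1 = N.α (N.σ d.1) := by
  rw [aM_val, hN.σ3]

theorem σ_ψ (d : {d : D // c (N.fc d) = r}) :
    N.σ (hN.sM r (hN.aM r d)).1 = N.φ (N.φ (N.σ d.1)) := by
  rw [sM_val, aM_val]
  show N.σ (N.α (N.σ (N.σ (N.σ (N.σ (N.α (N.σ d.1))))))) = N.σ (N.α (N.σ (N.α (N.σ d.1))))
  rw [hN.σ3]

theorem ed_eq_aux (d d' : {d : D // c (N.fc d) = r}) :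
    N.ed (N.σ d.1) = N.ed (N.σ d'.1) ↔ d' = d ∨ d' = hN.aM r d := by
  rw [N.ed_eq]
  constructor
  · rintro (h | h)
    · left
      exact Subtype.ext (N.σ.injective h)
    · right
      apply Subtype.ext
      apply N.σ.injective
      rw [h, hN.σ_aM]
  · rintro (rfl | rfl)
    · exact Or.inl rfl
    · right
      rw [hN.σ_aM]

theorem aM_ne (d : {d : D // c (N.fc d) = r}) : hN.aM r d ≠ d := by
  intro h
  have h1 := hN.σ_aM r d
  rw [h] at h1
  exact N.α_ne _ h1.symm

/-- The iterates of the contracted face map. -/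
theorem σ_ψ_pow (m : ℕ) (d : {d : D // c (N.fc d) = r}) :
    N.σ (((hN.sM r * hN.aM r) ^ m) d).1 = (N.φ ^ (2 * m)) (N.σ d.1) := by
  induction m with
  | zero => simp
  | succ m ih =>
    rw [pow_succ', Equiv.Perm.mul_apply, Equiv.Perm.mul_apply, hN.σ_ψ, ih]
    have : 2 * (m + 1) = (1 + 1) + 2 * m := by omega
    rw [this, pow_add, Equiv.Perm.mul_apply, pow_add, Equiv.Perm.mul_apply]
    simp

theorem φ_pow_sM_pow (k : ℕ) (x : {d : D // c (N.fc d) = r}) :
    (N.φ ^ k) ((hN.sM r ^ k) x).1 = x.1 := by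
  induction k with
  | zero => simp
  | succ k ih =>
    have e1 : (hN.sM r ^ (k + 1)) x = hN.sM r ((hN.sM r ^ k) x) := by
      rw [pow_succ']
      rfl
    have e2 : ∀ y, (N.φ ^ (k + 1)) y = (N.φ ^ k) (N.φ y) := by
      intro y
      rw [pow_succ]
      rfl
    have : N.φ ((hN.sM r) ((hN.sM r ^ k) x)).1 = ((hN.sM r ^ k) x).1 := by
      rw [sM_val]
      show N.σ (N.α (N.α (N.σ (N.σ _)))) = _
      rw [N.α_α, hN.σ3]
    rw [e1, e2, this, ih]

theorem sM_inv_closed (P : {d : D // c (N.fc d) = r} → Prop)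
    (h : ∀ d, P d → P (hN.sM r d)) : ∀ d, P d → P ((hN.sM r)⁻¹ d) := by
  intro d hd
  have hpow : ∀ k : ℕ, ∀ x, P x → P ((hN.sM r ^ k) x) := by
    intro k
    induction k with
    | zero => simp
    | succ k ih =>
      intro x hx
      rw [pow_succ', Equiv.Perm.mul_apply]
      exact h _ (ih x hx)
  have hfin : 0 < orderOf (hN.sM r) := orderOf_pos _
  have : ((hN.sM r)⁻¹ : Equiv.Perm _) = hN.sM r ^ (orderOf (hN.sM r) - 1) := by
    rw [eq_comm, eq_inv_iff_mul_eq_one, ← pow_succ, Nat.sub_add_cancel hfin, pow_orderOf_eq_one]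
  rw [this]
  exact hpow _ _ hd

/-- The red dart at a vertex. -/
def rd (x : D) : {d : D // c (N.fc d) = r} :=
  ⟨(hN.red_exists r x).choose, (hN.red_exists r x).choose_spec.2⟩

theorem rd_vt (x : D) : N.vt (hN.rd r x).1 = N.vt x := (hN.red_exists r x).choose_spec.1

theorem rd_eq {x : D} {d : {d : D // c (N.fc d) = r}} (h : N.vt d.1 = N.vt x) :
    hN.rd r x = d :=
  Subtype.ext (hN.red_unique r ((hN.rd_vt r x).trans h.symm) (hN.rd r x).2 d.2)

theorem contract_conn (P : {d : D // c (N.fc d) = r} → Prop) (h1 : ∀ d, P d → P (hN.sM r d))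
    (h2 : ∀ d, P d → P (hN.aM r d)) (a b : {d : D // c (N.fc d) = r}) (ha : P a) : P b := by
  have hQ := N.conn (fun x => P (hN.rd r x))
    (by
      intro x hx
      have : hN.rd r (N.σ x) = hN.rd r x := by
        apply hN.rd_eq
        rw [N.vt_σ, hN.rd_vt]
      show P _
      rw [this]
      exact hx)
    (by
      intro x hx
      show P _
      rcases hN.vt_cases (hN.rd_vt r x).symm with h | h | h
      · -- the dart runs along the red face
        have : hN.rd r (N.α x) = (hN.sM r)⁻¹ (hN.rd r x) := by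
          apply hN.rd_eq
          rw [sM_inv_val, N.vt_σ, ← h]
        rw [this]
        exact hN.sM_inv_closed r P h1 _ hx
      · have : hN.rd r (N.α x) = hN.aM r (hN.rd r x) := by
          apply hN.rd_eq
          rw [aM_val, N.vt_σ, N.vt_σ, ← h]
        rw [this]
        exact h2 _ hx
      · have : hN.rd r (N.α x) = hN.sM r (hN.rd r x) := by
          apply hN.rd_eq
          rw [sM_val, ← h]
        rw [this]
        exact h1 _ hx)
  have hb := hQ a.1 b.1 (by
    show P _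
    rw [hN.rd_eq r (d := a) rfl]
    exact ha)
  have hb' : P (hN.rd r b.1) := hb
  rwa [hN.rd_eq r (d := b) rfl] at hb'

theorem card_DR : Fintype.card {d : D // c (N.fc d) = r} = Fintype.card V := by
  apply Fintype.card_of_bijective (f := fun d : {d : D // c (N.fc d) = r} => N.vt d.1)
  constructor
  · intro a b h
    exact Subtype.ext (hN.red_unique r h a.2 b.2)
  · intro v
    obtain ⟨x, rfl⟩ := N.vt_surj v
    exact ⟨hN.rd r x, hN.rd_vt r x⟩

/-- The edges of the contracted map. -/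
abbrev ER (N : PMap D V E F) (c : F → Fin 3) (r : Fin 3) : Type :=
  {e : E // ∃ d, c (N.fc d) = r ∧ N.ed (N.σ d) = e}

theorem card_DR_ER : Fintype.card {d : D // c (N.fc d) = r} = 2 * Fintype.card (ER N c r) := by
  let g : {d : D // c (N.fc d) = r} → ER N c r := fun d => ⟨N.ed (N.σ d.1), d.1, d.2, rfl⟩
  have := Finset.card_eq_sum_card_fiberwise (f := g) (s := univ) (t := univ)
    (fun _ _ => Finset.mem_coe.2 (Finset.mem_univ _))
  rw [Finset.card_univ] at this
  rw [this]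
  have h2 : ∀ e : ER N c r, (univ.filter fun d => g d = e).card = 2 := by
    rintro ⟨e, d0, hd0, rfl⟩
    have : (univ.filter fun d => g d = ⟨N.ed (N.σ d0), d0, hd0, rfl⟩) =
        {⟨d0, hd0⟩, hN.aM r ⟨d0, hd0⟩} := by
      ext x
      simp only [mem_filter, mem_univ, true_and, mem_insert, mem_singleton, g, Subtype.mk.injEq]
      rw [eq_comm, hN.ed_eq_aux r ⟨d0, hd0⟩ x]
    rw [this, Finset.card_pair (hN.aM_ne r _).symm]
  simp [h2, mul_comm, Finset.card_univ]

/-- The contracted map: vertices are the red faces, faces are the other faces. -/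
def contract : PMap {d : D // c (N.fc d) = r} {f : F // c f = r} (ER N c r) {f : F // c f ≠ r} where
  σ := hN.sM r
  α := hN.aM r
  vt d := ⟨N.fc d.1, d.2⟩
  ed d := ⟨N.ed (N.σ d.1), d.1, d.2, rfl⟩
  fc d := ⟨N.fc (N.σ d.1), hN.nonred_σ r d.2⟩
  α_α := by
    intro d
    apply Subtype.ext
    show N.σ (N.σ (N.α (N.σ (N.σ (N.σ (N.α (N.σ d.1))))))) = d.1
    rw [hN.σ3, N.α_α, hN.σ3]
  α_ne := hN.aM_ne r
  vt_σ := by
    intro d
    apply Subtype.ext
    show N.fc (N.α (N.σ (N.σ d.1))) = N.fc d.1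
    rw [N.fc_α, hN.σ3]
  fc_step := by
    intro d
    apply Subtype.ext
    show N.fc (N.σ (hN.sM r (hN.aM r d)).1) = N.fc (N.σ d.1)
    rw [hN.σ_ψ, N.fc_φ, N.fc_φ]
  ed_eq := by
    intro d d'
    rw [Subtype.mk.injEq]
    exact hN.ed_eq_aux r d d'
  vt_surj := by
    rintro ⟨f, hf⟩
    obtain ⟨d, rfl⟩ := N.fc_surj f
    exact ⟨⟨d, hf⟩, rfl⟩
  ed_surj := by
    rintro ⟨e, d, hd, rfl⟩
    exact ⟨⟨d, hd⟩, rfl⟩
  fc_surj := by
    rintro ⟨f, hf⟩
    obtain ⟨x, rfl⟩ := N.fc_surj f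
    rcases hN.vt_cases (hN.rd_vt r x).symm with h | h | h
    · exfalso
      apply hf
      rw [h]
      exact (hN.rd r x).2
    · refine ⟨hN.rd r x, Subtype.ext ?_⟩
      show N.fc (N.σ (hN.rd r x).1) = N.fc x
      rw [← h]
    · refine ⟨hN.sM r (hN.rd r x), Subtype.ext ?_⟩
      show N.fc (N.σ (N.α (N.σ (N.σ (hN.rd r x).1)))) = N.fc x
      rw [N.fc_step, ← h]
  vt_orbit := by
    intro d d' h
    have h' : N.fc d'.1 = N.fc d.1 := (congrArg Subtype.val h).symm
    obtain ⟨k, hk⟩ := N.fc_orbit d'.1 d.1 h'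
    refine ⟨k, Subtype.ext ?_⟩
    have h1 := hN.φ_pow_sM_pow r k d
    have h2 : (N.φ ^ k) ((hN.sM r ^ k) d).1 = (N.φ ^ k) d'.1 := by
      rw [h1]
      exact hk.symm
    exact (N.φ ^ k).injective h2
  fc_orbit := by
    intro d d' h
    have h' : N.fc (N.σ d.1) = N.fc (N.σ d'.1) := congrArg Subtype.val h
    obtain ⟨k, hk⟩ := N.fc_orbit _ _ h'
    obtain ⟨m, hm | hm⟩ := Nat.even_or_odd' k
    · refine ⟨m, Subtype.ext ?_⟩
      apply N.σ.injective
      rw [hN.σ_ψ_pow, ← hm, hk]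
    · exfalso
      have h1 : N.σ (N.α (N.σ ((hN.sM r * hN.aM r) ^ m • d).1)) = N.σ d'.1 := by
        rw [← hk, hm, pow_succ', Equiv.Perm.mul_apply]
        have := hN.σ_ψ_pow r m d
        rw [← this]
        rfl
      have h2 := N.σ.injective h1
      have h3 := d'.2
      rw [← h2, N.fc_α] at h3
      exact hN.nonred_σσ r ((hN.sM r * hN.aM r) ^ m • d).2 h3
  conn := hN.contract_conn r
  euler := by
    have h1 := hN.card_DR r
    have h2 := hN.card_DR_ER r
    obtain ⟨h3, h4⟩ := PMap.cubic_counts hN.σ3 hN.σ1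
    have h5 := N.euler
    have h6 : Fintype.card {f : F // c f = r} + Fintype.card {f : F // c f ≠ r} =
        Fintype.card F := by
      rw [← Fintype.card_sum]
      exact Fintype.card_congr (Equiv.sumCompl _)
    omega

end Tricol

end

end Vale.Agent.Lib.P039B
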