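import Vale.Agent.Lib.P039B.Contract

/-!
Face sizes and degrees of the contracted map, and the hypotheses needed for the hypertree.
-/

namespace Vale.Agent.Lib.P039B

open Finset Module

open scoped Classical

noncomputable section

set_option linter.unusedSectionVars false

variable {D V E F : Type} [Fintype D] [Fintype V] [Fintype E] [Fintype F]

/-- Hypotheses on the coloured cubic map. -/
structure Hyp (N : PMap D V E F) (c : F → Fin 3) (r : Fin 3) : Prop where
  simple : ∀ d d', N.vt d = N.vt d' → N.vt (N.α d) = N.vt (N.α d') → d = d'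
  tsimple : ∀ d d', N.fc d = N.fc d' → N.fc (N.α d) = N.fc (N.α d') → d = d'
  red6 : ∀ f, c f = r → 6 ≤ N.fsize f
  big : ∀ d d', c (N.fc d) = r → N.fc d = N.fc d' → 8 ≤ N.fsize (N.fc (N.α d)) →
    8 ≤ N.fsize (N.fc (N.α d')) → N.fc (N.α d) = N.fc (N.α d')

namespace Tricol

variable {N : PMap D V E F} {c : F → Fin 3} (hN : Tricol N c) (r : Fin 3)

include hN

theorem vdeg_contract (v : {f : F // c f = r}) : (hN.contract r).vdeg v = N.fsize v.1 := by
  unfold PMap.vdeg PMap.fsize
  apply Finset.card_bij (fun d _ => d.1)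
  · intro d hd
    simp only [mem_filter, mem_univ, true_and] at hd ⊢
    exact congrArg Subtype.val hd
  · intro a _ b _ h
    exact Subtype.ext h
  · intro x hx
    simp only [mem_filter, mem_univ, true_and] at hx
    refine ⟨⟨x, by rw [hx]; exact v.2⟩, ?_, rfl⟩
    simp only [mem_filter, mem_univ, true_and]
    exact Subtype.ext hx

theorem fsize_contract (f : {f : F // c f ≠ r}) :
    2 * (hN.contract r).fsize f = N.fsize f.1 := by
  set B := univ.filter fun x => N.fc x = f.1 ∧ c (N.fc (N.α x)) ≠ r with hB
  set C := univ.filter fun x => N.fc x = f.1 ∧ c (N.fc (N.α x)) = r with hC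
  have h1 : N.fsize f.1 = C.card + B.card := by
    unfold PMap.fsize
    have := Finset.card_filter_add_card_filter_not (s := univ.filter fun d => N.fc d = f.1)
      (fun x => c (N.fc (N.α x)) = r)
    rw [Finset.filter_filter, Finset.filter_filter] at this
    exact this.symm
  have h2 : B.card ≤ C.card := by
    apply Finset.card_le_card_of_injOn N.φ
    · intro x hx
      simp only [hB, hC, coe_filter, mem_univ, true_and, Set.mem_ofPred_eq] at hx ⊢
      refine ⟨by rw [N.fc_φ]; exact hx.1, ?_⟩
      show c (N.fc (N.α (N.σ (N.α x)))) = r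
      rw [N.fc_α]
      apply hN.red_third r (N.α x) hx.2
      rw [← N.fc_α, N.α_α, hx.1]
      exact f.2
    · exact fun a _ b _ h => N.φ.injective h
  have h3 : C.card ≤ B.card := by
    apply Finset.card_le_card_of_injOn N.φ
    · intro x hx
      simp only [hB, hC, coe_filter, mem_univ, true_and, Set.mem_ofPred_eq] at hx ⊢
      refine ⟨by rw [N.fc_φ]; exact hx.1, ?_⟩
      show c (N.fc (N.α (N.σ (N.α x)))) ≠ r
      rw [N.fc_α]
      exact hN.nonred_σσ r hx.2
    · exact fun a _ b _ h => N.φ.injective h
  have h4 : (hN.contract r).fsize f = B.card := by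
    unfold PMap.fsize
    apply Finset.card_bij (fun d _ => N.σ d.1)
    · intro d hd
      simp only [mem_filter, mem_univ, true_and, hB] at hd ⊢
      refine ⟨congrArg Subtype.val hd, ?_⟩
      rw [N.fc_α]
      exact hN.nonred_σσ r d.2
    · intro a _ b _ h
      exact Subtype.ext (N.σ.injective h)
    · intro x hx
      simp only [mem_filter, mem_univ, true_and, hB] at hx
      have hred : c (N.fc (N.σ (N.σ x))) = r := by
        apply hN.red_third r x
        · rw [hx.1]
          exact f.2
        · rw [← N.fc_α]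
          exact hx.2
      refine ⟨⟨N.σ (N.σ x), hred⟩, ?_, hN.σ3 x⟩
      simp only [mem_filter, mem_univ, true_and]
      apply Subtype.ext
      show N.fc (N.σ (N.σ (N.σ x))) = f.1
      rw [hN.σ3]
      exact hx.1
  omega

theorem good_contract (hH : Hyp N c r) : (hN.contract r).Good where
  loopless := by
    intro d h
    have hv : N.fc (hN.aM r d).1 = N.fc d.1 := congrArg Subtype.val h
    -- the next dart along the contracted face has the same two sides as `d`
    set e := hN.sM r (hN.aM r d) with he
    have h1 : N.fc e.1 = N.fc d.1 := by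
      rw [← hv, he, hN.sM_val, N.fc_α, hN.σ3]
    have h2 : N.σ e.1 = N.φ (N.φ (N.σ d.1)) := hN.σ_ψ r d
    have h3 : N.fc (N.α e.1) = N.fc (N.α d.1) := by
      rw [N.fc_α, N.fc_α, h2, N.fc_φ, N.fc_φ]
    have h4 : e.1 = d.1 := hH.tsimple _ _ h1 h3
    rw [h4] at h2
    -- a face of two sides contradicts simplicity
    set g := N.σ d.1 with hg
    have h5 : N.α (N.φ g) = N.σ (N.σ g) := by
      apply N.σ.injective
      rw [hN.σ3]
      exact h2.symm
    have h6 : N.φ g = N.α g := by
      apply hH.simple
      · rw [N.vt_φ]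
      · rw [h5, N.vt_σ, N.vt_σ, N.α_α]
    exact hN.σ1 (N.α g) h6
  corners := by
    intro d d' h1 h2
    have h1' : N.fc (N.σ d.1) = N.fc (N.σ d'.1) := congrArg Subtype.val h1
    have h2' : N.fc d.1 = N.fc d'.1 := congrArg Subtype.val h2
    apply Subtype.ext
    apply hH.tsimple _ _ h2'
    rw [N.fc_α, N.fc_α, h1']
  deg6 := by
    intro v
    rw [hN.vdeg_contract]
    exact hH.red6 _ v.2
  bigone := by
    intro d d' h1 h2 h3
    have h1' : N.fc d.1 = N.fc d'.1 := congrArg Subtype.val h1
    have h4 := hN.fsize_contract r ((hN.contract r).fc d)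
    have h5 := hN.fsize_contract r ((hN.contract r).fc d')
    have h6 : ((hN.contract r).fc d).1 = N.fc (N.α d.1) := (N.fc_α d.1).symm
    have h7 : ((hN.contract r).fc d').1 = N.fc (N.α d'.1) := (N.fc_α d'.1).symm
    rw [h6] at h4
    rw [h7] at h5
    apply Subtype.ext
    apply hH.tsimple _ _ h1'
    exact hH.big _ _ d.2 h1' (by omega) (by omega)

end Tricol

end

end Vale.Agent.Lib.P039B
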