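import Vale.Agent.Lib.P039B.Hypertree

/-!
Two faces of a spanning hypertree share no edge.
-/

namespace Vale.Agent.Lib.P039B

open Finset Module

open scoped Classical

noncomputable section

set_option linter.unusedSectionVars false

/-- A connected graph with `card Idx` edges has at most `card Idx + 1` vertices. -/
theorem rank_count {Idx W : Type} [Fintype Idx] [Fintype W] (s t : Idx → W)
    (h : ∀ φ : W → ℚ, (∀ i, φ (s i) = φ (t i)) → ∀ u v, φ u = φ v) :
    Fintype.card W ≤ Fintype.card Idx + 1 := by
  let L : (W → ℚ) →ₗ[ℚ] (Idx → ℚ) :=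
    { toFun := fun φ i => φ (s i) - φ (t i)
      map_add' := by
        intro a b
        ext i
        simp only [Pi.add_apply]
        ring
      map_smul' := by
        intro a b
        ext i
        simp only [Pi.smul_apply, smul_eq_mul, RingHom.id_apply]
        ring }
  have h1 := LinearMap.finrank_range_add_finrank_ker L
  have h2 : finrank ℚ (LinearMap.range L) ≤ Fintype.card Idx := by
    have := Submodule.finrank_le (LinearMap.range L)
    simpa using this
  have h3 : finrank ℚ (LinearMap.ker L) ≤ 1 := by
    have hle : LinearMap.ker L ≤ Submodule.span ℚ {(fun _ => 1 : W → ℚ)} := by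
      intro φ hφ
      rw [LinearMap.mem_ker] at hφ
      have hc : ∀ u v, φ u = φ v := by
        apply h
        intro i
        have := congrFun hφ i
        exact sub_eq_zero.mp this
      rw [Submodule.mem_span_singleton]
      by_cases hW : Nonempty W
      · obtain ⟨u⟩ := hW
        refine ⟨φ u, ?_⟩
        ext v
        simp [hc u v]
      · refine ⟨0, ?_⟩
        ext v
        exact absurd ⟨v⟩ hW
    have h4 := Submodule.finrank_mono hle
    have h5 : finrank ℚ (Submodule.span ℚ ({(fun _ => 1 : W → ℚ)} : Set (W → ℚ))) ≤ 1 := by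
      have := finrank_span_finset_le_card (R := ℚ) ({(fun _ => 1 : W → ℚ)} : Finset (W → ℚ))
      simp only [coe_singleton, card_singleton] at this
      exact this
    omega
  have h6 : finrank ℚ (W → ℚ) = Fintype.card W := Module.finrank_fintype_fun_eq_card ℚ
  omega

variable {D V E F : Type} [Fintype D] [Fintype V] [Fintype E] [Fintype F]

namespace PMap

variable {M : PMap D V E F}

theorem φ_pow_fc (k : ℕ) (d : D) : M.fc ((M.φ ^ k) d) = M.fc d := M.fc_pow k d

/-- The darts of a face with two sides. -/
theorem Good.digon_period (hG : M.Good) {b : D} (h : M.fsize (M.fc b) = 2) :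
    M.φ (M.φ b) = b := by
  have hsub : ({b, M.φ b} : Finset D) ⊆ univ.filter fun d => M.fc d = M.fc b := by
    intro x hx
    simp only [mem_insert, mem_singleton] at hx
    simp only [mem_filter, mem_univ, true_and]
    rcases hx with rfl | rfl
    · rfl
    · exact M.fc_φ b
  have hc : ({b, M.φ b} : Finset D).card = 2 := Finset.card_pair (hG.φ_ne b).symm
  have heq := Finset.eq_of_subset_of_card_le hsub (by
    rw [hc]
    exact h.le)
  have hmem : M.φ (M.φ b) ∈ univ.filter fun d => M.fc d = M.fc b := by
    simp only [mem_filter, mem_univ, true_and]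
    rw [M.fc_φ, M.fc_φ]
  rw [← heq] at hmem
  simp only [mem_insert, mem_singleton] at hmem
  rcases hmem with h1 | h1
  · exact h1
  · exact absurd (M.φ.injective h1) (hG.φ_ne b)

/-- The darts of a face with three sides. -/
theorem Good.tri_period (hG : M.Good) {b : D} (h : M.fsize (M.fc b) = 3) :
    M.φ (M.φ (M.φ b)) = b := by
  have h2 : M.φ (M.φ b) ≠ b := by
    intro hb
    have hall : ∀ k : ℕ, (M.φ ^ k) b = b ∨ (M.φ ^ k) b = M.φ b := by
      intro k
      induction k with
      | zero => simp
      | succ k ih =>
        rw [pow_succ', Equiv.Perm.mul_apply]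
        rcases ih with h3 | h3
        · right
          rw [h3]
        · left
          rw [h3, hb]
    have hsub : (univ.filter fun d => M.fc d = M.fc b) ⊆ {b, M.φ b} := by
      intro x hx
      simp only [mem_filter, mem_univ, true_and] at hx
      obtain ⟨k, hk⟩ := M.fc_orbit b x hx.symm
      simp only [mem_insert, mem_singleton]
      rw [← hk]
      exact hall k
    have h4 := Finset.card_le_card hsub
    have h5 : ({b, M.φ b} : Finset D).card = 2 := Finset.card_pair (hG.φ_ne b).symm
    unfold PMap.fsize at h
    omega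
  have h1 := hG.φ_ne b
  have h3 := hG.φ_ne (M.φ b)
  have hsub : ({b, M.φ b, M.φ (M.φ b)} : Finset D) ⊆ univ.filter fun d => M.fc d = M.fc b := by
    intro x hx
    simp only [mem_insert, mem_singleton] at hx
    simp only [mem_filter, mem_univ, true_and]
    rcases hx with rfl | rfl | rfl
    · rfl
    · exact M.fc_φ b
    · rw [M.fc_φ, M.fc_φ]
  have hc : ({b, M.φ b, M.φ (M.φ b)} : Finset D).card = 3 := by
    rw [Finset.card_insert_of_notMem (by
      simp only [mem_insert, mem_singleton, not_or]
      exact ⟨h1.symm, h2.symm⟩), Finset.card_pair h3.symm]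
  have heq := Finset.eq_of_subset_of_card_le hsub (by
    rw [hc]
    exact h.le)
  have hmem : M.φ (M.φ (M.φ b)) ∈ univ.filter fun d => M.fc d = M.fc b := by
    simp only [mem_filter, mem_univ, true_and]
    rw [M.fc_φ, M.fc_φ, M.fc_φ]
  rw [← heq] at hmem
  simp only [mem_insert, mem_singleton] at hmem
  rcases hmem with h4 | h4 | h4
  · exact h4
  · exact absurd (M.φ.injective h4) h2
  · exact absurd (M.φ.injective h4) h3

/-- A function constant along one side of a digon or two sides of a triangle is constant on the
whole face. -/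
theorem Good.small_face_const (hG : M.Good) (g : V → ℚ) {b : D}
    (hb : M.fsize (M.fc b) = 2 ∨ M.fsize (M.fc b) = 3)
    (h1 : g (M.vt b) = g (M.vt (M.α b)))
    (h2 : M.fsize (M.fc b) = 3 → g (M.vt (M.φ b)) = g (M.vt (M.α (M.φ b)))) :
    ∀ d, M.fc d = M.fc b → g (M.vt d) = g (M.vt (M.α d)) := by
  have h1' : g (M.vt b) = g (M.vt (M.φ b)) := by
    rw [h1, M.vt_φ]
  have hall : ∀ k : ℕ, g (M.vt ((M.φ ^ k) b)) = g (M.vt b) := by
    rcases hb with hb | hb
    · have hper := hG.digon_period hb
      have : ∀ k : ℕ, (M.φ ^ k) b = b ∨ (M.φ ^ k) b = M.φ b := by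
        intro k
        induction k with
        | zero => simp
        | succ k ih =>
          rw [pow_succ', Equiv.Perm.mul_apply]
          rcases ih with h3 | h3
          · right
            rw [h3]
          · left
            rw [h3, hper]
      intro k
      rcases this k with h3 | h3
      · rw [h3]
      · rw [h3, h1']
    · have hper := hG.tri_period hb
      have h2' : g (M.vt (M.φ b)) = g (M.vt (M.φ (M.φ b))) := by
        rw [h2 hb, M.vt_φ (M.φ b)]
      have : ∀ k : ℕ, (M.φ ^ k) b = b ∨ (M.φ ^ k) b = M.φ b ∨ (M.φ ^ k) b = M.φ (M.φ b) := by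
        intro k
        induction k with
        | zero => simp
        | succ k ih =>
          rw [pow_succ', Equiv.Perm.mul_apply]
          rcases ih with h3 | h3 | h3
          · right; left
            rw [h3]
          · right; right
            rw [h3]
          · left
            rw [h3, hper]
      intro k
      rcases this k with h3 | h3 | h3
      · rw [h3]
      · rw [h3, h1']
      · rw [h3, ← h2', h1']
  intro d hd
  obtain ⟨k, rfl⟩ := M.fc_orbit b d hd.symm
  have h5 := hall (k + 1)
  rw [pow_succ', Equiv.Perm.mul_apply, M.vt_φ] at h5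
  rw [h5, hall k]

/-- Two faces of a spanning hypertree share no edge. -/
theorem Good.no_shared_edge (hG : M.Good) (X : Finset F)
    (hX : ∀ f ∈ X, M.fsize f = 2 ∨ M.fsize f = 3)
    (hspan : ∀ g : V → ℚ, (∀ d, M.fc d ∈ X → g (M.vt d) = g (M.vt (M.α d))) → ∀ u v, g u = g v)
    (hcount : 2 * (X.filter fun f => M.fsize f = 3).card + (X.filter fun f => M.fsize f = 2).card + 1
      ≤ Fintype.card V)
    (d0 : D) (hne : M.fc d0 ≠ M.fc (M.α d0)) (h1 : M.fc d0 ∈ X) (h2 : M.fc (M.α d0) ∈ X) : False := by
  -- a base dart for every face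
  let b : F → D := fun f =>
    if f = M.fc d0 then d0 else if f = M.fc (M.α d0) then M.α d0 else (M.fc_surj f).choose
  have hb : ∀ f, M.fc (b f) = f := by
    intro f
    simp only [b]
    split_ifs with h3 h4
    · exact h3.symm
    · exact h4.symm
    · exact (M.fc_surj f).choose_spec
  have hb1 : b (M.fc d0) = d0 := by
    simp [b]
  have hb2 : b (M.fc (M.α d0)) = M.α d0 := by
    simp [b, hne.symm]
  let pick : F → Finset D := fun f => if M.fsize f = 3 then {b f, M.φ (b f)} else {b f}
  let S : Finset D := X.biUnion pick
  have hbS : ∀ f ∈ X, b f ∈ S := by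
    intro f hf
    refine Finset.mem_biUnion.2 ⟨f, hf, ?_⟩
    simp only [pick]
    split_ifs <;> simp
  have hφS : ∀ f ∈ X, M.fsize f = 3 → M.φ (b f) ∈ S := by
    intro f hf h3
    refine Finset.mem_biUnion.2 ⟨f, hf, ?_⟩
    simp only [pick]
    rw [if_pos h3]
    simp
  have hpick : ∀ f, (pick f).card ≤ if M.fsize f = 3 then 2 else 1 := by
    intro f
    simp only [pick]
    split_ifs
    · exact Finset.card_le_two
    · simp
  have hSsum : S.card ≤ 2 * (X.filter fun f => M.fsize f = 3).card +
      (X.filter fun f => M.fsize f = 2).card := by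
    calc S.card ≤ ∑ f ∈ X, (pick f).card := Finset.card_biUnion_le
      _ ≤ ∑ f ∈ X, (if M.fsize f = 3 then 2 else 1) := Finset.sum_le_sum fun f _ => hpick f
      _ = 2 * (X.filter fun f => M.fsize f = 3).card +
          (X.filter fun f => M.fsize f ≠ 3).card := by
        rw [Finset.sum_ite]
        simp [mul_comm]
      _ = _ := by
        congr 2
        apply Finset.filter_congr
        intro f hf
        rcases hX f hf with h | h <;> simp [h]
  -- the edges used
  let Idx : Finset E := S.image M.ed
  have hIdx : Idx.card + 1 ≤ S.card := by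
    have h3 : Idx.card ≠ S.card := by
      intro h4
      have h5 := Finset.card_image_iff.1 h4
      have h6 : d0 ∈ S := by
        have := hbS _ h1
        rwa [hb1] at this
      have h7 : M.α d0 ∈ S := by
        have := hbS _ h2
        rwa [hb2] at this
      have h8 := h5 (Finset.mem_coe.2 h6) (Finset.mem_coe.2 h7) (M.ed_α d0).symm
      exact M.α_ne d0 h8.symm
    have h4 : Idx.card ≤ S.card := Finset.card_image_le
    omega
  have hIdx2 : ∀ e : {e // e ∈ Idx}, ∃ d, M.ed d = e.1 := by
    rintro ⟨e, he⟩
    obtain ⟨d, _, rfl⟩ := Finset.mem_image.1 he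
    exact ⟨d, rfl⟩
  have hrk := rank_count (Idx := {e // e ∈ Idx}) (W := V)
    (fun e => M.vt (hIdx2 e).choose) (fun e => M.vt (M.α (hIdx2 e).choose)) (by
      intro g hg
      apply hspan
      have hS : ∀ d ∈ S, g (M.vt d) = g (M.vt (M.α d)) := by
        intro d hd
        have he : M.ed d ∈ Idx := Finset.mem_image_of_mem _ hd
        have h3 : g (M.vt (hIdx2 ⟨M.ed d, he⟩).choose) =
            g (M.vt (M.α (hIdx2 ⟨M.ed d, he⟩).choose)) := hg ⟨M.ed d, he⟩
        have h4 := (hIdx2 ⟨M.ed d, he⟩).choose_spec
        generalize (hIdx2 ⟨M.ed d, he⟩).choose = x at h3 h4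
        rcases (M.ed_eq _ _).1 h4 with h5 | h5
        · rw [h5]
          exact h3
        · rw [h5, M.α_α]
          exact h3.symm
      intro d hd
      have h3 := hX _ hd
      apply hG.small_face_const g (b := b (M.fc d))
      · rw [hb]
        exact h3
      · exact hS _ (hbS _ hd)
      · intro h4
        rw [hb] at h4
        exact hS _ (hφS _ hd h4)
      · rw [hb])
  rw [Fintype.card_coe] at hrk
  omega

end PMap

end

end Vale.Agent.Lib.P039B
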