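import Vale.Agent.Lib.P039B.ContractGood
import Vale.Agent.Lib.P039B.Share

/-!
The region: the red faces together with the faces of a spanning hypertree of the contracted map.
-/

namespace Vale.Agent.Lib.P039B

open Finset Module

open scoped Classical

noncomputable section

set_option linter.unusedSectionVars false

variable {D V E F : Type} [Fintype D] [Fintype V] [Fintype E] [Fintype F]

theorem F_eq_of_ite (a b : 𝔽)
    (h : (if a = 0 then (0 : ℚ) else 1) = (if b = 0 then (0 : ℚ) else 1)) : a = b := by
  revert a b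
  decide +revert

namespace Tricol

variable {N : PMap D V E F} {c : F → Fin 3} (hN : Tricol N c) (r : Fin 3)

include hN

theorem exists_region (hH : Hyp N c r) : ∃ A : F → Prop,
    (∀ v, ∃ d, N.vt d = v ∧ A (N.fc d)) ∧ (∀ v, ∃ d, N.vt d = v ∧ ¬ A (N.fc d)) ∧
    (∀ S : F → 𝔽, (∀ d, A (N.fc d) → A (N.fc (N.α d)) → S (N.fc d) = S (N.fc (N.α d))) →
      ∀ f f', A f → A f' → S f = S f') ∧
    (univ.filter fun d => A (N.fc d) ∧ A (N.fc (N.α d))).card + 2 ≤ 2 * (univ.filter A).card := by
  set M := hN.contract r with hM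
  have hG : M.Good := hN.good_contract r hH
  obtain ⟨X, hX, hspan, hcount⟩ := PMap.exists_hypertree hG
  let inX : F → Prop := fun f => ∃ h : c f ≠ r, (⟨f, h⟩ : {f // c f ≠ r}) ∈ X
  let A : F → Prop := fun f => c f = r ∨ inX f
  have hfc : ∀ d : {d : D // c (N.fc d) = r}, (M.fc d).1 = N.fc (N.σ d.1) := fun _ => rfl
  have hfcα : ∀ d : {d : D // c (N.fc d) = r}, (M.fc (M.α d)).1 = N.fc (N.σ (N.σ d.1)) := by
    intro d
    show N.fc (N.σ (hN.aM r d).1) = _
    rw [hN.σ_aM, N.fc_α]
  have hlift : ∀ (d : {d : D // c (N.fc d) = r}) (f : F), (M.fc d).1 = f → (inX f ↔ M.fc d ∈ X) := by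
    intro d f hf
    subst hf
    constructor
    · rintro ⟨_, h⟩
      exact h
    · intro h
      exact ⟨(M.fc d).2, h⟩
  have hshare : ∀ d : {d : D // c (N.fc d) = r}, M.fc d ∈ X → M.fc (M.α d) ∈ X → False := by
    intro d h1 h2
    refine hG.no_shared_edge X hX hspan hcount d ?_ h1 h2
    intro h
    have h3 : (M.fc d).1 = (M.fc (M.α d)).1 := congrArg Subtype.val h
    rw [hfc, hfcα] at h3
    exact hN.col_σ (N.σ d.1) (by rw [h3])
  refine ⟨A, ?_, ?_, ?_, ?_⟩
  · intro v
    obtain ⟨x, rfl⟩ := N.vt_surj v
    exact ⟨(hN.rd r x).1, hN.rd_vt r x, Or.inl (hN.rd r x).2⟩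
  · intro v
    obtain ⟨x, rfl⟩ := N.vt_surj v
    set d := hN.rd r x with hd
    have hv : N.vt d.1 = N.vt x := hN.rd_vt r x
    by_cases h : M.fc d ∈ X
    · refine ⟨N.σ (N.σ d.1), by rw [N.vt_σ, N.vt_σ, hv], ?_⟩
      rintro (h1 | h1)
      · exact hN.nonred_σσ r d.2 h1
      · exact hshare d h (((hlift (M.α d) _ (hfcα d))).1 h1)
    · refine ⟨N.σ d.1, by rw [N.vt_σ, hv], ?_⟩
      rintro (h1 | h1)
      · exact hN.nonred_σ r d.2 h1
      · exact h ((hlift d _ (hfc d)).1 h1)
  · intro S hS
    have hside : ∀ d : {d : D // c (N.fc d) = r}, M.fc d ∈ X →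
        S (N.fc d.1) = S (N.fc (N.σ d.1)) := by
      intro d hd
      have h1 := hS d.1 (Or.inl d.2) (by
        rw [N.fc_α]
        exact Or.inr ((hlift d _ (hfc d)).2 hd))
      rwa [N.fc_α] at h1
    have hconst : ∀ u v : {f : F // c f = r}, S u.1 = S v.1 := by
      intro u v
      apply F_eq_of_ite
      refine hspan (fun v => if S v.1 = 0 then (0 : ℚ) else 1) ?_ u v
      intro d hd
      set e := M.σ (M.α d) with he
      have h1 : M.fc e = M.fc d := M.fc_step d
      have h2 : S (N.fc e.1) = S (N.fc (N.σ e.1)) := hside e (by rw [h1]; exact hd)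
      have h3 : N.fc (N.σ e.1) = N.fc (N.σ d.1) := congrArg Subtype.val h1
      have h4 : N.fc e.1 = (M.vt (M.α d)).1 := congrArg Subtype.val (M.vt_σ (M.α d))
      have h5 : S (M.vt d).1 = S (M.vt (M.α d)).1 := by
        rw [← h4, h2, h3, ← hside d hd]
        rfl
      show (if S (M.vt d).1 = 0 then (0 : ℚ) else 1) = if S (M.vt (M.α d)).1 = 0 then (0 : ℚ) else 1
      rw [h5]
    have hrep : ∀ f, A f → ∃ v : {f : F // c f = r}, S f = S v.1 := by
      rintro f (h | ⟨h, hm⟩)
      · exact ⟨⟨f, h⟩, rfl⟩
      · obtain ⟨d, hd⟩ := M.fc_surj ⟨f, h⟩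
        have h1 : N.fc (N.σ d.1) = f := congrArg Subtype.val hd
        refine ⟨⟨N.fc d.1, d.2⟩, ?_⟩
        rw [hside d (by rw [hd]; exact hm), h1]
    intro f f' hf hf'
    obtain ⟨u, hu⟩ := hrep f hf
    obtain ⟨v, hv⟩ := hrep f' hf'
    rw [hu, hv]
    exact hconst u v
  · -- the count
    have hfil : (X.filter fun f => M.fsize f ≠ 3) = (X.filter fun f => M.fsize f = 2) := by
      apply Finset.filter_congr
      intro f hf
      rcases hX f hf with h | h <;> simp [h]
    have hXcard0 := Finset.card_filter_add_card_filter_not (s := X) (fun f => M.fsize f = 3)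
    have hsum0 : ∑ f ∈ X, M.fsize f = 3 * (X.filter fun f => M.fsize f = 3).card +
        2 * (X.filter fun f => M.fsize f ≠ 3).card := by
      calc ∑ f ∈ X, M.fsize f = ∑ f ∈ X, (if M.fsize f = 3 then 3 else 2) := by
            apply Finset.sum_congr rfl
            intro f hf
            rcases hX f hf with h | h <;> simp [h]
        _ = _ := by
            rw [Finset.sum_ite]
            simp [mul_comm]
    rw [hfil] at hsum0
    simp only [ne_eq] at hfil
    rw [hfil] at hXcard0
    set t := (X.filter fun f => M.fsize f = 3).card with ht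
    set δ := (X.filter fun f => M.fsize f = 2).card with hδ
    have hXcard : X.card = t + δ := hXcard0.symm
    have hsum : ∑ f ∈ X, M.fsize f = 3 * t + 2 * δ := hsum0
    set T1 := univ.filter fun d : D => c (N.fc d) = r ∧ inX (N.fc (N.α d)) with hT1
    set T2 := univ.filter fun d : D => inX (N.fc d) ∧ c (N.fc (N.α d)) = r with hT2
    have hT2le : T2.card ≤ T1.card := by
      apply Finset.card_le_card_of_injOn N.α
      · intro x hx
        simp only [hT1, hT2, coe_filter, mem_univ, true_and, Set.mem_ofPred_eq] at hx ⊢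
        rw [N.α_α]
        exact ⟨hx.2, hx.1⟩
      · exact fun a _ b _ h => N.α.injective h
    have hT1card : T1.card = 3 * t + 2 * δ := by
      rw [← hsum]
      have h1 : T1.card = (univ.filter fun d : {d : D // c (N.fc d) = r} => M.fc d ∈ X).card := by
        symm
        apply Finset.card_bij (fun d _ => d.1)
        · intro d hd
          simp only [mem_filter, mem_univ, true_and, hT1] at hd ⊢
          refine ⟨d.2, ?_⟩
          rw [N.fc_α]
          exact (hlift d _ (hfc d)).2 hd
        · intro a _ b _ h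
          exact Subtype.ext h
        · intro x hx
          simp only [mem_filter, mem_univ, true_and, hT1] at hx
          refine ⟨⟨x, hx.1⟩, ?_, rfl⟩
          simp only [mem_filter, mem_univ, true_and]
          have h2 := hx.2
          rw [N.fc_α] at h2
          exact (hlift ⟨x, hx.1⟩ _ (hfc ⟨x, hx.1⟩)).1 h2
      rw [h1]
      rw [Finset.card_eq_sum_card_fiberwise (f := M.fc) (t := X)]
      · apply Finset.sum_congr rfl
        intro f hf
        unfold PMap.fsize
        have h3 : ((univ.filter fun d : {d : D // c (N.fc d) = r} => M.fc d ∈ X).filter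
            fun d => M.fc d = f) = univ.filter fun d => M.fc d = f := by
          ext d
          simp only [mem_filter, mem_univ, true_and]
          exact ⟨fun h => h.2, fun h => ⟨by rw [h]; exact hf, h⟩⟩
        rw [h3]
        congr!
      · intro d hd
        simpa using hd
    have hTsub : (univ.filter fun d => A (N.fc d) ∧ A (N.fc (N.α d))) ⊆ T1 ∪ T2 := by
      intro d hd
      simp only [mem_filter, mem_univ, true_and] at hd
      simp only [hT1, hT2, mem_union, mem_filter, mem_univ, true_and]
      obtain ⟨h1, h2⟩ := hd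
      rcases h1 with h1 | h1 <;> rcases h2 with h2 | h2
      · exact absurd (h1.trans h2.symm) (hN.proper d)
      · exact Or.inl ⟨h1, h2⟩
      · exact Or.inr ⟨h1, h2⟩
      · exfalso
        obtain ⟨h3, h4⟩ := h1
        obtain ⟨h5, h6⟩ := h2
        have hred : c (N.fc (N.σ (N.σ d))) = r := by
          apply hN.red_third r d h3
          rw [← N.fc_α]
          exact h5
        let e : {d : D // c (N.fc d) = r} := ⟨N.σ (N.σ d), hred⟩
        have he1 : N.fc (N.σ e.1) = N.fc d := by
          show N.fc (N.σ (N.σ (N.σ d))) = _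
          rw [hN.σ3]
        have he2 : N.fc (N.σ (N.σ e.1)) = N.fc (N.α d) := by
          show N.fc (N.σ (N.σ (N.σ (N.σ d)))) = _
          rw [hN.σ3, N.fc_α]
        refine hshare e ?_ ?_
        · exact (hlift e _ he1).1 ⟨h3, h4⟩
        · exact (hlift (M.α e) _ ((hfcα e).trans he2)).1 ⟨h5, h6⟩
    have hAcard : Fintype.card {f : F // c f = r} + X.card ≤ (univ.filter A).card := by
      have h1 : (univ.filter fun f : F => c f = r).card = Fintype.card {f : F // c f = r} :=
        (Fintype.card_subtype _).symm
      have h2 : (X.image Subtype.val).card = X.card :=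
        Finset.card_image_of_injective _ Subtype.val_injective
      have h3 : Disjoint (univ.filter fun f : F => c f = r) (X.image Subtype.val) := by
        rw [Finset.disjoint_left]
        intro f hf hf2
        obtain ⟨g, _, rfl⟩ := Finset.mem_image.1 hf2
        simp only [mem_filter, mem_univ, true_and] at hf
        exact g.2 hf
      rw [← h1, ← h2, ← Finset.card_union_of_disjoint h3]
      apply Finset.card_le_card
      intro f hf
      simp only [mem_union, mem_filter, mem_univ, true_and, mem_image] at hf ⊢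
      rcases hf with h | ⟨g, hg, rfl⟩
      · exact Or.inl h
      · exact Or.inr ⟨g.2, hg⟩
    have h1 := Finset.card_le_card hTsub
    have h2 := Finset.card_union_le T1 T2
    have hfinal : (univ.filter fun d => A (N.fc d) ∧ A (N.fc (N.α d))).card + 2 ≤
        2 * (univ.filter A).card := by
      omega
    convert hfinal

end Tricol

end

end Vale.Agent.Lib.P039B
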