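import Vale.Agent.Lib.P039B.Nbrs

/-!
The cut lemma: if the faces of a cubic plane map are split into two classes, no vertex sees
only one class, and one class forms a tree under adjacency, then the edges separating the
classes form a connected spanning subgraph of degree two.
-/

namespace Vale.Agent.Lib.P039B

open Finset Module

open scoped Classical

noncomputable section

variable {D V E F : Type} [Fintype D] [Fintype V] [Fintype E] [Fintype F]

namespace PMap

variable {M : PMap D V E F}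

/-- The dart separates the classes. -/
def Crossing (M : PMap D V E F) (A : F → Prop) (d : D) : Prop :=
  ¬ (A (M.fc d) ↔ A (M.fc (M.α d)))

theorem crossing_α {A : F → Prop} {d : D} : M.Crossing A (M.α d) ↔ M.Crossing A d := by
  unfold Crossing
  rw [M.α_α]
  tauto

theorem three_props (a b c : Prop) (h1 : ¬ (a ∧ b ∧ c)) (h2 : ¬ (¬ a ∧ ¬ b ∧ ¬ c)) :
    ((a ↔ b) ∧ ¬ (b ↔ c) ∧ ¬ (c ↔ a)) ∨ (¬ (a ↔ b) ∧ (b ↔ c) ∧ ¬ (c ↔ a)) ∨
      (¬ (a ↔ b) ∧ ¬ (b ↔ c) ∧ (c ↔ a)) := by
  by_cases a <;> by_cases b <;> by_cases c <;> simp_all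

theorem card_three {α : Type} [DecidableEq α] (P : α → Prop) [DecidablePred P] {x y z : α} (hxy : x ≠ y) (hxz : x ≠ z)
    (hyz : y ≠ z)
    (h : (P x ∧ ¬ P y ∧ ¬ P z) ∨ (¬ P x ∧ P y ∧ ¬ P z) ∨ (¬ P x ∧ ¬ P y ∧ P z)) :
    (({x, y, z} : Finset α).filter P).card = 1 := by
  rcases h with ⟨a, b, c⟩ | ⟨a, b, c⟩ | ⟨a, b, c⟩ <;>
    rw [Finset.filter_insert, Finset.filter_insert, Finset.filter_singleton] <;>
    simp [a, b, c]

section cubic

variable (hσ3 : ∀ d, M.σ (M.σ (M.σ d)) = d) (hσ1 : ∀ d, M.σ d ≠ d)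

include hσ3 hσ1 in
/-- The darts at the tail of `d`. -/
theorem darts_at (d : D) : (univ.filter fun e => M.vt e = M.vt d) = {d, M.σ d, M.σ (M.σ d)} := by
  ext e
  simp only [mem_filter, mem_univ, true_and, mem_insert, mem_singleton]
  constructor
  · intro h
    obtain ⟨k, hk⟩ := M.vt_orbit d e h.symm
    have h3 : ∀ k : ℕ, (M.σ ^ k) d = d ∨ (M.σ ^ k) d = M.σ d ∨ (M.σ ^ k) d = M.σ (M.σ d) := by
      intro k
      induction k with
      | zero => simp
      | succ k ih =>
        rw [pow_succ', Equiv.Perm.mul_apply]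
        rcases ih with h | h | h
        · rw [h]
          exact Or.inr (Or.inl rfl)
        · rw [h]
          exact Or.inr (Or.inr rfl)
        · rw [h, hσ3]
          exact Or.inl rfl
    rw [← hk]
    exact h3 k
  · rintro (rfl | rfl | rfl)
    · rfl
    · exact M.vt_σ _
    · rw [M.vt_σ, M.vt_σ]

include hσ3 hσ1 in
theorem three_distinct (d : D) : d ≠ M.σ d ∧ d ≠ M.σ (M.σ d) ∧ M.σ d ≠ M.σ (M.σ d) := by
  refine ⟨(hσ1 d).symm, ?_, (hσ1 (M.σ d)).symm⟩
  intro h
  have h1 := hσ3 d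
  rw [← h] at h1
  exact hσ1 d h1

include hσ3 hσ1 in
theorem vdeg_eq (v : V) : M.vdeg v = 3 := by
  obtain ⟨d, rfl⟩ := M.vt_surj v
  unfold vdeg
  rw [darts_at hσ3 hσ1 d]
  obtain ⟨h1, h2, h3⟩ := three_distinct hσ3 hσ1 d
  rw [Finset.card_insert_of_notMem (by simp [h1, h2]), Finset.card_pair h3]

include hσ3 hσ1 in
/-- Counting for a cubic map. -/
theorem cubic_counts : Fintype.card D = 3 * Fintype.card V ∧
    Fintype.card D = 2 * Fintype.card E := by
  constructor
  · have := Finset.card_eq_sum_card_fiberwise (f := M.vt) (s := univ) (t := univ)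
      (fun _ _ => Finset.mem_coe.2 (Finset.mem_univ _))
    rw [Finset.card_univ] at this
    rw [this]
    have h2 : ∀ v, (univ.filter fun d => M.vt d = v).card = 3 := vdeg_eq hσ3 hσ1
    simp [h2, mul_comm, Finset.card_univ]
  · have := card_darts_edges (M := M) (univ : Finset E)
    simpa using this

variable (A : F → Prop)
  (ha1 : ∀ v, ∃ d, M.vt d = v ∧ A (M.fc d)) (ha2 : ∀ v, ∃ d, M.vt d = v ∧ ¬ A (M.fc d))

include hσ3 hσ1 ha1 ha2 in
/-- Among the three darts at a vertex exactly one is not crossing. -/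
theorem noncrossing_unique (v : V) :
    (univ.filter fun d => M.vt d = v ∧ ¬ M.Crossing A d).card = 1 := by
  obtain ⟨d, rfl⟩ := M.vt_surj v
  have hfilter : (univ.filter fun e => M.vt e = M.vt d ∧ ¬ M.Crossing A e) =
      ({d, M.σ d, M.σ (M.σ d)} : Finset D).filter fun e => ¬ M.Crossing A e := by
    rw [← darts_at hσ3 hσ1 d, Finset.filter_filter]
  rw [hfilter]
  obtain ⟨h1, h2, h3⟩ := three_distinct hσ3 hσ1 d
  have e1 : M.fc (M.α d) = M.fc (M.σ d) := M.fc_α d
  have e2 : M.fc (M.α (M.σ d)) = M.fc (M.σ (M.σ d)) := M.fc_α _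
  have e3 : M.fc (M.α (M.σ (M.σ d))) = M.fc d := by
    rw [M.fc_α, hσ3]
  obtain ⟨d1, hd1, hA1⟩ := ha1 (M.vt d)
  obtain ⟨d2, hd2, hA2⟩ := ha2 (M.vt d)
  have hm1 : d1 ∈ ({d, M.σ d, M.σ (M.σ d)} : Finset D) := by
    rw [← darts_at hσ3 hσ1 d]
    simp [hd1]
  have hm2 : d2 ∈ ({d, M.σ d, M.σ (M.σ d)} : Finset D) := by
    rw [← darts_at hσ3 hσ1 d]
    simp [hd2]
  simp only [mem_insert, mem_singleton] at hm1 hm2
  have hp0 : ¬ M.Crossing A d ↔ (A (M.fc d) ↔ A (M.fc (M.σ d))) := by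
    unfold Crossing
    rw [e1, not_not]
  have hp1 : ¬ M.Crossing A (M.σ d) ↔ (A (M.fc (M.σ d)) ↔ A (M.fc (M.σ (M.σ d)))) := by
    unfold Crossing
    rw [e2, not_not]
  have hp2 : ¬ M.Crossing A (M.σ (M.σ d)) ↔ (A (M.fc (M.σ (M.σ d))) ↔ A (M.fc d)) := by
    unfold Crossing
    rw [e3, not_not]
  have hn1 : ¬ (A (M.fc d) ∧ A (M.fc (M.σ d)) ∧ A (M.fc (M.σ (M.σ d)))) := by
    rintro ⟨h4, h5, h6⟩
    rcases hm2 with rfl | rfl | rfl
    · exact hA2 h4
    · exact hA2 h5
    · exact hA2 h6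
  have hn2 : ¬ (¬ A (M.fc d) ∧ ¬ A (M.fc (M.σ d)) ∧ ¬ A (M.fc (M.σ (M.σ d)))) := by
    rintro ⟨h4, h5, h6⟩
    rcases hm1 with rfl | rfl | rfl
    · exact h4 hA1
    · exact h5 hA1
    · exact h6 hA1
  have hthree := three_props _ _ _ hn1 hn2
  rw [← hp0, ← hp1, ← hp2] at hthree
  exact card_three (fun e => ¬ M.Crossing A e) h1 h2 h3 (by simpa only [not_not] using hthree)

include hσ3 hσ1 ha1 ha2 in
theorem card_noncrossing :
    (univ.filter fun d => ¬ M.Crossing A d).card = Fintype.card V := by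
  rw [Finset.card_eq_sum_card_fiberwise (f := M.vt) (s := univ.filter fun d => ¬ M.Crossing A d)
    (t := univ) (fun _ _ => Finset.mem_coe.2 (Finset.mem_univ _))]
  have h1 : ∀ v, ((univ.filter fun d => ¬ M.Crossing A d).filter fun d => M.vt d = v).card = 1 := by
    intro v
    rw [Finset.filter_filter, ← noncrossing_unique hσ3 hσ1 A ha1 ha2 v]
    congr 1
    ext d
    simp only [mem_filter, mem_univ, true_and]
    tauto
  simp [h1, Finset.card_univ]

include hσ3 hσ1 ha1 ha2 in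
theorem card_crossing_at (v : V) :
    (univ.filter fun d => M.vt d = v ∧ M.Crossing A d).card = 2 := by
  have h1 := noncrossing_unique hσ3 hσ1 A ha1 ha2 v
  have h2 := vdeg_eq hσ3 hσ1 v (M := M)
  unfold vdeg at h2
  have h3 := Finset.card_filter_add_card_filter_not (s := univ.filter fun d => M.vt d = v)
    (fun d => M.Crossing A d)
  rw [Finset.filter_filter, Finset.filter_filter] at h3
  omega

/-- The edges with both sides outside the class. -/
def PY (M : PMap D V E F) (A : F → Prop) : Finset E :=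
  univ.filter fun e => ∃ d, M.ed d = e ∧ ¬ A (M.fc d) ∧ ¬ A (M.fc (M.α d))

theorem mem_PY {A : F → Prop} {d : D} :
    M.ed d ∈ PY M A ↔ ¬ A (M.fc d) ∧ ¬ A (M.fc (M.α d)) := by
  simp only [PY, mem_filter, mem_univ, true_and]
  constructor
  · rintro ⟨d', hd', h1, h2⟩
    rcases (M.ed_eq d' d).1 hd' with h | h
    · subst h
      exact ⟨h1, h2⟩
    · subst h
      rw [M.α_α]
      exact ⟨h2, h1⟩
  · rintro ⟨h1, h2⟩
    exact ⟨d, rfl, h1, h2⟩

variable (hconn : ∀ S : F → 𝔽, (∀ d, A (M.fc d) → A (M.fc (M.α d)) → S (M.fc d) = S (M.fc (M.α d)))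
    → ∀ f f', A f → A f' → S f = S f')
  (hcount : (univ.filter fun d => A (M.fc d) ∧ A (M.fc (M.α d))).card + 2 ≤
    2 * (univ.filter A).card)

include ha1 hconn in
/-- No even set of the dual lies in the outer edges. -/
theorem ZS_PY_trivial : M.dual.ZS (PY M A) = ⊥ := by
  rw [Submodule.eq_bot_iff]
  rintro z ⟨hz, hz'⟩
  obtain ⟨W, rfl⟩ := M.exists_cob hz
  have hside : ∀ x, A (M.fc x) → W (M.vt x) = W (M.vt (M.α x)) := by
    intro x hx
    have h1 : M.ed x ∉ PY M A := fun h => (mem_PY.1 h).1 hx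
    have h2 := hz' _ h1
    rw [M.cob_apply] at h2
    exact eq_of_add_eq_zero_F h2
  let rf : F → D := fun f => (M.fc_surj f).choose
  have hrf : ∀ f, M.fc (rf f) = f := fun f => (M.fc_surj f).choose_spec
  let Sf : F → 𝔽 := fun f => W (M.vt (rf f))
  have hface : ∀ x, A (M.fc x) → W (M.vt x) = Sf (M.fc x) := by
    intro x hx
    obtain ⟨k, hk⟩ := M.fc_orbit (rf (M.fc x)) x (hrf _)
    have h1 : ∀ k : ℕ, W (M.vt (((M.σ * M.α) ^ k) (rf (M.fc x)))) = Sf (M.fc x) := by
      intro k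
      induction k with
      | zero => rfl
      | succ k ih =>
        rw [pow_succ', Equiv.Perm.mul_apply]
        have h2 : M.fc (((M.σ * M.α) ^ k) (rf (M.fc x))) = M.fc x := by
          rw [M.fc_pow, hrf]
        have h3 := hside _ (by rw [h2]; exact hx)
        rw [M.vt_φ, ← h3]
        exact ih
    rw [← hk]
    have h4 := h1 k
    rw [hk] at h4 ⊢
    exact h4
  have hAA := hconn Sf (by
    intro d h1 h2
    rw [← hface d h1, ← hface (M.α d) h2]
    exact hside d h1)
  have hW : ∀ a b, W a = W b := by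
    intro a b
    obtain ⟨da, hda, hA⟩ := ha1 a
    obtain ⟨db, hdb, hB⟩ := ha1 b
    rw [← hda, ← hdb, hface da hA, hface db hB]
    exact hAA _ _ hA hB
  ext e
  obtain ⟨d, rfl⟩ := M.ed_surj e
  rw [M.cob_apply, hW (M.vt d) (M.vt (M.α d)), add_self_F]
  rfl

/-- The outer edges count. -/
theorem card_outer
    (hnc : (univ.filter fun d => ¬ M.Crossing A d).card = Fintype.card V)
    (hc1 : Fintype.card D = 3 * Fintype.card V) (hc2 : Fintype.card D = 2 * Fintype.card E)
    (hcount : (univ.filter fun d => A (M.fc d) ∧ A (M.fc (M.α d))).card + 2 ≤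
      2 * (univ.filter A).card) :
    (univ.filter fun f => ¬ A f).card ≤ (PY M A).card + 1 := by
  have h1 : (univ.filter fun d => M.ed d ∈ PY M A) =
      univ.filter fun d => ¬ A (M.fc d) ∧ ¬ A (M.fc (M.α d)) := by
    ext d
    simp only [mem_filter, mem_univ, true_and]
    exact mem_PY
  have h2 := card_darts_edges (M := M) (PY M A)
  rw [h1] at h2
  have h3 : (univ.filter fun d => ¬ M.Crossing A d) =
      (univ.filter fun d => A (M.fc d) ∧ A (M.fc (M.α d))) ∪
      (univ.filter fun d => ¬ A (M.fc d) ∧ ¬ A (M.fc (M.α d))) := by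
    ext d
    simp only [Crossing, mem_filter, mem_univ, true_and, mem_union, not_not]
    tauto
  have h4 : Disjoint (univ.filter fun d => A (M.fc d) ∧ A (M.fc (M.α d)))
      (univ.filter fun d => ¬ A (M.fc d) ∧ ¬ A (M.fc (M.α d))) := by
    rw [Finset.disjoint_left]
    intro d hd hd'
    exact (mem_filter.1 hd').2.1 (mem_filter.1 hd).2.1
  rw [h3, Finset.card_union_of_disjoint h4] at hnc
  have h5 := Finset.card_filter_add_card_filter_not (s := (univ : Finset F)) A
  rw [Finset.card_univ] at h5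
  have h6 := M.euler
  omega

include hconn ha1 in
/-- The classes outside are connected. -/
theorem outer_connected
    (hle : (univ.filter fun f => ¬ A f).card ≤ (PY M A).card + 1)
    (S : F → 𝔽) (hS : ∀ d, ¬ A (M.fc d) → ¬ A (M.fc (M.α d)) → S (M.fc d) = S (M.fc (M.α d))) :
    ∀ f f', ¬ A f → ¬ A f' → S f = S f' := by
  intro f f' hf hf'
  set Y : Finset F := univ.filter fun f => ¬ A f with hY
  have hV : ∀ d, M.dual.ed d ∈ PY M A → M.dual.vt d ∈ Y := by
    intro d hd
    simp only [hY, mem_filter, mem_univ, true_and]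
    exact (mem_PY.1 hd).1
  have h1 := M.dual.finrank_ZS (PY M A) Y hV
  have h2 : M.dual.ZS (PY M A) = ⊥ := ZS_PY_trivial A ha1 hconn
  rw [h2, finrank_bot, zero_add] at h1
  have h3 : finrank 𝔽 (M.dual.Cst (PY M A) Y) ≤ 1 := by omega
  let g1 : F → 𝔽 := fun t => if t ∈ Y then 1 else 0
  let g2 : F → 𝔽 := fun t => if t ∈ Y then S t else 0
  have hmemY : ∀ {t}, t ∈ Y ↔ ¬ A t := by
    intro t
    simp [hY]
  have hg1 : g1 ∈ M.dual.Cst (PY M A) Y := by
    refine ⟨?_, ?_⟩
    · intro t ht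
      simp [g1, ht]
    · intro d hd
      have h4 := mem_PY.1 hd
      have h5 : M.fc d ∈ Y := hmemY.2 h4.1
      have h6 : M.fc (M.α d) ∈ Y := hmemY.2 h4.2
      show g1 (M.fc d) = g1 (M.fc (M.α d))
      simp [g1, h5, h6]
  have hg2 : g2 ∈ M.dual.Cst (PY M A) Y := by
    refine ⟨?_, ?_⟩
    · intro t ht
      simp [g2, ht]
    · intro d hd
      have h4 := mem_PY.1 hd
      have h5 : M.fc d ∈ Y := hmemY.2 h4.1
      have h6 : M.fc (M.α d) ∈ Y := hmemY.2 h4.2
      show g2 (M.fc d) = g2 (M.fc (M.α d))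
      simp [g2, h5, h6, hS d h4.1 h4.2]
  have hg10 : g1 ≠ 0 := by
    intro h
    have := congrFun h f
    simp [g1, hmemY.2 hf] at this
  have hspan : Submodule.span 𝔽 {g1} = M.dual.Cst (PY M A) Y := by
    apply Submodule.eq_of_le_of_finrank_le
    · rw [Submodule.span_singleton_le_iff_mem]
      exact hg1
    · rw [finrank_span_singleton hg10]
      exact h3
  rw [← hspan] at hg2
  obtain ⟨c, hc⟩ := Submodule.mem_span_singleton.1 hg2
  have h7 := congrFun hc f
  have h8 := congrFun hc f'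
  simp only [Pi.smul_apply, g1, g2, hmemY.2 hf, hmemY.2 hf', if_true] at h7 h8
  rw [← h7, ← h8]

include hσ3 hσ1 ha1 ha2 hconn hcount in
/-- The cut lemma. -/
theorem cut_connected (U : V → Prop) (hU : ∃ v, U v)
    (hcl : ∀ d, M.Crossing A d → U (M.vt d) → U (M.vt (M.α d))) : ∀ v, U v := by
  obtain ⟨hc1, hc2⟩ := cubic_counts hσ3 hσ1 (M := M)
  have hnc := card_noncrossing hσ3 hσ1 A ha1 ha2
  have hle := card_outer (M := M) (A := A) hnc hc1 hc2 hcount
  have hout := outer_connected A ha1 hconn hle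
  let z : E → 𝔽 := fun e => if ∃ d, M.ed d = e ∧ M.Crossing A d ∧ U (M.vt d) then 1 else 0
  have hz1 : ∀ d, z (M.ed d) = if M.Crossing A d ∧ U (M.vt d) then 1 else 0 := by
    intro d
    simp only [z]
    by_cases h : M.Crossing A d ∧ U (M.vt d)
    · rw [if_pos h, if_pos ⟨d, rfl, h.1, h.2⟩]
    · rw [if_neg h, if_neg]
      rintro ⟨d', hd', h1, h2⟩
      rcases (M.ed_eq d' d).1 hd' with h3 | h3
      · subst h3
        exact h ⟨h1, h2⟩
      · subst h3
        exact h ⟨crossing_α.2 h1, hcl _ h1 h2⟩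
  have hzZ : z ∈ M.Zsp := by
    intro v
    have h1 : ∑ d : D, (if M.vt d = v then z (M.ed d) else 0) =
        ∑ d : D, (if (M.vt d = v ∧ M.Crossing A d) ∧ U v then 1 else 0) := by
      refine Finset.sum_congr rfl ?_
      intro d _
      by_cases h2 : M.vt d = v
      · rw [if_pos h2, hz1, h2]
        by_cases h3 : M.Crossing A d ∧ U v
        · rw [if_pos h3, if_pos ⟨⟨rfl, h3.1⟩, h3.2⟩]
        · rw [if_neg h3, if_neg]
          rintro ⟨⟨_, h4⟩, h5⟩
          exact h3 ⟨h4, h5⟩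
      · rw [if_neg h2, if_neg]
        rintro ⟨⟨h4, _⟩, _⟩
        exact h2 h4
    rw [h1]
    by_cases hv : U v
    · simp only [hv, and_true]
      rw [← Finset.sum_filter, Finset.sum_const, card_crossing_at hσ3 hσ1 A ha1 ha2 v]
      simp
      decide
    · simp [hv]
  obtain ⟨S, hS⟩ := M.exists_bd hzZ
  have hnon : ∀ d, ¬ M.Crossing A d → S (M.fc d) = S (M.fc (M.α d)) := by
    intro d hd
    have h1 := hz1 d
    rw [if_neg (fun h => hd h.1), ← hS, M.bd_apply] at h1
    exact eq_of_add_eq_zero_F h1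
  have hSA := hconn S (by
    intro d h1 h2
    apply hnon
    intro h3
    exact h3 (iff_of_true h1 h2))
  have hSY := hout S (by
    intro d h1 h2
    apply hnon
    intro h3
    exact h3 (iff_of_false h1 h2))
  have hcross : ∀ v, ∃ d, M.vt d = v ∧ M.Crossing A d := by
    intro v
    have h1 := card_crossing_at hσ3 hσ1 A ha1 ha2 v
    obtain ⟨d, hd⟩ := Finset.card_pos.1 (show 0 < _ by rw [h1]; norm_num)
    exact ⟨d, (mem_filter.1 hd).2.1, (mem_filter.1 hd).2.2⟩
  obtain ⟨v0, hv0⟩ := hU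
  obtain ⟨d0, hd0, hd0c⟩ := hcross v0
  have hval0 : S (M.fc d0) + S (M.fc (M.α d0)) = 1 := by
    rw [← M.bd_apply, hS, hz1, if_pos ⟨hd0c, hd0 ▸ hv0⟩]
  have hsides : ∀ x, M.Crossing A x → S (M.fc x) + S (M.fc (M.α x)) = 1 := by
    intro x hx
    unfold Crossing at hx hd0c
    by_cases a1 : A (M.fc d0) <;> by_cases a2 : A (M.fc x)
    · have a3 : ¬ A (M.fc (M.α d0)) := fun h => hd0c (iff_of_true a1 h)
      have a4 : ¬ A (M.fc (M.α x)) := fun h => hx (iff_of_true a2 h)
      rw [hSA _ _ a2 a1, hSY _ _ a4 a3]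
      exact hval0
    · have a3 : ¬ A (M.fc (M.α d0)) := fun h => hd0c (iff_of_true a1 h)
      have a4 : A (M.fc (M.α x)) := by
        by_contra h
        exact hx (iff_of_false a2 h)
      rw [hSA _ _ a4 a1, hSY _ _ a2 a3, add_comm]
      exact hval0
    · have a3 : A (M.fc (M.α d0)) := by
        by_contra h
        exact hd0c (iff_of_false a1 h)
      have a4 : ¬ A (M.fc (M.α x)) := fun h => hx (iff_of_true a2 h)
      rw [hSA _ _ a2 a3, hSY _ _ a4 a1, add_comm]
      exact hval0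
    · have a3 : A (M.fc (M.α d0)) := by
        by_contra h
        exact hd0c (iff_of_false a1 h)
      have a4 : A (M.fc (M.α x)) := by
        by_contra h
        exact hx (iff_of_false a2 h)
      rw [hSA _ _ a4 a3, hSY _ _ a2 a1]
      exact hval0
  intro v
  obtain ⟨x, hx, hxc⟩ := hcross v
  have h1 := hsides x hxc
  rw [← M.bd_apply, hS, hz1] at h1
  by_contra hnotU
  rw [if_neg (fun h => hnotU (hx ▸ h.2))] at h1
  exact zero_ne_one h1

end cubic

end PMap

end

end Vale.Agent.Lib.P039B
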