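import Mathlib

/-!
Plane embeddings of cubic graphs as rotation systems: faces, face sizes and Euler's formula.
-/

namespace Vale.Agent.Lib.P039B

variable {V : Type}

/-- A rotation system on a cubic graph `G`: a permutation of the darts (oriented edges) which
keeps the start of every dart and cycles the three darts at every vertex. -/
structure CubicRotation (G : SimpleGraph V) where
  /-- the rotation -/
  rot : Equiv.Perm G.Dart
  fst_rot : ∀ d, (rot d).fst = d.fst
  rot_ne : ∀ d, rot d ≠ d
  rot_cube : ∀ d, rot (rot (rot d)) = d

namespace CubicRotation

variable {G : SimpleGraph V} (R : CubicRotation G)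

/-- The face walk: from a dart `d`, reverse it and rotate, so that `next d = rot d.symm`. -/
def next : Equiv.Perm G.Dart :=
  R.rot * Function.Involutive.toPerm SimpleGraph.Dart.symm SimpleGraph.Dart.symm_involutive

/-- The faces are the orbits of the face walk. -/
def Face : Type := Quotient (Equiv.Perm.SameCycle.setoid R.next)

/-- The face on the given side of a dart. -/
def face (d : G.Dart) : R.Face := Quotient.mk _ d

/-- The size of a face: the number of darts on its boundary walk. -/
noncomputable def faceSize (f : R.Face) : ℕ := Nat.card {d : G.Dart // R.face d = f}

/-- The rotation system has genus zero, that is, it is a plane embedding: Euler's formula. -/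
def Planar : Prop := Nat.card V + Nat.card R.Face = Nat.card G.edgeSet + 2

end CubicRotation

end Vale.Agent.Lib.P039B
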