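import Vale.Agent.Lib.P039B.Comps

/-!
Maps of the vertices to a vector space for which the small faces are collinear have small
affine dimension: the dimension is bounded by the number of coincidences plus one.
-/

namespace Vale.Agent.Lib.P039B

open Finset Module

open scoped Classical

noncomputable section

/-- Two vectors are multiples of a common vector. -/
def Par {X : Type} [AddCommGroup X] [Module ℚ X] (u v : X) : Prop :=
  ∃ w : X, ∃ s t : ℚ, u = s • w ∧ v = t • w

section par

variable {X : Type} [AddCommGroup X] [Module ℚ X]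

theorem Par.mem {x y : X} (h : Par x y) (hx : x ≠ 0) : y ∈ Submodule.span ℚ {x} := by
  obtain ⟨w, s, t, rfl, rfl⟩ := h
  have hs : s ≠ 0 := by
    rintro rfl
    simp at hx
  rw [Submodule.mem_span_singleton]
  refine ⟨t / s, ?_⟩
  rw [smul_smul]
  congr 1
  field_simp

theorem mem_span_self_of_ne {x y : X} (hy : y ∈ Submodule.span ℚ {x}) (hy0 : y ≠ 0) :
    x ∈ Submodule.span ℚ {y} := by
  obtain ⟨s, rfl⟩ := Submodule.mem_span_singleton.1 hy
  have hs : s ≠ 0 := by
    rintro rfl
    simp at hy0
  rw [Submodule.mem_span_singleton]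
  refine ⟨s⁻¹, ?_⟩
  rw [smul_smul, inv_mul_cancel₀ hs, one_smul]

theorem span_eq_of_mem {x y : X} (hy : y ∈ Submodule.span ℚ {x}) (hy0 : y ≠ 0) :
    Submodule.span ℚ {x} = Submodule.span ℚ {y} := by
  apply le_antisymm
  · rw [Submodule.span_singleton_le_iff_mem]
    exact mem_span_self_of_ne hy hy0
  · rw [Submodule.span_singleton_le_iff_mem]
    exact hy

theorem finrank_span_of_par {J : Type} [Fintype J] (g : J → X) (hg : ∀ j j', Par (g j) (g j')) :
    finrank ℚ (Submodule.span ℚ (Set.range g)) ≤ 1 := by
  by_cases h : ∀ j, g j = 0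
  · have : Submodule.span ℚ (Set.range g) = ⊥ := by
      rw [Submodule.span_eq_bot]
      rintro _ ⟨j, rfl⟩
      exact h j
    rw [this]
    simp
  · push Not at h
    obtain ⟨j0, hj0⟩ := h
    have hle : Submodule.span ℚ (Set.range g) ≤ Submodule.span ℚ {g j0} := by
      rw [Submodule.span_le]
      rintro _ ⟨j, rfl⟩
      exact (hg j0 j).mem hj0
    have h1 := Submodule.finrank_mono hle
    rw [finrank_span_singleton hj0] at h1
    exact h1

end par

variable {D V E F : Type} [Fintype D] [Fintype V] [Fintype E] [Fintype F]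

namespace PMap

variable {M : PMap D V E F}

/-- There is a digon. -/
theorem Good.exists_digon (hG : M.Good) : ∃ d, M.fsize (M.fc d) = 2 := by
  by_contra hno
  push Not at hno
  have hf : ∀ f, 3 ≤ M.fsize f := by
    intro f
    obtain ⟨d, rfl⟩ := M.fc_surj f
    have h1 := hG.two_le_fsize d
    have h2 := hno d
    omega
  have h1 : Fintype.card D = 2 * Fintype.card E := by
    have := card_darts_edges (M := M) (univ : Finset E)
    simpa using this
  have h2 : Fintype.card D = ∑ f, M.fsize f := by
    have := Finset.card_eq_sum_card_fiberwise (f := M.fc) (s := univ) (t := univ)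
      (fun _ _ => Finset.mem_coe.2 (Finset.mem_univ _))
    simpa [fsize] using this
  have h3 : Fintype.card D = ∑ v, M.vdeg v := by
    have := Finset.card_eq_sum_card_fiberwise (f := M.vt) (s := univ) (t := univ)
      (fun _ _ => Finset.mem_coe.2 (Finset.mem_univ _))
    simpa [vdeg] using this
  have h4 : 3 * Fintype.card F ≤ Fintype.card D := by
    rw [h2]
    calc 3 * Fintype.card F = ∑ _f : F, 3 := by simp [mul_comm, Finset.card_univ]
      _ ≤ _ := Finset.sum_le_sum (fun f _ => hf f)
  have h5 : 6 * Fintype.card V ≤ Fintype.card D := by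
    rw [h3]
    calc 6 * Fintype.card V = ∑ _v : V, 6 := by simp [mul_comm, Finset.card_univ]
      _ ≤ _ := Finset.sum_le_sum (fun v _ => hG.deg6 v)
  have h6 := M.euler
  omega

section geom

variable {X : Type} [AddCommGroup X] [Module ℚ X] (pos : V → X)

/-- A vertex whose position is taken by no other vertex. -/
def Free (v : V) : Prop := ∀ w, pos w = pos v → w = v

/-- The difference along a dart. -/
def nd (M : PMap D V E F) (d : D) : X := pos (M.vt (M.α d)) - pos (M.vt d)

variable {pos}

theorem nd_ne (hG : M.Good) {d : D} (hf : Free pos (M.vt d)) : nd pos M d ≠ 0 := by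
  intro h
  have h1 : pos (M.vt (M.α d)) = pos (M.vt d) := sub_eq_zero.1 h
  exact hG.loopless d (hf _ h1)

theorem nd_α (d : D) : nd pos M (M.α d) = - nd pos M d := by
  simp [nd, M.α_α]

/-- The step around a free vertex across a small face. -/
theorem nd_step (hG : M.Good)
    (hT : ∀ d, M.fsize (M.fc d) = 3 →
      Par (pos (M.vt (M.φ d)) - pos (M.vt d)) (pos (M.vt (M.φ (M.φ d))) - pos (M.vt d)))
    {d : D} (hf : Free pos (M.vt d)) (hs : M.fsize (M.fc (M.σ d)) ≤ 3) :
    nd pos M (M.σ d) ∈ Submodule.span ℚ {nd pos M d} := by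
  have hφA : M.φ (M.α d) = M.σ d := by
    show M.σ (M.α (M.α d)) = M.σ d
    rw [M.α_α]
  have h2 := hG.two_le_fsize (M.σ d)
  have hcases : M.fsize (M.fc (M.σ d)) = 2 ∨ M.fsize (M.fc (M.σ d)) = 3 := by omega
  rcases hcases with h | h
  · -- digon
    have hne : M.α d ≠ M.σ d := by
      intro h'
      have := congrArg M.vt h'
      rw [M.vt_σ] at this
      exact hG.loopless d this
    have hfil : (univ.filter fun e => M.fc e = M.fc (M.σ d)) = {M.σ d, M.α d} := by
      apply Finset.eq_of_subset_of_card_le
      · intro x hx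
        have h3 : ({M.σ d, M.α d} : Finset D) ⊆ univ.filter fun e => M.fc e = M.fc (M.σ d) := by
          intro y hy
          simp only [mem_insert, mem_singleton] at hy
          simp only [mem_filter, mem_univ, true_and]
          rcases hy with rfl | rfl
          · rfl
          · exact M.fc_α d
        have h4 := Finset.eq_of_subset_of_card_le h3 (by
          rw [Finset.card_pair hne.symm]
          exact h.le)
        rw [h4]
        exact hx
      · rw [Finset.card_pair hne.symm]
        exact h.ge
    have hφ : M.φ (M.σ d) = M.α d := by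
      have h3 : M.φ (M.σ d) ∈ univ.filter fun e => M.fc e = M.fc (M.σ d) := by
        simp only [mem_filter, mem_univ, true_and]
        exact M.fc_φ _
      rw [hfil] at h3
      simp only [mem_insert, mem_singleton] at h3
      rcases h3 with h3 | h3
      · exact absurd h3 (hG.φ_ne _)
      · exact h3
    have h3 : M.vt (M.α (M.σ d)) = M.vt (M.α d) := by
      rw [← M.vt_φ, hφ]
    have : nd pos M (M.σ d) = nd pos M d := by
      simp [nd, h3, M.vt_σ]
    rw [this]
    exact Submodule.mem_span_singleton_self _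
  · -- triangle
    have hA : M.fsize (M.fc (M.α d)) = 3 := by
      rw [M.fc_α]
      exact h
    have hpar := hT (M.α d) hA
    rw [hφA] at hpar
    have hx : pos (M.vt (M.σ d)) - pos (M.vt (M.α d)) = - nd pos M d := by
      simp [nd, M.vt_σ]
    rw [hx, M.vt_φ] at hpar
    have hne := neg_ne_zero.2 (nd_ne hG hf)
    have h5 : Submodule.span ℚ {- nd pos M d} ≤ Submodule.span ℚ {nd pos M d} := by
      rw [Submodule.span_singleton_le_iff_mem]
      exact Submodule.neg_mem _ (Submodule.mem_span_singleton_self _)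
    have hmem := h5 (hpar.mem hne)
    have hrw : nd pos M (M.σ d) = (pos (M.vt (M.α (M.σ d))) - pos (M.vt (M.α d))) + nd pos M d := by
      simp [nd, M.vt_σ]
    rw [hrw]
    exact Submodule.add_mem _ hmem (Submodule.mem_span_singleton_self _)

/-- All darts at a free vertex have parallel differences. -/
theorem nd_line (hG : M.Good)
    (hT : ∀ d, M.fsize (M.fc d) = 3 →
      Par (pos (M.vt (M.φ d)) - pos (M.vt d)) (pos (M.vt (M.φ (M.φ d))) - pos (M.vt d)))
    {d d' : D} (hf : Free pos (M.vt d)) (hd : M.vt d' = M.vt d) :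
    nd pos M d' ∈ Submodule.span ℚ {nd pos M d} := by
  -- choose the base dart
  obtain ⟨d0, hd0, hbase⟩ : ∃ d0, M.vt d0 = M.vt d ∧
      ∀ e, M.vt e = M.vt d → 4 ≤ M.fsize (M.fc e) → e = d0 := by
    by_cases h : ∃ e, M.vt e = M.vt d ∧ 4 ≤ M.fsize (M.fc e)
    · obtain ⟨e, he, he'⟩ := h
      refine ⟨e, he, ?_⟩
      intro e' h1 h2
      exact hG.bigone e' e (h1.trans he.symm) h2 he'
    · push Not at h
      refine ⟨d, rfl, ?_⟩
      intro e h1 h2
      have := h e h1
      omega
  have hfree0 : Free pos (M.vt d0) := by rw [hd0]; exact hf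
  have hall : ∀ k : ℕ, nd pos M ((M.σ ^ k) d0) ∈ Submodule.span ℚ {nd pos M d0} := by
    intro k
    induction k with
    | zero => simpa using Submodule.mem_span_singleton_self _
    | succ k ih =>
      rw [pow_succ', Equiv.Perm.mul_apply]
      by_cases hs : M.fsize (M.fc (M.σ ((M.σ ^ k) d0))) ≤ 3
      · have h1 := nd_step hG hT (d := (M.σ ^ k) d0) (by rw [M.vt_pow]; exact hfree0) hs
        have h2 : Submodule.span ℚ {nd pos M ((M.σ ^ k) d0)} ≤ Submodule.span ℚ {nd pos M d0} := by
          rw [Submodule.span_singleton_le_iff_mem]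
          exact ih
        exact h2 h1
      · have h1 := hbase (M.σ ((M.σ ^ k) d0)) (by rw [M.vt_σ, M.vt_pow, hd0]) (by omega)
        rw [h1]
        exact Submodule.mem_span_singleton_self _
  have hmem : ∀ e, M.vt e = M.vt d → nd pos M e ∈ Submodule.span ℚ {nd pos M d0} := by
    intro e he
    obtain ⟨k, hk⟩ := M.vt_orbit d0 e (by rw [hd0, he])
    rw [← hk]
    exact hall k
  have h1 := hmem d rfl
  have h2 := hmem d' hd
  have h3 := span_eq_of_mem h1 (nd_ne hG hf)
  rw [h3] at h2
  exact h2

/-- Hypothesis: triangles are collinear. -/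
def TriPar (M : PMap D V E F) (pos : V → X) : Prop :=
  ∀ d, M.fsize (M.fc d) = 3 →
    Par (pos (M.vt (M.φ d)) - pos (M.vt d)) (pos (M.vt (M.φ (M.φ d))) - pos (M.vt d))

/-- Adjacent free vertices. -/
def Rf (M : PMap D V E F) (pos : V → X) (a b : V) : Prop :=
  Free pos a ∧ Free pos b ∧ ∃ d, M.vt d = a ∧ M.vt (M.α d) = b

/-- Components of free vertices. -/
abbrev Cc (M : PMap D V E F) (pos : V → X) : Type := Quot (Rf M pos)

/-- The component of a vertex. -/
def comp (M : PMap D V E F) (pos : V → X) (v : V) : Cc M pos := Quot.mk _ v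

instance (M : PMap D V E F) (pos : V → X) : Fintype (Cc M pos) := Fintype.ofFinite _

/-- A chosen dart at a vertex. -/
def dv (M : PMap D V E F) (v : V) : D := (M.vt_surj v).choose

theorem dv_spec (v : V) : M.vt (dv M v) = v := (M.vt_surj v).choose_spec

/-- The line at a vertex. -/
def Lv (M : PMap D V E F) (pos : V → X) (v : V) : Submodule ℚ X :=
  Submodule.span ℚ {nd pos M (dv M v)}

theorem Lv_eq (hG : M.Good) (hT : TriPar M pos) {d : D} (hf : Free pos (M.vt d)) :
    Lv M pos (M.vt d) = Submodule.span ℚ {nd pos M d} := by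
  have hv : Free pos (M.vt (dv M (M.vt d))) := by rw [dv_spec]; exact hf
  have h1 := nd_line hG hT (d := d) (d' := dv M (M.vt d)) hf (dv_spec _)
  exact (span_eq_of_mem h1 (nd_ne hG hv)).symm

theorem nd_mem_Lv (hG : M.Good) (hT : TriPar M pos) {d : D} (hf : Free pos (M.vt d)) :
    nd pos M d ∈ Lv M pos (M.vt d) := by
  rw [Lv_eq hG hT hf]
  exact Submodule.mem_span_singleton_self _

theorem span_neg_eq (x : X) : Submodule.span ℚ {-x} = Submodule.span ℚ {x} := by
  apply le_antisymm
  · rw [Submodule.span_singleton_le_iff_mem]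
    exact Submodule.neg_mem _ (Submodule.mem_span_singleton_self _)
  · rw [Submodule.span_singleton_le_iff_mem]
    have := Submodule.neg_mem _ (Submodule.mem_span_singleton_self (R := ℚ) (-x))
    simpa using this

theorem eqvgen_Rf (hG : M.Good) (hT : TriPar M pos) {p q : V}
    (h : Relation.EqvGen (Rf M pos) p q) :
    (Free pos p ↔ Free pos q) ∧ Lv M pos p = Lv M pos q ∧ pos p - pos q ∈ Lv M pos p := by
  induction h with
  | rel a b hab =>
    obtain ⟨h1, h2, d, rfl, rfl⟩ := hab
    refine ⟨⟨fun _ => h2, fun _ => h1⟩, ?_, ?_⟩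
    · rw [Lv_eq hG hT h1, Lv_eq hG hT h2, nd_α, span_neg_eq]
    · have := nd_mem_Lv hG hT h1
      have h3 := Submodule.neg_mem _ this
      have h4 : - nd pos M d = pos (M.vt d) - pos (M.vt (M.α d)) := by simp [nd]
      rwa [h4] at h3
  | refl a =>
    exact ⟨Iff.rfl, rfl, by simp⟩
  | symm a b _ ih =>
    obtain ⟨h1, h2, h3⟩ := ih
    refine ⟨h1.symm, h2.symm, ?_⟩
    rw [← h2]
    have := Submodule.neg_mem _ h3
    simpa using this
  | trans a b c _ _ ih1 ih2 =>
    obtain ⟨h1, h2, h3⟩ := ih1
    obtain ⟨h4, h5, h6⟩ := ih2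
    refine ⟨h1.trans h4, h2.trans h5, ?_⟩
    have h7 : pos a - pos c = (pos a - pos b) + (pos b - pos c) := by abel
    rw [h7]
    exact Submodule.add_mem _ h3 (h2 ▸ h6)

theorem comp_eq (hG : M.Good) (hT : TriPar M pos) {p q : V} (h : comp M pos p = comp M pos q) :
    (Free pos p ↔ Free pos q) ∧ Lv M pos p = Lv M pos q ∧ pos p - pos q ∈ Lv M pos p :=
  eqvgen_Rf hG hT (Quot.eqvGen_exact h)

theorem comp_of_dart {d : D} (h1 : Free pos (M.vt d)) (h2 : Free pos (M.vt (M.α d))) :
    comp M pos (M.vt (M.α d)) = comp M pos (M.vt d) :=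
  (Quot.sound ⟨h1, h2, d, rfl, rfl⟩).symm

variable (M pos)

/-- The free vertices of a component. -/
def CX (Y : Cc M pos) : Finset V := univ.filter fun v => Free pos v ∧ comp M pos v = Y

/-- No digon at the component. -/
def DigonFree (Y : Cc M pos) : Prop := ∀ d, M.vt d ∈ CX M pos Y → M.fsize (M.fc d) ≠ 2

/-- All the neighbours of the component are at the position `b`. -/
def HeadsAt (Y : Cc M pos) (b : X) : Prop :=
  ∀ d, M.vt d ∈ CX M pos Y → M.vt (M.α d) ∉ CX M pos Y → pos (M.vt (M.α d)) = b

/-- The vertices at a position. -/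
def Sb (b : X) : Finset V := univ.filter fun v => pos v = b

/-- The nonfree vertices. -/
def NF : Finset V := univ.filter fun v => ¬ Free pos v

/-- Positions of the nontrivial blocks. -/
def PB : Finset X := (NF pos).image pos

/-- Digon free components pending at the position `b`. -/
def Pnd (b : X) : Finset (Cc M pos) :=
  univ.filter fun Y => (CX M pos Y).Nonempty ∧ DigonFree M pos Y ∧ HeadsAt M pos Y b

variable {M pos}

theorem mem_CX {Y : Cc M pos} {v : V} : v ∈ CX M pos Y ↔ Free pos v ∧ comp M pos v = Y := by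
  simp [CX]

theorem free_of_Sb {b : X} (hb : b ∈ PB pos) {v : V} (hv : v ∈ Sb pos b) : ¬ Free pos v := by
  obtain ⟨u, hu, rfl⟩ := mem_image.1 hb
  have hv' : pos v = pos u := (mem_filter.1 hv).2
  have hu' : ¬ Free pos u := (mem_filter.1 hu).2
  intro hf
  apply hu'
  intro w hw
  have h1 : w = v := hf w (hw.trans hv'.symm)
  have h2 : u = v := hf u hv'.symm
  rw [h1, h2]

theorem two_le_Sb {b : X} (hb : b ∈ PB pos) : 2 ≤ (Sb pos b).card := by
  obtain ⟨u, hu, rfl⟩ := mem_image.1 hb
  have hu' : ¬ Free pos u := (mem_filter.1 hu).2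
  unfold Free at hu'
  push Not at hu'
  obtain ⟨w, h1, h2⟩ := hu'
  have hsub : ({u, w} : Finset V) ⊆ Sb pos (pos u) := by
    intro x hx
    simp only [mem_insert, mem_singleton] at hx
    simp only [Sb, mem_filter, mem_univ, true_and]
    rcases hx with rfl | rfl
    · rfl
    · exact h1
  have := Finset.card_le_card hsub
  rwa [Finset.card_pair h2.symm] at this

/-- The pending digon free components at a position number at most the size of the block
minus two. -/
theorem card_Pnd (hG : M.Good) (hT : TriPar M pos) {b : X} (hb : b ∈ PB pos) :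
    (Pnd M pos b).card + 2 ≤ (Sb pos b).card := by
  rcases Finset.eq_empty_or_nonempty (Pnd M pos b) with h | ⟨Y0, hY0⟩
  · rw [h]
    simpa using two_le_Sb hb
  · let ι := {Y // Y ∈ Pnd M pos b}
    haveI : Nonempty ι := ⟨⟨Y0, hY0⟩⟩
    have hmem : ∀ i : ι, (CX M pos i.1).Nonempty ∧ DigonFree M pos i.1 ∧ HeadsAt M pos i.1 b :=
      fun i => (mem_filter.1 i.2).2
    obtain ⟨v0, hv0⟩ : (Sb pos b).Nonempty := Finset.card_pos.1 (by have := two_le_Sb hb; omega)
    have hP : Pieces M (fun i : ι => CX M pos i.1) (Sb pos b) := by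
      refine ⟨?_, ?_, ?_, ?_, ?_, ?_⟩
      · intro i j hij
        rw [Finset.disjoint_left]
        intro v hv hv'
        apply hij
        apply Subtype.ext
        rw [← (mem_CX.1 hv).2, (mem_CX.1 hv').2]
      · intro i j hij d hd hd'
        apply hij
        apply Subtype.ext
        have h1 := mem_CX.1 hd
        have h2 := mem_CX.1 hd'
        rw [← h1.2, ← h2.2]
        exact (comp_of_dart h1.1 h2.1).symm
      · intro i d hd hd'
        have := (hmem i).2.2 d hd hd'
        simp [Sb, this]
      · intro i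
        rw [Finset.disjoint_left]
        intro v hv hv'
        exact free_of_Sb hb hv' (mem_CX.1 hv).1
      · intro i g hg u hu v hv
        let h : V → 𝔽 := fun w => if comp M pos w = i.1 then g w else 0
        have hresp : ∀ a c, Rf M pos a c → h a = h c := by
          rintro a c ⟨h1, h2, d, rfl, rfl⟩
          have h3 := comp_of_dart (M := M) h1 h2
          simp only [h]
          rw [h3]
          by_cases h4 : comp M pos (M.vt d) = i.1
          · rw [if_pos h4, if_pos h4]
            exact hg d (mem_CX.2 ⟨h1, h4⟩) (mem_CX.2 ⟨h2, h3.trans h4⟩)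
          · rw [if_neg h4, if_neg h4]
        have hu' := mem_CX.1 hu
        have hv' := mem_CX.1 hv
        have h5 : Quot.lift h hresp (comp M pos u) = Quot.lift h hresp (comp M pos v) := by
          rw [hu'.2, hv'.2]
        have h6 : h u = h v := h5
        simpa [h, hu'.2, hv'.2] using h6
      · intro i
        obtain ⟨hne, hdg, _⟩ := hmem i
        refine four_le_nbr hG hne ⟨v0, ?_⟩ hdg
        intro hv
        exact free_of_Sb hb hv0 (mem_CX.1 hv).1
    have := comps_le hP
    simpa [ι, Fintype.card_coe] using this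

/-- The spanning space has small dimension when all vertices are free. -/
theorem geometry_allfree [FiniteDimensional ℚ X] (hG : M.Good) (hT : TriPar M pos)
    {J : Type} [Fintype J] (g : J → X) (hP : ∀ j j', Par (g j) (g j'))
    (hR : ∀ d, M.fsize (M.fc d) = 2 → nd pos M d ∈ Submodule.span ℚ (Set.range g))
    (hfree : ∀ v, Free pos v) :
    finrank ℚ (Submodule.span ℚ (Set.range (fun q : V × V => pos q.1 - pos q.2) ∪ Set.range g))
      ≤ 1 := by
  obtain ⟨d0, hd0⟩ := hG.exists_digon
  have hne0 := nd_ne hG (hfree (M.vt d0)) (M := M) (d := d0)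
  set L := Submodule.span ℚ {nd pos M d0} with hL
  have hcomp : ∀ d, comp M pos (M.vt d) = comp M pos (M.vt d0) := by
    intro d
    refine M.conn (fun d => comp M pos (M.vt d) = comp M pos (M.vt d0)) ?_ ?_ d0 d rfl
    · intro e he
      simpa [M.vt_σ] using he
    · intro e he
      show comp M pos (M.vt (M.α e)) = _
      rw [comp_of_dart (hfree _) (hfree _)]
      exact he
  have hLv : ∀ d, Lv M pos (M.vt d) = L := by
    intro d
    rw [(comp_eq hG hT (hcomp d)).2.1, Lv_eq hG hT (hfree _)]
  have hdiff : ∀ v, pos v - pos (M.vt d0) ∈ L := by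
    intro v
    obtain ⟨d, rfl⟩ := M.vt_surj v
    have := (comp_eq hG hT (hcomp d)).2.2
    rwa [hLv d] at this
  have hle : Submodule.span ℚ (Set.range (fun q : V × V => pos q.1 - pos q.2) ∪ Set.range g)
      ≤ L := by
    rw [Submodule.span_le]
    rintro x (⟨⟨u, v⟩, rfl⟩ | ⟨j, rfl⟩)
    · have h1 := Submodule.sub_mem _ (hdiff u) (hdiff v)
      have h2 : pos u - pos (M.vt d0) - (pos v - pos (M.vt d0)) = pos u - pos v := by abel
      rw [h2] at h1
      exact h1
    · by_cases hj : g j = 0
      · rw [hj]
        exact Submodule.zero_mem _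
      · have hle2 : Submodule.span ℚ (Set.range g) ≤ Submodule.span ℚ {g j} := by
          rw [Submodule.span_le]
          rintro _ ⟨j', rfl⟩
          exact (hP j j').mem hj
        exact mem_span_self_of_ne (hle2 (hR d0 hd0)) hne0
  have h1 := Submodule.finrank_mono hle
  rw [hL, finrank_span_singleton hne0] at h1
  exact h1

/-- The main dimension bound. -/
theorem geometry [FiniteDimensional ℚ X] (hG : M.Good) (hT : TriPar M pos)
    {J : Type} [Fintype J] (g : J → X) (hP : ∀ j j', Par (g j) (g j'))
    (hR : ∀ d, M.fsize (M.fc d) = 2 → nd pos M d ∈ Submodule.span ℚ (Set.range g)) :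
    finrank ℚ (Submodule.span ℚ (Set.range (fun q : V × V => pos q.1 - pos q.2) ∪ Set.range g))
      + (univ.image pos).card ≤ Fintype.card V + 1 := by
  by_cases hfree : ∀ v, Free pos v
  · have h1 := geometry_allfree hG hT g hP hR hfree
    have h2 : (univ.image pos).card ≤ Fintype.card V := by
      simpa using Finset.card_image_le (s := (univ : Finset V)) (f := pos)
    omega
  push Not at hfree
  obtain ⟨u0, hu0⟩ := hfree
  have hu0NF : u0 ∈ NF pos := by simp [NF, hu0]
  set b0 := pos u0 with hb0
  have hb0PB : b0 ∈ PB pos := mem_image.2 ⟨u0, hu0NF, rfl⟩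
  let Ub : Submodule ℚ X := Submodule.span ℚ
    ((((PB pos).erase b0).image (fun b => b - b0) : Finset X) : Set X)
  let Gsp : Submodule ℚ X := Submodule.span ℚ (Set.range g)
  let δ : Cc M pos → X := fun Y => nd pos M (dv M (Quot.out Y))
  let Pend : Finset (Cc M pos) := (PB pos).biUnion (Pnd M pos)
  let Psp : Submodule ℚ X := Submodule.span ℚ ((Pend.image δ : Finset X) : Set X)
  let Tot : Submodule ℚ X := Ub ⊔ Gsp ⊔ Psp
  have hUT : Ub ≤ Tot := le_sup_left.trans le_sup_left
  have hGT : Gsp ≤ Tot := le_sup_right.trans le_sup_left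
  have hPT : Psp ≤ Tot := le_sup_right
  have hUb : ∀ u, ¬ Free pos u → pos u - b0 ∈ Ub := by
    intro u hu
    by_cases h : pos u = b0
    · rw [h, sub_self]
      exact Submodule.zero_mem _
    · apply Submodule.subset_span
      simp only [coe_image, Set.mem_image, Finset.mem_coe]
      refine ⟨pos u, Finset.mem_erase.2 ⟨h, mem_image.2 ⟨u, by simp [NF, hu], rfl⟩⟩, rfl⟩
  have hfreehead : ∀ {Y : Cc M pos} {e : D}, M.vt e ∈ CX M pos Y → M.vt (M.α e) ∉ CX M pos Y →
      ¬ Free pos (M.vt (M.α e)) := by
    intro Y e h1 h2 h3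
    have h4 := mem_CX.1 h1
    exact h2 (mem_CX.2 ⟨h3, (comp_of_dart h4.1 h3).trans h4.2⟩)
  have key : ∀ d, Free pos (M.vt d) → nd pos M d ∈ Tot := by
    intro d hd
    set a := M.vt d with ha
    set Y := comp M pos a with hY
    have haY : a ∈ CX M pos Y := mem_CX.2 ⟨hd, rfl⟩
    have hL : nd pos M d ∈ Lv M pos a := nd_mem_Lv hG hT hd
    have hposL : ∀ x ∈ CX M pos Y, Lv M pos x = Lv M pos a ∧ pos x - pos a ∈ Lv M pos a := by
      intro x hx
      have h1 := comp_eq hG hT (mem_CX.1 hx).2
      exact ⟨h1.2.1, h1.2.1 ▸ h1.2.2⟩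
    have hheadL : ∀ e, M.vt e ∈ CX M pos Y → pos (M.vt (M.α e)) - pos a ∈ Lv M pos a := by
      intro e he
      have h1 := hposL _ he
      have h2 := nd_mem_Lv hG hT (mem_CX.1 he).1
      rw [h1.1] at h2
      have h3 : pos (M.vt (M.α e)) - pos a = nd pos M e + (pos (M.vt e) - pos a) := by
        simp [nd]
      rw [h3]
      exact Submodule.add_mem _ h2 h1.2
    -- a neighbour exists
    obtain ⟨e0, he0, he0'⟩ : ∃ e, M.vt e ∈ CX M pos Y ∧ M.vt (M.α e) ∉ CX M pos Y := by
      by_contra hno
      push Not at hno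
      obtain ⟨du, hdu⟩ := M.vt_surj u0
      have := M.conn (fun e => M.vt e ∈ CX M pos Y) (fun e he => by simpa [M.vt_σ] using he)
        (fun e he => hno e he) d du haY
      rw [hdu] at this
      exact hu0 (mem_CX.1 this).1
    have hLT : Lv M pos a ≤ Tot := by
      by_cases hA : ∃ e, M.vt e ∈ CX M pos Y ∧ M.vt (M.α e) ∉ CX M pos Y ∧
          pos (M.vt (M.α e)) ≠ pos (M.vt (M.α e0))
      · obtain ⟨e1, he1, he1', hne⟩ := hA
        have h1 := Submodule.sub_mem _ (hheadL e1 he1) (hheadL e0 he0)
        have h2 : pos (M.vt (M.α e1)) - pos a - (pos (M.vt (M.α e0)) - pos a) =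
            pos (M.vt (M.α e1)) - pos (M.vt (M.α e0)) := by abel
        rw [h2] at h1
        have hne0 : pos (M.vt (M.α e1)) - pos (M.vt (M.α e0)) ≠ 0 := sub_ne_zero.2 hne
        have h3 : Lv M pos a =
            Submodule.span ℚ {pos (M.vt (M.α e1)) - pos (M.vt (M.α e0))} := span_eq_of_mem h1 hne0
        rw [h3, Submodule.span_singleton_le_iff_mem]
        apply hUT
        have h4 := Submodule.sub_mem _ (hUb _ (hfreehead he1 he1')) (hUb _ (hfreehead he0 he0'))
        have h5 : pos (M.vt (M.α e1)) - b0 - (pos (M.vt (M.α e0)) - b0) =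
            pos (M.vt (M.α e1)) - pos (M.vt (M.α e0)) := by abel
        rwa [h5] at h4
      · push Not at hA
        by_cases hB : DigonFree M pos Y
        · have hbPB : pos (M.vt (M.α e0)) ∈ PB pos :=
            mem_image.2 ⟨_, by simp [NF, hfreehead he0 he0'], rfl⟩
          have hmem : Y ∈ Pnd M pos (pos (M.vt (M.α e0))) := by
            simp only [Pnd, mem_filter, mem_univ, true_and]
            exact ⟨⟨a, haY⟩, hB, fun e h1 h2 => hA e h1 h2⟩
          have hPend : Y ∈ Pend := Finset.mem_biUnion.2 ⟨_, hbPB, hmem⟩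
          have hout : comp M pos (Quot.out Y) = Y := Quot.out_eq Y
          have h1 := (comp_eq hG hT (p := Quot.out Y) (q := a) hout).2.1
          rw [← h1]
          show Submodule.span ℚ {δ Y} ≤ Tot
          rw [Submodule.span_singleton_le_iff_mem]
          apply hPT
          apply Submodule.subset_span
          simp only [coe_image, Set.mem_image, Finset.mem_coe]
          exact ⟨Y, hPend, rfl⟩
        · unfold DigonFree at hB
          push Not at hB
          obtain ⟨e, he, he'⟩ := hB
          have h1 := hposL _ he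
          have h2 := nd_mem_Lv hG hT (mem_CX.1 he).1
          rw [h1.1] at h2
          have h3 : Lv M pos a = Submodule.span ℚ {nd pos M e} :=
            span_eq_of_mem h2 (nd_ne hG (mem_CX.1 he).1)
          rw [h3, Submodule.span_singleton_le_iff_mem]
          exact hGT (hR e he')
    exact hLT hL
  have hall : ∀ d, nd pos M d ∈ Tot := by
    intro d
    by_cases h1 : Free pos (M.vt d)
    · exact key d h1
    · by_cases h2 : Free pos (M.vt (M.α d))
      · have := Submodule.neg_mem _ (key (M.α d) h2)
        rwa [nd_α, neg_neg] at this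
      · apply hUT
        have h4 := Submodule.sub_mem _ (hUb _ h2) (hUb _ h1)
        have h5 : pos (M.vt (M.α d)) - b0 - (pos (M.vt d) - b0) = nd pos M d := by
          simp [nd]
        rwa [h5] at h4
  have hpos : ∀ v, pos v - b0 ∈ Tot := by
    intro v
    obtain ⟨d, rfl⟩ := M.vt_surj v
    obtain ⟨du, hdu⟩ := M.vt_surj u0
    refine M.conn (fun e => pos (M.vt e) - b0 ∈ Tot) ?_ ?_ du d ?_
    · intro e he
      simpa [M.vt_σ] using he
    · intro e he
      have h1 := Submodule.add_mem _ he (hall e)
      have h2 : pos (M.vt e) - b0 + nd pos M e = pos (M.vt (M.α e)) - b0 := by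
        simp [nd]
      rwa [h2] at h1
    · show pos (M.vt du) - b0 ∈ Tot
      rw [hdu, hb0, sub_self]
      exact Submodule.zero_mem _
  have hle : Submodule.span ℚ (Set.range (fun q : V × V => pos q.1 - pos q.2) ∪ Set.range g)
      ≤ Tot := by
    rw [Submodule.span_le]
    rintro x (⟨⟨u, v⟩, rfl⟩ | ⟨j, rfl⟩)
    · have h1 := Submodule.sub_mem _ (hpos u) (hpos v)
      have h2 : pos u - b0 - (pos v - b0) = pos u - pos v := by abel
      rw [h2] at h1
      exact h1
    · exact hGT (Submodule.subset_span ⟨j, rfl⟩)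
  have h1 := Submodule.finrank_mono hle
  have h2 : finrank ℚ Tot ≤ finrank ℚ Ub + finrank ℚ Gsp + finrank ℚ Psp :=
    (Submodule.finrank_add_le_finrank_add_finrank _ _).trans
      (Nat.add_le_add_right (Submodule.finrank_add_le_finrank_add_finrank _ _) _)
  have h3 : finrank ℚ Gsp ≤ 1 := finrank_span_of_par g hP
  have h4 : finrank ℚ Ub ≤ (PB pos).card - 1 := by
    refine (finrank_span_finset_le_card _).trans (Finset.card_image_le.trans ?_)
    rw [Finset.card_erase_of_mem hb0PB]
  have h5 : finrank ℚ Psp ≤ ∑ b ∈ PB pos, (Pnd M pos b).card := by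
    refine (finrank_span_finset_le_card _).trans (Finset.card_image_le.trans ?_)
    exact Finset.card_biUnion_le
  have h6 : ∑ b ∈ PB pos, (Pnd M pos b).card + 2 * (PB pos).card ≤
      ∑ b ∈ PB pos, (Sb pos b).card := by
    have := Finset.sum_le_sum (fun b hb => card_Pnd hG hT (b := b) hb)
    rw [Finset.sum_add_distrib] at this
    simpa [mul_comm] using this
  have h7 : (NF pos).card = ∑ b ∈ PB pos, (Sb pos b).card := by
    rw [Finset.card_eq_sum_card_fiberwise (f := pos) (s := NF pos) (t := PB pos)
      (fun v hv => Finset.mem_coe.2 (mem_image_of_mem pos (Finset.mem_coe.1 hv)))]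
    refine Finset.sum_congr rfl ?_
    intro b hb
    congr 1
    ext v
    simp only [NF, Sb, mem_filter, mem_univ, true_and]
    constructor
    · exact fun h => h.2
    · intro h
      refine ⟨free_of_Sb hb ?_, h⟩
      simp [Sb, h]
  have h8 : (univ.image pos).card ≤ (univ.filter fun v => Free pos v).card + (PB pos).card := by
    have hsub : univ.image pos ⊆ (univ.filter fun v => Free pos v).image pos ∪ PB pos := by
      intro x hx
      obtain ⟨v, _, rfl⟩ := mem_image.1 hx
      by_cases hv : Free pos v
      · exact mem_union_left _ (mem_image_of_mem pos (by simp [hv]))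
      · exact mem_union_right _ (mem_image_of_mem pos (by simp [NF, hv]))
    refine (Finset.card_le_card hsub).trans ((Finset.card_union_le _ _).trans ?_)
    exact Nat.add_le_add_right Finset.card_image_le _
  have h9 : (univ.filter fun v => Free pos v).card + (NF pos).card = Fintype.card V := by
    unfold NF
    rw [Finset.card_filter_add_card_filter_not]
    simp
  have h10 : 1 ≤ (PB pos).card := Finset.card_pos.2 ⟨b0, hb0PB⟩
  omega

end geom

end PMap

end

end Vale.Agent.Lib.P039B
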