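import Vale.Agent.Lib.P039B.Linear

/-!
Hypotheses on the contracted map: no loops, no face meets a vertex twice, minimum degree six,
and at most one big face at each vertex. Consequences: absence of cut vertices.
-/

namespace Vale.Agent.Lib.P039B

open Finset Module

open scoped Classical

noncomputable section

variable {D V E F : Type} [Fintype D] [Fintype V] [Fintype E] [Fintype F]

namespace PMap

variable (M : PMap D V E F)

/-- The number of sides of a face. -/
def fsize (f : F) : ℕ := (univ.filter fun d => M.fc d = f).card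

/-- The degree of a vertex. -/
def vdeg (v : V) : ℕ := (univ.filter fun d => M.vt d = v).card

/-- Hypotheses for the spanning hypertree theorem. -/
structure Good : Prop where
  loopless : ∀ d, M.vt (M.α d) ≠ M.vt d
  corners : ∀ d d', M.fc d = M.fc d' → M.vt d = M.vt d' → d = d'
  deg6 : ∀ v, 6 ≤ M.vdeg v
  bigone : ∀ d d', M.vt d = M.vt d' → 4 ≤ M.fsize (M.fc d) → 4 ≤ M.fsize (M.fc d') → d = d'

variable {M}

theorem Good.φ_ne (hG : M.Good) (d : D) : M.φ d ≠ d := by
  intro h
  have h1 := M.vt_φ d
  rw [h] at h1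
  exact hG.loopless d h1.symm

theorem Good.two_le_fsize (hG : M.Good) (d : D) : 2 ≤ M.fsize (M.fc d) := by
  have h : ({d, M.φ d} : Finset D) ⊆ univ.filter fun d' => M.fc d' = M.fc d := by
    intro x hx
    simp only [mem_insert, mem_singleton] at hx
    simp only [mem_filter, mem_univ, true_and]
    rcases hx with rfl | rfl
    · rfl
    · exact M.fc_φ d
  have h2 := Finset.card_le_card h
  rw [Finset.card_pair (hG.φ_ne d).symm] at h2
  exact h2

/-- No cut vertices. -/
theorem Good.no_cut (hG : M.Good) (y : V) (Y : V → Prop) (hy : ¬ Y y) (hne : ∃ v, Y v)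
    (hcl : ∀ d, Y (M.vt d) → Y (M.vt (M.α d)) ∨ M.vt (M.α d) = y) : ∀ v, Y v ∨ v = y := by
  by_contra hcon
  push Not at hcon
  obtain ⟨x, hx, hxy⟩ := hcon
  -- a dart at `y` with head in `Y`
  obtain ⟨e1, he1, he1'⟩ : ∃ e, M.vt e = y ∧ Y (M.vt (M.α e)) := by
    by_contra hno
    push Not at hno
    have hclosed : ∀ d, Y (M.vt d) → Y (M.vt (M.α d)) := by
      intro d hd
      rcases hcl d hd with h | h
      · exact h
      · exfalso
        apply hno (M.α d) h
        rw [M.α_α]
        exact hd
    obtain ⟨v0, hv0⟩ := hne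
    obtain ⟨d0, rfl⟩ := M.vt_surj v0
    obtain ⟨dx, rfl⟩ := M.vt_surj x
    have := M.conn (fun d => Y (M.vt d)) (fun d hd => by simpa [M.vt_σ] using hd)
      (fun d hd => hclosed d hd) d0 dx hv0
    exact hx this
  -- a dart at `y` with head outside `Y`
  obtain ⟨e2, he2, he2'⟩ : ∃ e, M.vt e = y ∧ ¬ Y (M.vt (M.α e)) := by
    by_contra hno
    push Not at hno
    let Z : V → Prop := fun v => ¬ Y v ∧ v ≠ y
    have hclosed : ∀ d, Z (M.vt d) → Z (M.vt (M.α d)) := by
      rintro d ⟨h1, h2⟩
      refine ⟨?_, ?_⟩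
      · intro h3
        rcases hcl (M.α d) h3 with h4 | h4
        · rw [M.α_α] at h4
          exact h1 h4
        · rw [M.α_α] at h4
          exact h2 h4
      · intro h3
        apply h1
        have := hno (M.α d) h3
        rwa [M.α_α] at this
    obtain ⟨dx, rfl⟩ := M.vt_surj x
    obtain ⟨dy, hdy⟩ := M.vt_surj y
    have := M.conn (fun d => Z (M.vt d)) (fun d hd => by simpa [M.vt_σ] using hd)
      (fun d hd => hclosed d hd) dx dy ⟨hx, hxy⟩
    exact this.2 hdy
  -- consecutive darts
  obtain ⟨k, hk⟩ := M.vt_orbit e2 e1 (by rw [he1, he2])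
  have hstep : ∃ d, M.vt d = y ∧ ¬ Y (M.vt (M.α d)) ∧ Y (M.vt (M.α (M.σ d))) := by
    by_contra hno
    push Not at hno
    have hall : ∀ i : ℕ, ¬ Y (M.vt (M.α ((M.σ ^ i) e2))) := by
      intro i
      induction i with
      | zero => simpa using he2'
      | succ i ih =>
        rw [pow_succ', Equiv.Perm.mul_apply]
        exact hno _ (by rw [M.vt_pow, he2]) ih
    apply hall k
    rw [hk]
    exact he1'
  obtain ⟨d, hd, hd1, hd2⟩ := hstep
  -- the face walk from `σ d`
  have hwalk : ∀ i : ℕ, Y (M.vt ((M.φ ^ (i + 1)) (M.σ d))) ∨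
      (M.φ ^ (i + 1)) (M.σ d) = M.σ d := by
    intro i
    induction i with
    | zero =>
      left
      simp only [zero_add, pow_one]
      rw [M.vt_φ]
      exact hd2
    | succ i ih =>
      rcases ih with h | h
      · rw [pow_succ', Equiv.Perm.mul_apply]
        rcases hcl _ h with h1 | h1
        · left
          rw [M.vt_φ]
          exact h1
        · right
          apply hG.corners
          · rw [M.fc_φ, M.fc_pow]
          · rw [M.vt_φ, h1, M.vt_σ, hd]
      · left
        rw [pow_succ', Equiv.Perm.mul_apply, h, M.vt_φ]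
        exact hd2
  obtain ⟨m, hm⟩ := M.fc_orbit (M.σ d) (M.α d) (by rw [M.fc_α])
  have hne2 : M.α d ≠ M.σ d := by
    intro h
    have := congrArg M.vt h
    rw [M.vt_σ] at this
    exact hG.loopless d this
  cases m with
  | zero => exact hne2 (by simpa using hm.symm)
  | succ m =>
    rcases hwalk m with h | h
    · rw [hm] at h
      exact hd1 h
    · rw [hm] at h
      exact hne2 h

end PMap

end

end Vale.Agent.Lib.P039B
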