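import Vale.Agent.Lib.P039.Cycle

/-!
A connected spanning subgraph of a graph with all degrees two gives a Hamiltonian cycle.
-/

namespace Vale.Agent.Lib.P039B

open Finset

/-- A connected spanning subgraph in which all degrees are two is a Hamiltonian cycle. -/
theorem ham_of_two_factor {V : Type} [Fintype V] [DecidableEq V] [Nonempty V]
    (G : SimpleGraph V) (C : V → V → Prop) (hsymm : ∀ a b, C a b → C b a)
    (hadj : ∀ a b, C a b → G.Adj a b)
    (h2 : ∀ v, ∃ p q, p ≠ q ∧ C v p ∧ C v q ∧ ∀ w, C v w → w = p ∨ w = q)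
    (hcl : ∀ U : V → Prop, (∃ v, U v) → (∀ a b, C a b → U a → U b) → ∀ v, U v) :
    G.IsHamiltonian := by
  classical
  have hnxt : ∀ v u, C v u → ∃ w, w ≠ u ∧ C v w ∧ ∀ w', C v w' → w' = u ∨ w' = w := by
    intro v u hu
    obtain ⟨p, q, hpq, hp, hq, hall⟩ := h2 v
    rcases hall u hu with rfl | rfl
    · exact ⟨q, hpq.symm, hq, hall⟩
    · refine ⟨p, hpq, hp, ?_⟩
      intro w' hw'
      rcases hall w' hw' with h | h
      · exact Or.inr h
      · exact Or.inl h
  let nxt : V → V → V := fun prev cur =>
    if h : C cur prev then (hnxt cur prev h).choose else cur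
  have hnxt1 : ∀ prev cur, C cur prev → nxt prev cur ≠ prev := by
    intro prev cur h
    simp only [nxt, dif_pos h]
    exact (hnxt cur prev h).choose_spec.1
  have hnxt2 : ∀ prev cur, C cur prev → C cur (nxt prev cur) := by
    intro prev cur h
    simp only [nxt, dif_pos h]
    exact (hnxt cur prev h).choose_spec.2.1
  have hnxt3 : ∀ prev cur w, C cur prev → C cur w → w = prev ∨ w = nxt prev cur := by
    intro prev cur w h hw
    simp only [nxt, dif_pos h]
    exact (hnxt cur prev h).choose_spec.2.2 w hw
  obtain ⟨x0⟩ := ‹Nonempty V›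
  obtain ⟨x1, _, _, hx1, _, _⟩ := h2 x0
  let s : ℕ → V × V := fun i => Nat.rec (x0, x1) (fun _ p => (p.2, nxt p.1 p.2)) i
  let a : ℕ → V := fun i => (s i).1
  have hs0 : a 0 = x0 := rfl
  have hs1 : a 1 = x1 := rfl
  have hstep : ∀ i, a (i + 2) = nxt (a i) (a (i + 1)) := by
    intro i
    rfl
  have hsnd : ∀ i, (s i).2 = a (i + 1) := fun i => rfl
  have hC : ∀ i, C (a i) (a (i + 1)) := by
    intro i
    induction i with
    | zero => exact hx1
    | succ i ih =>
      rw [hstep i]
      exact hnxt2 _ _ (hsymm _ _ ih)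
  have hne2 : ∀ i, a (i + 2) ≠ a i := by
    intro i
    rw [hstep i]
    exact hnxt1 _ _ (hsymm _ _ (hC i))
  have hnb : ∀ i w, C (a (i + 1)) w → w = a i ∨ w = a (i + 2) := by
    intro i w hw
    rw [hstep i]
    exact hnxt3 _ _ _ (hsymm _ _ (hC i)) hw
  have hirr : ∀ u v, C u v → u ≠ v := fun u v h => (hadj u v h).ne
  -- a first repetition
  have hrep : ∃ K j, j < K ∧ a j = a K := by
    obtain ⟨i, j, hij, heq⟩ := Finite.exists_ne_map_eq_of_infinite a
    rcases lt_or_gt_of_ne hij with h | h
    · exact ⟨j, i, h, heq⟩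
    · exact ⟨i, j, h, heq.symm⟩
  let K := Nat.find hrep
  obtain ⟨j, hjK, hjeq⟩ : ∃ j, j < K ∧ a j = a K := Nat.find_spec hrep
  have hmin : ∀ i i', i < i' → i' < K → a i ≠ a i' := by
    intro i i' h1 h2 h3
    exact Nat.find_min hrep h2 ⟨i, h1, h3⟩
  have hinj : ∀ i i', i < K → i' < K → a i = a i' → i = i' := by
    intro i i' h1 h2 h3
    rcases Nat.lt_trichotomy i i' with h | h | h
    · exact absurd h3 (hmin i i' h h2)
    · exact h
    · exact absurd h3.symm (hmin i' i h h1)
  have hK0 : 0 < K := by omega
  -- the repetition is at the start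
  have hj0 : j = 0 := by
    by_contra hj
    obtain ⟨m, rfl⟩ : ∃ m, j = m + 1 := ⟨j - 1, by omega⟩
    obtain ⟨n, hn⟩ : ∃ n, K = n + 1 := ⟨K - 1, by omega⟩
    have h1 : C (a (m + 1)) (a n) := by
      rw [hjeq, hn]
      exact hsymm _ _ (hC n)
    rcases hnb m _ h1 with h | h
    · have := hinj n m (by omega) (by omega) h
      omega
    · by_cases hm : m + 2 < K
      · have := hinj n (m + 2) (by omega) hm h
        have h3 : a (m + 3) = a (m + 1) := by
          have : K = m + 3 := by omega
          rw [← this]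
          exact hjeq.symm
        exact hne2 (m + 1) h3
      · have : K = m + 2 := by omega
        have h3 : a (m + 2) = a (m + 1) := by
          rw [← this]
          exact hjeq.symm
        exact hirr _ _ (hC (m + 1)) h3.symm
  subst hj0
  have hK1 : K ≠ 1 := by
    intro h
    rw [h] at hjeq
    exact hirr _ _ (hC 0) hjeq
  have hK2 : K ≠ 2 := by
    intro h
    rw [h] at hjeq
    exact hne2 0 hjeq.symm
  have hK3 : 3 ≤ K := by omega
  obtain ⟨n, hn⟩ : ∃ n, K = n + 1 := ⟨K - 1, by omega⟩
  have hlast : C (a n) (a 0) := by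
    have := hC n
    rw [← hn, ← hjeq] at this
    exact this
  -- closure
  have hcov : ∀ v, ∃ i, i < K ∧ a i = v := by
    apply hcl
    · exact ⟨a 0, 0, hK0, rfl⟩
    · rintro u w hw ⟨i, hi, rfl⟩
      cases i with
      | zero =>
        -- the two neighbours of the start
        obtain ⟨p, q, hpq, _, _, hall⟩ := h2 (a 0)
        have h1 : a 1 ≠ a n := by
          intro h
          have := hinj 1 n (by omega) (by omega) h
          omega
        have hc1 := hall _ (hC 0)
        have hc2 := hall _ (hsymm _ _ hlast)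
        have hc3 := hall _ hw
        have : w = a 1 ∨ w = a n := by
          rcases hc1 with h11 | h11 <;> rcases hc2 with h22 | h22 <;> rcases hc3 with h33 | h33 <;>
            first
              | exact absurd (h11.trans h22.symm) h1
              | exact Or.inl (h33.trans h11.symm)
              | exact Or.inr (h33.trans h22.symm)
        rcases this with rfl | rfl
        · exact ⟨1, by omega, rfl⟩
        · exact ⟨n, by omega, rfl⟩
      | succ i =>
        rcases hnb i w hw with rfl | rfl
        · exact ⟨i, by omega, rfl⟩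
        · by_cases h : i + 2 < K
          · exact ⟨i + 2, h, rfl⟩
          · have h5 : K = i + 2 := by omega
            rw [← h5, ← hjeq]
            exact ⟨0, hK0, rfl⟩
  refine Vale.Agent.Lib.P039.ham_of_chain G a K hK3 ?_ ?_ hinj hcov
  · intro i _
    exact hadj _ _ (hC i)
  · have : K - 1 = n := by omega
    rw [this]
    exact hadj _ _ hlast

end Vale.Agent.Lib.P039B
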