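import Vale.Agent.Lib.P039B.Defs
import Vale.Agent.Lib.P039B.Core
import Vale.Agent.Lib.P039B.Ham

/-!
A cubic graph with a plane rotation system as a map, and the final Hamiltonicity theorem.
-/

namespace Vale.Agent.Lib.P039B

open Finset Module

open scoped Classical

noncomputable section

set_option linter.unusedSectionVars false

variable {V : Type} [Fintype V] [DecidableEq V] {G : SimpleGraph V} [DecidableRel G.Adj]

namespace CubicRotation

variable (R : CubicRotation G)

instance : Finite R.Face := Quotient.finite _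

instance : Fintype R.Face := Fintype.ofFinite _

/-- Reversal of darts. -/
def rev (G : SimpleGraph V) : Equiv.Perm G.Dart :=
  Function.Involutive.toPerm SimpleGraph.Dart.symm SimpleGraph.Dart.symm_involutive

theorem rot_pow_fst (k : ℕ) (d : G.Dart) : ((R.rot ^ k) d).fst = d.fst := by
  induction k with
  | zero => simp
  | succ k ih =>
    rw [pow_succ', Equiv.Perm.mul_apply, R.fst_rot, ih]

theorem three_at (hreg : G.IsRegularOfDegree 3) (d : G.Dart) :
    (univ.filter fun e : G.Dart => e.fst = d.fst) = {d, R.rot d, R.rot (R.rot d)} := by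
  symm
  apply Finset.eq_of_subset_of_card_le
  · intro x hx
    simp only [mem_insert, mem_singleton] at hx
    simp only [mem_filter, mem_univ, true_and]
    rcases hx with rfl | rfl | rfl
    · rfl
    · exact R.fst_rot d
    · rw [R.fst_rot, R.fst_rot]
  · have h1 : (univ.filter fun e : G.Dart => e.fst = d.fst).card = 3 := by
      have := G.dart_fst_fiber_card_eq_degree d.fst
      rw [hreg d.fst] at this
      convert this
    have h2 : R.rot (R.rot d) ≠ d := by
      intro h
      have h3 := R.rot_cube d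
      rw [h] at h3
      exact R.rot_ne d h3
    have h3 : ({d, R.rot d, R.rot (R.rot d)} : Finset G.Dart).card = 3 := by
      rw [Finset.card_insert_of_notMem (by
        simp only [mem_insert, mem_singleton, not_or]
        exact ⟨(R.rot_ne d).symm, h2.symm⟩), Finset.card_pair (R.rot_ne _).symm]
    rw [h1, h3]

theorem orbit_at (hreg : G.IsRegularOfDegree 3) {d d' : G.Dart} (h : d.fst = d'.fst) :
    ∃ k : ℕ, (R.rot ^ k) d = d' := by
  have h1 : d' ∈ univ.filter fun e : G.Dart => e.fst = d.fst := by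
    simp [h]
  rw [R.three_at hreg d] at h1
  simp only [mem_insert, mem_singleton] at h1
  rcases h1 with rfl | rfl | rfl
  · exact ⟨0, rfl⟩
  · exact ⟨1, rfl⟩
  · exact ⟨2, rfl⟩

/-- The graph with its rotation system as a map. -/
def toMap (hconn : G.Connected) (hreg : G.IsRegularOfDegree 3) (hP : R.Planar) :
    PMap G.Dart V G.edgeSet R.Face where
  σ := R.rot
  α := rev G
  vt d := d.fst
  ed d := ⟨d.edge, d.edge_mem⟩
  fc d := R.face d
  α_α := SimpleGraph.Dart.symm_symm
  α_ne := SimpleGraph.Dart.symm_ne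
  vt_σ := R.fst_rot
  fc_step := by
    intro d
    apply Quotient.sound
    show Equiv.Perm.SameCycle R.next (R.next d) d
    exact (Equiv.Perm.sameCycle_apply_left).2 (Equiv.Perm.SameCycle.refl _ _)
  ed_eq := by
    intro d d'
    rw [Subtype.mk.injEq, eq_comm, SimpleGraph.dart_edge_eq_iff]
    rfl
  vt_surj := by
    intro v
    have h3 := hreg v
    have : 0 < G.degree v := by omega
    obtain ⟨w, hw⟩ := (G.degree_pos_iff_exists_adj v).1 this
    exact ⟨⟨(v, w), hw⟩, rfl⟩
  ed_surj := by
    rintro ⟨e, he⟩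
    induction e using Sym2.ind with
    | _ a b =>
      exact ⟨⟨(a, b), he⟩, rfl⟩
  fc_surj := Quotient.mk_surjective
  vt_orbit := fun d d' h => R.orbit_at hreg h
  fc_orbit := by
    intro d d' h
    have h1 : Equiv.Perm.SameCycle R.next d d' := Quotient.exact h
    obtain ⟨k, _, hk⟩ := h1.exists_pow_eq'
    exact ⟨k, hk⟩
  conn := by
    intro P h1 h2 a b ha
    have hpow : ∀ k : ℕ, ∀ x, P x → P ((R.rot ^ k) x) := by
      intro k
      induction k with
      | zero => simp
      | succ k ih =>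
        intro x hx
        rw [pow_succ', Equiv.Perm.mul_apply]
        exact h1 _ (ih x hx)
    have hat : ∀ x y : G.Dart, x.fst = y.fst → P x → P y := by
      intro x y hxy hx
      obtain ⟨k, rfl⟩ := R.orbit_at hreg hxy
      exact hpow k x hx
    have hwalk : ∀ u w : V, G.Walk u w → (∃ d : G.Dart, d.fst = u ∧ P d) →
        ∃ d : G.Dart, d.fst = w ∧ P d := by
      intro u w p
      induction p with
      | nil => exact id
      | cons h q ih =>
        rintro ⟨d, hd, hPd⟩
        apply ih
        rename_i u' v' _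
        have h3 : P ⟨(u', v'), h⟩ := hat d _ hd hPd
        exact ⟨⟨(v', u'), h.symm⟩, rfl, h2 _ h3⟩
    obtain ⟨p⟩ := hconn.preconnected a.fst b.fst
    obtain ⟨d, hd, hPd⟩ := hwalk _ _ p ⟨a, rfl, ha⟩
    exact hat d b hd hPd
  euler := by
    have := hP
    unfold Planar at this
    simpa only [Nat.card_eq_fintype_card] using this

variable (hconn : G.Connected) (hreg : G.IsRegularOfDegree 3) (hP : R.Planar)

theorem toMap_fsize (f : R.Face) : (R.toMap hconn hreg hP).fsize f = R.faceSize f := by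
  unfold PMap.fsize faceSize
  rw [Nat.card_eq_fintype_card, Fintype.card_subtype]
  rfl

/-- Two darts with the same two faces, on different edges, form an edge cut. -/
theorem exists_two_cut (N : PMap G.Dart V G.edgeSet R.Face) (d d' : G.Dart)
    (h1 : N.fc d = N.fc d') (h2 : N.fc (N.α d) = N.fc (N.α d')) (hne : N.ed d ≠ N.ed d') :
    ∃ W : V → 𝔽, ∀ x, W (N.vt x) ≠ W (N.vt (N.α x)) ↔ (N.ed x = N.ed d ∨ N.ed x = N.ed d') := by
  let z : G.edgeSet → 𝔽 := fun e => if e = N.ed d ∨ e = N.ed d' then 1 else 0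
  have hz : z ∈ N.dual.Zsp := by
    rw [PMap.mem_Zsp]
    intro f
    show ∑ x : G.Dart, (if N.fc x = f then z (N.ed x) else 0) = 0
    let T : Finset G.Dart := {d, N.α d, d', N.α d'}
    have hT : ∀ x, x ∈ T ↔ (N.ed x = N.ed d ∨ N.ed x = N.ed d') := by
      intro x
      simp only [T, mem_insert, mem_singleton]
      rw [eq_comm (a := N.ed x) (b := N.ed d), eq_comm (a := N.ed x) (b := N.ed d'), N.ed_eq, N.ed_eq]
      tauto
    have hdist1 : d ≠ N.α d := (N.α_ne d).symm
    have hdist2 : d ≠ d' := fun h => hne (by rw [h])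
    have hdist3 : d ≠ N.α d' := fun h => hne (by rw [h, N.ed_α])
    have hdist4 : N.α d ≠ d' := fun h => hne (by rw [← h, N.ed_α])
    have hdist5 : N.α d ≠ N.α d' := fun h => hne (by rw [← N.ed_α d, h, N.ed_α])
    have hdist6 : d' ≠ N.α d' := (N.α_ne d').symm
    have h3 : ∑ x : G.Dart, (if N.fc x = f then z (N.ed x) else 0) =
        ∑ x ∈ T, (if N.fc x = f then (1 : 𝔽) else 0) := by
      rw [← Finset.sum_subset (Finset.subset_univ T)]
      · apply Finset.sum_congr rfl
        intro x hx
        simp only [z, if_pos ((hT x).1 hx)]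
      · intro x _ hx
        have : ¬ (N.ed x = N.ed d ∨ N.ed x = N.ed d') := fun h => hx ((hT x).2 h)
        simp only [z, if_neg this, ite_self]
    rw [h3]
    simp only [T]
    rw [Finset.sum_insert (by simp [hdist1, hdist2, hdist3]),
      Finset.sum_insert (by simp [hdist4, hdist5]), Finset.sum_pair hdist6, ← h1, ← h2]
    generalize (if N.fc d = f then (1 : 𝔽) else 0) = a
    generalize (if N.fc (N.α d) = f then (1 : 𝔽) else 0) = b
    revert a b
    decide
  obtain ⟨W, hW⟩ := N.exists_cob hz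
  refine ⟨W, ?_⟩
  intro x
  have h3 : W (N.vt x) + W (N.vt (N.α x)) = z (N.ed x) := by
    rw [← N.cob_apply, hW]
  constructor
  · intro h4
    by_contra h5
    simp only [z, if_neg h5] at h3
    exact h4 (eq_of_add_eq_zero_F h3)
  · intro h4 h5
    simp only [z, if_pos h4] at h3
    rw [h5, add_self_F] at h3
    exact zero_ne_one h3

theorem three_in_two {α : Type} (e1 e2 e3 E E' : α) (h12 : e1 ≠ e2) (h13 : e1 ≠ e3) (h23 : e2 ≠ e3)
    (h1 : e1 = E ∨ e1 = E') (h2 : e2 = E ∨ e2 = E') (h3 : e3 = E ∨ e3 = E') : False := by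
  rcases h1 with rfl | rfl <;> rcases h2 with rfl | rfl <;> rcases h3 with rfl | rfl <;> simp_all

include hconn hreg hP in
theorem tsimple_of_three_conn
    (h3 : ∀ S : Finset V, S.card ≤ 2 → (G.induce ((S : Set V)ᶜ)).Connected)
    (hprop : ∀ d : G.Dart, R.face d ≠ R.face d.symm) (d d' : G.Dart)
    (h1 : R.face d = R.face d') (h2 : R.face d.symm = R.face d'.symm) : d = d' := by
  by_contra hne
  set N := R.toMap hconn hreg hP with hN
  have hed : N.ed d ≠ N.ed d' := by
    intro h
    rcases (N.ed_eq d d').1 h with h4 | h4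
    · exact hne h4.symm
    · apply hprop d
      have h5 : d' = d.symm := h4
      rw [h1, h5]
  obtain ⟨W, hW⟩ := R.exists_two_cut N d d' h1 h2 hed
  have hd1 : W d.fst ≠ W d.snd := (hW d).2 (Or.inl rfl)
  have hd2 : W d'.fst ≠ W d'.snd := (hW d').2 (Or.inr rfl)
  have hone : ∀ x y : 𝔽, x ≠ y → x = 1 ∨ y = 1 := by decide
  have hzero : ∀ x y : 𝔽, x ≠ y → x = 0 ∨ y = 0 := by decide
  obtain ⟨a, ha, haW⟩ : ∃ a, (a = d.fst ∨ a = d.snd) ∧ W a = 1 := by
    rcases hone _ _ hd1 with h | h
    · exact ⟨_, Or.inl rfl, h⟩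
    · exact ⟨_, Or.inr rfl, h⟩
  obtain ⟨b, hb, hbW⟩ : ∃ b, (b = d'.fst ∨ b = d'.snd) ∧ W b = 0 := by
    rcases hzero _ _ hd2 with h | h
    · exact ⟨_, Or.inl rfl, h⟩
    · exact ⟨_, Or.inr rfl, h⟩
  have hdist : ∀ x y : G.Dart, x.fst = y.fst → N.ed x = N.ed y → x = y := by
    intro x y hxy hed2
    rcases (N.ed_eq x y).1 hed2 with h4 | h4
    · exact h4.symm
    · exfalso
      have h5 : y.fst = x.snd := by
        rw [h4]
        rfl
      exact x.adj.ne (hxy.trans h5)
  have hnon : ∀ v, ∃ y : G.Dart, y.fst = v ∧ W y.fst = W y.snd := by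
    intro v
    by_contra hno
    push Not at hno
    obtain ⟨g, rfl⟩ := N.vt_surj v
    have hg1 : ∀ y : G.Dart, y.fst = N.vt g → (N.ed y = N.ed d ∨ N.ed y = N.ed d') :=
      fun y hy => (hW y).1 (hno y hy)
    have hrr : R.rot (R.rot g) ≠ g := by
      intro h
      have h3 := R.rot_cube g
      rw [h] at h3
      exact R.rot_ne g h3
    refine three_in_two (N.ed g) (N.ed (R.rot g)) (N.ed (R.rot (R.rot g))) (N.ed d) (N.ed d')
      ?_ ?_ ?_ (hg1 _ rfl) (hg1 _ (R.fst_rot g)) (hg1 _ (by rw [R.fst_rot, R.fst_rot]; rfl))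
    · intro h
      exact R.rot_ne g (hdist _ _ (R.fst_rot g).symm h).symm
    · intro h
      exact hrr (hdist _ _ (by rw [R.fst_rot, R.fst_rot]) h).symm
    · intro h
      exact R.rot_ne (R.rot g) (hdist _ _ (R.fst_rot _).symm h).symm
  obtain ⟨y1, hy1, hy1W⟩ := hnon a
  obtain ⟨y2, hy2, hy2W⟩ := hnon b
  have ha'W : W y1.snd = 1 := by
    rw [← hy1W, hy1, haW]
  have hb'W : W y2.snd = 0 := by
    rw [← hy2W, hy2, hbW]
  have ha'1 : y1.snd ≠ a := fun h => y1.adj.ne (hy1.trans h.symm)
  have ha'2 : y1.snd ≠ b := by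
    intro h
    rw [h, hbW] at ha'W
    exact zero_ne_one ha'W
  have hb'1 : y2.snd ≠ a := by
    intro h
    rw [h, haW] at hb'W
    exact one_ne_zero hb'W
  have hb'2 : y2.snd ≠ b := fun h => y2.adj.ne (hy2.trans h.symm)
  have hmem : ∀ x : V, x ≠ a → x ≠ b → x ∈ ((({a, b} : Finset V) : Set V)ᶜ : Set V) := by
    intro x h4 h5
    simp [h4, h5]
  have hmem' : ∀ x : ((({a, b} : Finset V) : Set V)ᶜ : Set V), x.1 ≠ a ∧ x.1 ≠ b := by
    rintro ⟨x, hx⟩
    simpa using hx
  have hconn' := h3 {a, b} Finset.card_le_two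
  obtain ⟨p⟩ := hconn'.preconnected ⟨y1.snd, hmem _ ha'1 ha'2⟩ ⟨y2.snd, hmem _ hb'1 hb'2⟩
  have hwalk : ∀ u w : ((({a, b} : Finset V) : Set V)ᶜ : Set V),
      (G.induce ((({a, b} : Finset V) : Set V)ᶜ : Set V)).Walk u w → W u.1 = W w.1 := by
    intro u w p
    induction p with
    | nil => rfl
    | cons h q ih =>
      rename_i u' v' _
      rw [← ih]
      by_contra hcr
      have hadj : G.Adj u'.1 v'.1 := h
      let x : G.Dart := ⟨(u'.1, v'.1), hadj⟩
      have hx := (hW x).1 hcr
      have hu := hmem' u'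
      have hv := hmem' v'
      rcases hx with hx | hx
      · rcases (N.ed_eq d x).1 hx.symm with h5 | h5
        · have h6 : u'.1 = d.fst := congrArg (fun z : G.Dart => z.fst) h5
          have h7 : v'.1 = d.snd := congrArg (fun z : G.Dart => z.snd) h5
          rcases ha with h8 | h8
          · exact hu.1 (h6.trans h8.symm)
          · exact hv.1 (h7.trans h8.symm)
        · have h6 : u'.1 = d.snd := congrArg (fun z : G.Dart => z.fst) h5
          have h7 : v'.1 = d.fst := congrArg (fun z : G.Dart => z.snd) h5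
          rcases ha with h8 | h8
          · exact hv.1 (h7.trans h8.symm)
          · exact hu.1 (h6.trans h8.symm)
      · rcases (N.ed_eq d' x).1 hx.symm with h5 | h5
        · have h6 : u'.1 = d'.fst := congrArg (fun z : G.Dart => z.fst) h5
          have h7 : v'.1 = d'.snd := congrArg (fun z : G.Dart => z.snd) h5
          rcases hb with h8 | h8
          · exact hu.2 (h6.trans h8.symm)
          · exact hv.2 (h7.trans h8.symm)
        · have h6 : u'.1 = d'.snd := congrArg (fun z : G.Dart => z.fst) h5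
          have h7 : v'.1 = d'.fst := congrArg (fun z : G.Dart => z.snd) h5
          rcases hb with h8 | h8
          · exact hv.2 (h7.trans h8.symm)
          · exact hu.2 (h6.trans h8.symm)
  have h9 := hwalk _ _ p
  simp only at h9
  rw [ha'W, hb'W] at h9
  exact one_ne_zero h9

end CubicRotation

open CubicRotation in
/-- The main theorem. -/
theorem hamiltonian_of_sparse_big (G : SimpleGraph V) [DecidableRel G.Adj]
    (hconn : G.Connected) (hreg : G.IsRegularOfDegree 3)
    (h3 : ∀ S : Finset V, S.card ≤ 2 → (G.induce ((S : Set V)ᶜ)).Connected)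
    (R : CubicRotation G) (hP : R.Planar)
    (c : R.Face → Fin 3) (hc : ∀ d : G.Dart, c (R.face d) ≠ c (R.face d.symm)) (r : Fin 3)
    (hred : ∀ f, c f = r → 6 ≤ R.faceSize f)
    (hbig : ∀ d d' : G.Dart, c (R.face d) = r → R.face d = R.face d' →
      8 ≤ R.faceSize (R.face d.symm) → 8 ≤ R.faceSize (R.face d'.symm) →
      R.face d.symm = R.face d'.symm) :
    G.IsHamiltonian := by
  set N := R.toMap hconn hreg hP with hN
  have hprop : ∀ d : G.Dart, R.face d ≠ R.face d.symm := fun d h => hc d (by rw [h])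
  have hT : Tricol N c := ⟨R.rot_cube, R.rot_ne, hc⟩
  have hsize : ∀ f, N.fsize f = R.faceSize f := R.toMap_fsize hconn hreg hP
  have hH : Hyp N c r :=
    { simple := by
        intro d d' h1 h2
        exact SimpleGraph.Dart.ext _ _ (Prod.ext h1 h2)
      tsimple := fun d d' h1 h2 => R.tsimple_of_three_conn hconn hreg hP h3 hprop d d' h1 h2
      red6 := by
        intro f hf
        rw [hsize]
        exact hred f hf
      big := by
        intro d d' h1 h2 h4 h5
        rw [hsize] at h4 h5
        exact hbig d d' h1 h2 h4 h5 }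
  obtain ⟨A, ha1, ha2, hcn, hct⟩ := hT.exists_region r hH
  have : Nonempty V := hconn.nonempty
  apply ham_of_two_factor G (fun a b => ∃ d : G.Dart, d.fst = a ∧ d.snd = b ∧ N.Crossing A d)
  · rintro a b ⟨d, rfl, rfl, hd⟩
    exact ⟨d.symm, rfl, rfl, PMap.crossing_α.2 hd⟩
  · rintro a b ⟨d, rfl, rfl, _⟩
    exact d.adj
  · intro v
    have h2 := PMap.card_crossing_at hT.σ3 hT.σ1 A ha1 ha2 v
    obtain ⟨x, y, hxy, hs⟩ := Finset.card_eq_two.1 h2
    have hxm : x ∈ ({x, y} : Finset G.Dart) := by simp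
    have hym : y ∈ ({x, y} : Finset G.Dart) := by simp
    rw [← hs] at hxm hym
    simp only [mem_filter, mem_univ, true_and] at hxm hym
    refine ⟨x.snd, y.snd, ?_, ⟨x, hxm.1, rfl, hxm.2⟩, ⟨y, hym.1, rfl, hym.2⟩, ?_⟩
    · intro h
      apply hxy
      exact SimpleGraph.Dart.ext _ _ (Prod.ext (hxm.1.trans hym.1.symm) h)
    · rintro w ⟨e, he1, rfl, he2⟩
      have hem : e ∈ ({x, y} : Finset G.Dart) := by
        rw [← hs]
        simp only [mem_filter, mem_univ, true_and]
        exact ⟨he1, he2⟩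
      simp only [mem_insert, mem_singleton] at hem
      rcases hem with rfl | rfl
      · exact Or.inl rfl
      · exact Or.inr rfl
  · intro U hU hcl
    exact PMap.cut_connected hT.σ3 hT.σ1 A ha1 ha2 hcn hct U hU
      (fun d hd hu => hcl _ _ ⟨d, rfl, rfl, hd⟩ hu)

end

end Vale.Agent.Lib.P039B
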