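import Vale.Agent.Lib.P039B.Geometry
import Vale.Agent.Lib.P039B.Algebra

/-!
The spanning hypertree theorem: a plane map with minimum degree six, no loops, no face meeting
a vertex twice and at most one big face at each vertex has a family of digons and triangles
that connects all vertices, with total rank at most the number of vertices minus one.
-/

namespace Vale.Agent.Lib.P039B

open Finset Module

open scoped Classical

noncomputable section

variable {D V E F : Type} [Fintype D] [Fintype V] [Fintype E] [Fintype F]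

/-- From a vanishing wedge to parallel covectors. -/
theorem par_of_wedge {Y : Type} [AddCommGroup Y] [Module ℚ Y] (a b : Dual ℚ Y)
    (h : ∀ w w', a w * b w' - b w * a w' = 0) : Par a b := by
  by_cases ha : a = 0
  · exact ⟨b, 0, 1, by simp [ha], by simp⟩
  · obtain ⟨w0, hw0⟩ : ∃ w0, a w0 ≠ 0 := by
      by_contra hcon
      push Not at hcon
      exact ha (LinearMap.ext hcon)
    refine ⟨a, 1, b w0 / a w0, by simp, ?_⟩
    ext w'
    have h1 := h w0 w'
    simp only [LinearMap.smul_apply, smul_eq_mul]
    field_simp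
    linarith

theorem Par.refl' {X : Type} [AddCommGroup X] [Module ℚ X] (x : X) : Par x x :=
  ⟨x, 1, 1, by simp, by simp⟩

namespace PMap

variable (M : PMap D V E F)

/-- Digons. -/
abbrev Dg : Type := {f : F // M.fsize f = 2}

/-- Padding length. -/
def padE : ℕ := if Even (Fintype.card V - 1 + Fintype.card M.Dg) then 0 else 1

/-- Coordinates beyond the vertices. -/
abbrev JJ : Type := M.Dg ⊕ Fin M.padE

/-- The ambient space. -/
abbrev WW : Type := (V → ℚ) × (M.JJ → ℚ)

/-- Evaluation at a vertex. -/
def evV (v : V) : Dual ℚ M.WW := (LinearMap.proj v) ∘ₗ LinearMap.fst ℚ _ _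

/-- Evaluation at a further coordinate. -/
def cJ (j : M.JJ) : Dual ℚ M.WW := (LinearMap.proj j) ∘ₗ LinearMap.snd ℚ _ _

@[simp] theorem evV_apply (v : V) (w : M.WW) : M.evV v w = w.1 v := rfl

@[simp] theorem cJ_apply (j : M.JJ) (w : M.WW) : M.cJ j w = w.2 j := rfl

/-- Index set of the lines. -/
abbrev LL : Type := {d : D // M.fsize (M.fc d) = 3} ⊕ (M.Dg ⊕ {q : M.JJ × M.JJ // q.1 ≠ q.2})

/-- A chosen side of a face. -/
def rep (f : F) : D := (M.fc_surj f).choose

theorem rep_spec (f : F) : M.fc (M.rep f) = f := (M.fc_surj f).choose_spec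

/-- First covector of a line. -/
def la : M.LL → Dual ℚ M.WW
  | Sum.inl d => M.evV (M.vt (M.φ d.1)) - M.evV (M.vt d.1)
  | Sum.inr (Sum.inl f) => M.evV (M.vt (M.α (M.rep f.1))) - M.evV (M.vt (M.rep f.1))
  | Sum.inr (Sum.inr q) => M.cJ q.1.1

/-- Second covector of a line. -/
def lb : M.LL → Dual ℚ M.WW
  | Sum.inl d => M.evV (M.vt (M.φ (M.φ d.1))) - M.evV (M.vt d.1)
  | Sum.inr (Sum.inl f) => M.cJ (Sum.inl f)
  | Sum.inr (Sum.inr q) => M.cJ q.1.2

/-- Functions constant on the blocks of `p` and vanishing at a base vertex. -/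
def UU (v0 : V) (p : V → V) : Submodule ℚ M.WW where
  carrier := {w | w.1 v0 = 0 ∧ ∀ u v, p u = p v → w.1 u = w.1 v}
  add_mem' := by
    rintro a b ⟨ha, ha'⟩ ⟨hb, hb'⟩
    refine ⟨by simp [ha, hb], ?_⟩
    intro u v h
    simp [ha' u v h, hb' u v h]
  zero_mem' := by
    refine ⟨rfl, ?_⟩
    intro _ _ _
    rfl
  smul_mem' := by
    rintro c a ⟨ha, ha'⟩
    refine ⟨by simp [ha], ?_⟩
    intro u v h
    simp [ha' u v h]

theorem mem_UU {v0 : V} {p : V → V} {w : M.WW} :
    w ∈ M.UU v0 p ↔ w.1 v0 = 0 ∧ ∀ u v, p u = p v → w.1 u = w.1 v := Iff.rfl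

theorem UU_merge (v0 : V) (p : V → V) (u v : V) :
    M.UU v0 (fun t => if p t = p v then p u else p t) =
      M.UU v0 p ⊓ LinearMap.ker (M.evV u - M.evV v) := by
  ext w
  constructor
  · rintro ⟨h0, h⟩
    have hu : (if p u = p v then p u else p u) = (if p v = p v then p u else p v) := by
      simp
    refine ⟨⟨h0, ?_⟩, ?_⟩
    · intro a b hab
      apply h
      simp [hab]
    · show (M.evV u - M.evV v) w = 0
      have := h u v hu
      simp [this]
  · rintro ⟨⟨h0, h⟩, h2⟩
    have h3 : w.1 u = w.1 v := by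
      have : w.1 u - w.1 v = 0 := h2
      linarith
    refine ⟨h0, ?_⟩
    intro a b hab
    by_cases ha : p a = p v
    · by_cases hb : p b = p v
      · exact h a b (ha.trans hb.symm)
      · simp only [ha, hb, if_true, if_false] at hab
        rw [h a v ha, ← h3]
        exact h u b hab
    · by_cases hb : p b = p v
      · simp only [ha, hb, if_true, if_false] at hab
        rw [h b v hb, ← h3]
        exact h a u hab
      · simp only [ha, hb, if_false] at hab
        exact h a b hab

/-- Two different blocks can be separated. -/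
theorem exists_separate (v0 : V) (p : V → V) {u v : V} (h : p u ≠ p v) :
    ∃ w ∈ M.UU v0 p, (M.evV u - M.evV v) w ≠ 0 := by
  by_cases hb : p v0 = p v
  · refine ⟨(fun t => if p t = p u then 1 else 0, 0), ⟨?_, ?_⟩, ?_⟩
    · have : p v0 ≠ p u := by rw [hb]; exact h.symm
      simp [this]
    · intro a b hab
      simp [hab]
    · simp [h.symm]
  · refine ⟨(fun t => if p t = p v then 1 else 0, 0), ⟨?_, ?_⟩, ?_⟩
    · simp [hb]
    · intro a b hab
      simp [hab]
    · simp [h]

variable {M}

/-- The reduction step: a partition with the separation property. -/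
theorem exists_separating (v0 : V) (x : M.LL → ℚ) :
    ∃ p : V → V,
      finrank ℚ (Kr (Ax M.la M.lb x) (M.UU v0 id)) + Fintype.card V ≤
        finrank ℚ (Kr (Ax M.la M.lb x) (M.UU v0 p)) + (univ.image p).card ∧
      ∀ u v, (∀ w ∈ Kr (Ax M.la M.lb x) (M.UU v0 p), w.1 u = w.1 v) → p u = p v := by
  let Q : Finset (V → V) := univ.filter fun p =>
    finrank ℚ (Kr (Ax M.la M.lb x) (M.UU v0 id)) + Fintype.card V ≤
      finrank ℚ (Kr (Ax M.la M.lb x) (M.UU v0 p)) + (univ.image p).card
  have hQ : Q.Nonempty := by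
    refine ⟨id, ?_⟩
    simp only [Q, mem_filter, mem_univ, true_and]
    have : (univ.image (id : V → V)).card = Fintype.card V := by
      rw [Finset.image_id, Finset.card_univ]
    omega
  obtain ⟨p, hp, hmin⟩ := Finset.exists_min_image Q (fun p => (univ.image p).card) hQ
  have hp' := (mem_filter.1 hp).2
  refine ⟨p, hp', ?_⟩
  intro u v huv
  by_contra hne
  let p' : V → V := fun t => if p t = p v then p u else p t
  have hcontr := contraction (Ax M.la M.lb x) (Ax_alt M.la M.lb x) (M.UU v0 p)
    (M.evV u - M.evV v) (M.exists_separate v0 p hne) (by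
      intro w hw
      have := huv w hw
      simp [this])
  rw [← M.UU_merge] at hcontr
  have hcontr' : finrank ℚ (Kr (Ax M.la M.lb x) (M.UU v0 p)) + 1 ≤
      finrank ℚ (Kr (Ax M.la M.lb x) (M.UU v0 p')) := hcontr
  have himg1 : univ.image p ⊆ insert (p v) (univ.image p') := by
    intro y hy
    obtain ⟨t, _, rfl⟩ := mem_image.1 hy
    by_cases h : p t = p v
    · rw [h]
      exact mem_insert_self _ _
    · apply mem_insert_of_mem
      exact mem_image.2 ⟨t, mem_univ _, by simp [p', h]⟩
  have himg2 : p v ∉ univ.image p' := by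
    intro hy
    obtain ⟨t, _, ht⟩ := mem_image.1 hy
    by_cases h : p t = p v
    · simp only [p', h, if_true] at ht
      exact hne ht
    · simp only [p', h, if_false] at ht
  have himg3 : univ.image p' ⊆ univ.image p := by
    intro y hy
    obtain ⟨t, _, rfl⟩ := mem_image.1 hy
    by_cases h : p t = p v
    · simp only [p', h, if_true]
      exact mem_image_of_mem _ (mem_univ _)
    · simp only [p', h, if_false]
      exact mem_image_of_mem _ (mem_univ _)
  have hc1 := Finset.card_le_card himg1
  rw [Finset.card_insert_of_notMem himg2] at hc1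
  have hc2 : (univ.image p').card < (univ.image p).card := by
    apply Finset.card_lt_card
    refine ⟨himg3, ?_⟩
    intro hsub
    exact himg2 (hsub (mem_image_of_mem _ (mem_univ _)))
  have hQp' : p' ∈ Q := by
    simp only [Q, mem_filter, mem_univ, true_and]
    omega
  have := hmin p' hQp'
  omega

theorem finrank_U0 (v0 : V) :
    finrank ℚ (M.UU v0 id) + 1 = Fintype.card V + Fintype.card M.JJ := by
  have h1 : M.UU v0 id = LinearMap.ker (M.evV v0) := by
    ext w
    constructor
    · rintro ⟨h, _⟩
      exact h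
    · intro h
      refine ⟨h, ?_⟩
      intro u v huv
      have : u = v := huv
      rw [this]
  have h2 : M.evV v0 ≠ 0 := by
    intro h
    have := congrArg (fun f => f ((fun _ => 1, 0) : M.WW)) h
    simp at this
  have h3 := Module.Dual.finrank_ker_add_one_of_ne_zero h2
  rw [h1, h3]
  simp

theorem even_finrank_U0 (v0 : V) : Even (finrank ℚ (M.UU v0 id)) := by
  have h1 := finrank_U0 (M := M) v0
  have h2 : 1 ≤ Fintype.card V := Fintype.card_pos_iff.2 ⟨v0⟩
  have h3 : finrank ℚ (M.UU v0 id) = Fintype.card V - 1 + Fintype.card M.Dg + M.padE := by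
    rw [Fintype.card_sum, Fintype.card_fin] at h1
    omega
  rw [h3]
  unfold padE
  by_cases h : Even (Fintype.card V - 1 + Fintype.card M.Dg)
  · simpa [h] using h
  · simp only [h, if_false]
    rw [Nat.not_even_iff_odd] at h
    exact h.add_one

/-- The row of the kernel equation at a digon coordinate. -/
theorem row_eq (v0 : V) (p : V → V) (x : M.LL → ℚ) (f : M.Dg) {w : M.WW}
    (hw : w ∈ Kr (Ax M.la M.lb x) (M.UU v0 p)) :
    x (Sum.inr (Sum.inl f)) * (M.la (Sum.inr (Sum.inl f)) w) +
      ∑ q : {q : M.JJ × M.JJ // q.1 ≠ q.2}, x (Sum.inr (Sum.inr q)) *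
        (w.2 q.1.1 * (Pi.single (Sum.inl f) 1 : M.JJ → ℚ) q.1.2 -
          w.2 q.1.2 * (Pi.single (Sum.inl f) 1 : M.JJ → ℚ) q.1.1) = 0 := by
  let z : M.WW := (0, Pi.single (Sum.inl f) 1)
  have hz : z ∈ M.UU v0 p := by
    refine ⟨rfl, ?_⟩
    intro _ _ _
    rfl
  have h1 := hw.2 z hz
  simp only [Ax, Fintype.sum_sum_type, LinearMap.add_apply, LinearMap.sum_apply,
    LinearMap.smul_apply, wedge_apply, smul_eq_mul] at h1
  have h2 : ∑ d : {d : D // M.fsize (M.fc d) = 3}, x (Sum.inl d) *
      (M.la (Sum.inl d) w * M.lb (Sum.inl d) z - M.lb (Sum.inl d) w * M.la (Sum.inl d) z) = 0 := by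
    apply Finset.sum_eq_zero
    intro d _
    have h3 : M.la (Sum.inl d) z = 0 := by simp [la, z]
    have h4 : M.lb (Sum.inl d) z = 0 := by simp [lb, z]
    rw [h3, h4]
    ring
  have h3 : ∑ f' : M.Dg, x (Sum.inr (Sum.inl f')) *
      (M.la (Sum.inr (Sum.inl f')) w * M.lb (Sum.inr (Sum.inl f')) z -
        M.lb (Sum.inr (Sum.inl f')) w * M.la (Sum.inr (Sum.inl f')) z) =
      x (Sum.inr (Sum.inl f)) * (M.la (Sum.inr (Sum.inl f)) w) := by
    rw [Finset.sum_eq_single f]
    · have h4 : M.la (Sum.inr (Sum.inl f)) z = 0 := by simp [la, z]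
      have h5 : M.lb (Sum.inr (Sum.inl f)) z = 1 := by simp [lb, z]
      rw [h4, h5]
      ring
    · intro f' _ hf'
      have h4 : M.la (Sum.inr (Sum.inl f')) z = 0 := by simp [la, z]
      have h5 : M.lb (Sum.inr (Sum.inl f')) z = 0 := by
        have : (Sum.inl f' : M.JJ) ≠ Sum.inl f := fun h => hf' (Sum.inl_injective h)
        simp [lb, z, this]
      rw [h4, h5]
      ring
    · simp
  rw [h2, h3, zero_add] at h1
  exact h1

/-- The kernel at a generic point vanishes. -/
theorem Kr_id_trivial (hG : M.Good) (v0 : V) (x : M.LL → ℚ) (hx : ∀ l, x l ≠ 0)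
    (hiso : ∀ p l, ∀ a ∈ Kr (Ax M.la M.lb x) (M.UU v0 p), ∀ b ∈ Kr (Ax M.la M.lb x) (M.UU v0 p),
      wedge (M.la l) (M.lb l) a b = 0) :
    Kr (Ax M.la M.lb x) (M.UU v0 id) = ⊥ := by
  obtain ⟨p, hp1, hsep⟩ := exists_separating (M := M) v0 x
  set K := Kr (Ax M.la M.lb x) (M.UU v0 p) with hK
  let pos : V → Dual ℚ K := fun v => (M.evV v).domRestrict K
  let gj : M.JJ → Dual ℚ K := fun j => (M.cJ j).domRestrict K
  have hT : TriPar M pos := by
    intro d hd
    have h1 := par_of_wedge ((M.la (Sum.inl ⟨d, hd⟩)).domRestrict K)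
      ((M.lb (Sum.inl ⟨d, hd⟩)).domRestrict K)
      (fun w w' => hiso p (Sum.inl ⟨d, hd⟩) w.1 w.2 w'.1 w'.2)
    have e1 : pos (M.vt (M.φ d)) - pos (M.vt d) = (M.la (Sum.inl ⟨d, hd⟩)).domRestrict K := by
      ext w
      rfl
    have e2 : pos (M.vt (M.φ (M.φ d))) - pos (M.vt d) =
        (M.lb (Sum.inl ⟨d, hd⟩)).domRestrict K := by
      ext w
      rfl
    rw [e1, e2]
    exact h1
  have hP : ∀ j j', Par (gj j) (gj j') := by
    intro j j'
    by_cases h : j = j'
    · subst h
      exact Par.refl' _
    · exact par_of_wedge _ _ (fun w w' => hiso p (Sum.inr (Sum.inr ⟨(j, j'), h⟩)) w.1 w.2 w'.1 w'.2)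
  have hRr : ∀ f : M.Dg, nd pos M (M.rep f.1) ∈ Submodule.span ℚ (Set.range gj) := by
    intro f
    let s : M.JJ → ℚ := Pi.single (Sum.inl f) 1
    let y : Dual ℚ K := ∑ q : {q : M.JJ × M.JJ // q.1 ≠ q.2}, x (Sum.inr (Sum.inr q)) •
      (s q.1.2 • gj q.1.1 - s q.1.1 • gj q.1.2)
    have hy : y ∈ Submodule.span ℚ (Set.range gj) := by
      apply Submodule.sum_mem
      intro q _
      apply Submodule.smul_mem
      apply Submodule.sub_mem
      · exact Submodule.smul_mem _ _ (Submodule.subset_span ⟨_, rfl⟩)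
      · exact Submodule.smul_mem _ _ (Submodule.subset_span ⟨_, rfl⟩)
    have hrow : x (Sum.inr (Sum.inl f)) • nd pos M (M.rep f.1) + y = 0 := by
      ext w
      have h1 := row_eq v0 p x f w.2
      have h2 : (x (Sum.inr (Sum.inl f)) • nd pos M (M.rep f.1) + y) w =
          x (Sum.inr (Sum.inl f)) * (M.la (Sum.inr (Sum.inl f)) w.1) +
          ∑ q : {q : M.JJ × M.JJ // q.1 ≠ q.2}, x (Sum.inr (Sum.inr q)) *
            (w.1.2 q.1.1 * (Pi.single (Sum.inl f) 1 : M.JJ → ℚ) q.1.2 -
              w.1.2 q.1.2 * (Pi.single (Sum.inl f) 1 : M.JJ → ℚ) q.1.1) := by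
        simp only [LinearMap.add_apply, LinearMap.smul_apply, smul_eq_mul, y,
          LinearMap.sum_apply, LinearMap.sub_apply]
        congr 1
        refine Finset.sum_congr rfl ?_
        intro q _
        congr 1
        show s q.1.2 * w.1.2 q.1.1 - s q.1.1 * w.1.2 q.1.2 = _
        simp only [s]
        ring
      rw [h2, h1]
      rfl
    have h3 : nd pos M (M.rep f.1) = (x (Sum.inr (Sum.inl f)))⁻¹ • (- y) := by
      have h4 : x (Sum.inr (Sum.inl f)) • nd pos M (M.rep f.1) = - y :=
        eq_neg_of_add_eq_zero_left hrow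
      rw [← h4, smul_smul, inv_mul_cancel₀ (hx _), one_smul]
    rw [h3]
    exact Submodule.smul_mem _ _ (Submodule.neg_mem _ hy)
  have hR : ∀ d, M.fsize (M.fc d) = 2 → nd pos M d ∈ Submodule.span ℚ (Set.range gj) := by
    intro d hd
    let f : M.Dg := ⟨M.fc d, hd⟩
    have hrep : M.fc (M.rep f.1) = M.fc d := M.rep_spec _
    set r := M.rep f.1 with hr
    have hr2 := hRr f
    have hsub : ({r, M.φ r} : Finset D) ⊆ univ.filter fun e => M.fc e = M.fc d := by
      intro e he
      simp only [mem_insert, mem_singleton] at he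
      simp only [mem_filter, mem_univ, true_and]
      rcases he with rfl | rfl
      · exact hrep
      · rw [M.fc_φ]
        exact hrep
    have heq := Finset.eq_of_subset_of_card_le hsub (by
      rw [Finset.card_pair (hG.φ_ne r).symm]
      exact hd.le)
    have hdm : d ∈ ({r, M.φ r} : Finset D) := by
      rw [heq]
      simp
    simp only [mem_insert, mem_singleton] at hdm
    rcases hdm with hdm | hdm
    · rw [hdm]
      exact hr2
    · rw [hdm]
      have hφφ : M.φ (M.φ r) = r := by
        have h1 : M.φ (M.φ r) ∈ ({r, M.φ r} : Finset D) := by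
          rw [heq]
          simp only [mem_filter, mem_univ, true_and]
          rw [M.fc_φ, M.fc_φ]
          exact hrep
        simp only [mem_insert, mem_singleton] at h1
        rcases h1 with h1 | h1
        · exact h1
        · exact absurd h1 (hG.φ_ne _)
      have h1 : nd pos M (M.φ r) = - nd pos M r := by
        have h2 : M.vt (M.α (M.φ r)) = M.vt r := by
          rw [← M.vt_φ, hφφ]
        show pos (M.vt (M.α (M.φ r))) - pos (M.vt (M.φ r)) = - (pos (M.vt (M.α r)) - pos (M.vt r))
        rw [h2, M.vt_φ]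
        abel
      rw [h1]
      exact Submodule.neg_mem _ hr2
  have hgeo := geometry hG hT gj hP hR
  set Sp := Submodule.span ℚ (Set.range (fun q : V × V => pos q.1 - pos q.2) ∪ Set.range gj)
    with hSp
  have hco : Sp.dualCoannihilator = ⊥ := by
    rw [Submodule.eq_bot_iff]
    intro y hy
    rw [Submodule.mem_dualCoannihilator] at hy
    have h1 : ∀ u v, y.1.1 u = y.1.1 v := by
      intro u v
      have := hy (pos u - pos v) (Submodule.subset_span (Or.inl ⟨(u, v), rfl⟩))
      have h2 : y.1.1 u - y.1.1 v = 0 := this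
      linarith
    have h2 : ∀ j, y.1.2 j = 0 := by
      intro j
      exact hy (gj j) (Submodule.subset_span (Or.inr ⟨j, rfl⟩))
    have h3 : y.1.1 v0 = 0 := (mem_UU M).1 y.2.1 |>.1
    apply Subtype.ext
    apply Prod.ext
    · ext u
      rw [h1 u v0, h3]
      rfl
    · ext j
      exact h2 j
  have hfull := Subspace.finrank_add_finrank_dualCoannihilator_eq Sp
  rw [hco, finrank_bot, add_zero] at hfull
  have himg : (univ.image p).card ≤ (univ.image pos).card := by
    have hpp : ∀ u v, pos u = pos v → p u = p v := by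
      intro u v h
      apply hsep
      intro w hw
      exact congrArg (fun l => l ⟨w, hw⟩) h
    have hex : ∀ y ∈ univ.image p, ∃ u, p u = y := by
      intro y hy
      obtain ⟨u, _, rfl⟩ := mem_image.1 hy
      exact ⟨u, rfl⟩
    choose! r hr using hex
    apply Finset.card_le_card_of_injOn (fun y => pos (r y))
    · intro y _
      exact mem_image_of_mem pos (mem_univ _)
    · intro a ha b hb hab
      have := hpp _ _ hab
      rwa [hr a ha, hr b hb] at this
  have hle : finrank ℚ (Kr (Ax M.la M.lb x) (M.UU v0 id)) ≤ 1 := by omega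
  have heven : Even (finrank ℚ (Kr (Ax M.la M.lb x) (M.UU v0 id))) := by
    rw [finrank_Kr]
    exact even_finrank_ker _ (fun u => Ax_alt M.la M.lb x u) (even_finrank_U0 v0)
  have hzero : finrank ℚ (Kr (Ax M.la M.lb x) (M.UU v0 id)) = 0 := by
    obtain ⟨k, hk⟩ := heven
    omega
  exact Submodule.finrank_eq_zero.1 hzero

/-- The spanning hypertree theorem. -/
theorem exists_hypertree (hG : M.Good) :
    ∃ X : Finset F, (∀ f ∈ X, M.fsize f = 2 ∨ M.fsize f = 3) ∧
      (∀ φ : V → ℚ, (∀ d, M.fc d ∈ X → φ (M.vt d) = φ (M.vt (M.α d))) → ∀ u v, φ u = φ v) ∧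
      2 * (X.filter fun f => M.fsize f = 3).card + (X.filter fun f => M.fsize f = 2).card + 1
        ≤ Fintype.card V := by
  obtain ⟨v0⟩ := M.nonempty_V
  obtain ⟨x, hx, hiso⟩ := exists_generic M.la M.lb (M.UU v0)
  have hbot := Kr_id_trivial hG v0 x hx hiso
  obtain ⟨T, _, hT1, hT2⟩ := extract M.la M.lb x univ (M.UU v0 id) hbot
  let T1 := univ.filter fun d : {d : D // M.fsize (M.fc d) = 3} => (Sum.inl d : M.LL) ∈ T
  let T2 := univ.filter fun f : M.Dg => (Sum.inr (Sum.inl f) : M.LL) ∈ T
  let T3 := univ.filter fun q : {q : M.JJ × M.JJ // q.1 ≠ q.2} => (Sum.inr (Sum.inr q) : M.LL) ∈ T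
  have hcard : T.card = T1.card + T2.card + T3.card := by
    have h1 : T.card = (univ.filter fun l : M.LL => l ∈ T).card := by simp
    rw [h1, Finset.card_filter, Fintype.sum_sum_type, Fintype.sum_sum_type, ← add_assoc]
    simp only [T1, T2, T3, Finset.card_filter]
  have hcover : Fintype.card M.JJ ≤ T2.card + 2 * T3.card := by
    have hsub : (univ : Finset M.JJ) ⊆ (T2.image Sum.inl) ∪
        ((T3.image (fun q => q.1.1)) ∪ (T3.image (fun q => q.1.2))) := by
      intro j _
      by_contra hj
      simp only [mem_union, mem_image, not_or, not_exists, not_and] at hj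
      obtain ⟨h1, h2, h3⟩ := hj
      let z : M.WW := (0, Pi.single j 1)
      have hz : z ∈ M.UU v0 id := by
        refine ⟨rfl, ?_⟩
        intro _ _ _
        rfl
      have hz0 := hT2 z hz (by
        intro l hl
        rcases l with d | f | q
        · constructor <;> simp [la, lb, z]
        · constructor
          · simp [la, z]
          · have hne : (Sum.inl f : M.JJ) ≠ j := h1 f (by simp [T2, hl])
            simp [lb, z, hne]
        · have hq : q ∈ T3 := by simp [T3, hl]
          constructor
          · have := h2 q hq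
            simp [la, z, this]
          · have := h3 q hq
            simp [lb, z, this])
      have := congrFun (congrArg Prod.snd hz0) j
      simp [z] at this
    have h4 := Finset.card_le_card hsub
    rw [Finset.card_univ] at h4
    have h5 := Finset.card_union_le (T2.image (Sum.inl : M.Dg → M.JJ))
      ((T3.image (fun q => q.1.1)) ∪ (T3.image (fun q => q.1.2)))
    have h6 := Finset.card_union_le (T3.image (fun q : {q : M.JJ × M.JJ // q.1 ≠ q.2} => q.1.1))
      (T3.image (fun q => q.1.2))
    have h7 := Finset.card_image_le (s := T2) (f := (Sum.inl : M.Dg → M.JJ))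
    have h8 := Finset.card_image_le (s := T3)
      (f := fun q : {q : M.JJ × M.JJ // q.1 ≠ q.2} => q.1.1)
    have h9 := Finset.card_image_le (s := T3)
      (f := fun q : {q : M.JJ × M.JJ // q.1 ≠ q.2} => q.1.2)
    omega
  have hfr := finrank_U0 (M := M) v0
  let X : Finset F := T1.image (fun d => M.fc d.1) ∪ T2.image (fun f => f.1)
  refine ⟨X, ?_, ?_, ?_⟩
  · intro f hf
    rcases mem_union.1 hf with h | h
    · obtain ⟨d, _, rfl⟩ := mem_image.1 h
      exact Or.inr d.2
    · obtain ⟨g, _, rfl⟩ := mem_image.1 h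
      exact Or.inl g.2
  · intro φ hφ u v
    let w : M.WW := (fun t => φ t - φ v0, 0)
    have hw : w ∈ M.UU v0 id := by
      refine ⟨by simp [w], ?_⟩
      intro a b hab
      have : a = b := hab
      rw [this]
    have hw0 := hT2 w hw (by
      intro l hl
      rcases l with d | f | q
      · have hdX : M.fc d.1 ∈ X :=
          mem_union_left _ (mem_image.2 ⟨d, by simp [T1, hl], rfl⟩)
        have h1 := hφ d.1 hdX
        have h2 := hφ (M.φ d.1) (by rw [M.fc_φ]; exact hdX)
        rw [M.vt_φ] at h2
        have h3 : M.vt (M.φ (M.φ d.1)) = M.vt (M.α (M.φ d.1)) := M.vt_φ _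
        have h4 : M.vt (M.φ d.1) = M.vt (M.α d.1) := M.vt_φ _
        constructor
        · show (φ (M.vt (M.φ d.1)) - φ v0) - (φ (M.vt d.1) - φ v0) = 0
          rw [h4, ← h1]
          ring
        · show (φ (M.vt (M.φ (M.φ d.1))) - φ v0) - (φ (M.vt d.1) - φ v0) = 0
          rw [h3, ← h2, ← h1]
          ring
      · have hdX : M.fc (M.rep f.1) ∈ X := by
          rw [M.rep_spec]
          exact mem_union_right _ (mem_image.2 ⟨f, by simp [T2, hl], rfl⟩)
        have h1 := hφ _ hdX
        constructor
        · simp [la, w, h1]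
        · simp [lb, w]
      · constructor <;> simp [la, lb, w])
    have h1 : ∀ t, φ t = φ v0 := by
      intro t
      have := congrFun (congrArg Prod.fst hw0) t
      have h2 : φ t - φ v0 = 0 := this
      linarith
    rw [h1 u, h1 v]
  · have h1 : (X.filter fun f => M.fsize f = 3).card ≤ T1.card := by
      have hsub : (X.filter fun f => M.fsize f = 3) ⊆ T1.image (fun d => M.fc d.1) := by
        intro f hf
        obtain ⟨h2, h3⟩ := mem_filter.1 hf
        rcases mem_union.1 h2 with h | h
        · exact h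
        · obtain ⟨g, _, rfl⟩ := mem_image.1 h
          have := g.2
          omega
      exact (Finset.card_le_card hsub).trans Finset.card_image_le
    have h2 : (X.filter fun f => M.fsize f = 2).card ≤ T2.card := by
      have hsub : (X.filter fun f => M.fsize f = 2) ⊆ T2.image (fun f => f.1) := by
        intro f hf
        obtain ⟨h2, h3⟩ := mem_filter.1 hf
        rcases mem_union.1 h2 with h | h
        · obtain ⟨d, _, rfl⟩ := mem_image.1 h
          have := d.2
          omega
        · exact h
      exact (Finset.card_le_card hsub).trans Finset.card_image_le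
    have h3 : 1 ≤ Fintype.card V := Fintype.card_pos_iff.2 ⟨v0⟩
    omega

end PMap

end

end Vale.Agent.Lib.P039B
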