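import Vale.Agent.Lib.P039B.Map

/-!
Mod 2 homology of a plane map: every even edge set is a boundary of a set of faces, and the
dimension count for even edge sets inside a prescribed edge set.
-/

namespace Vale.Agent.Lib.P039B

open Finset Module

open scoped Classical Matrix

noncomputable section

/-- The field with two elements. -/
abbrev 𝔽 := ZMod 2

theorem two_eq_zero_F : (2 : 𝔽) = 0 := by decide

theorem add_self_F (a : 𝔽) : a + a = 0 := CharTwo.add_self_eq_zero a

theorem eq_of_add_eq_zero_F {a b : 𝔽} (h : a + b = 0) : a = b := by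
  have := CharTwo.add_eq_zero.mp h
  exact this

section rankLemma

variable {A B : Type} [Fintype A] [Fintype B]

/-- Rank nullity for a matrix and its transpose. -/
theorem finrank_ker_add (N : Matrix B A 𝔽) :
    finrank 𝔽 (LinearMap.ker N.mulVecLin) + Fintype.card B =
      Fintype.card A + finrank 𝔽 (LinearMap.ker Nᵀ.mulVecLin) := by
  have h1 := LinearMap.finrank_range_add_finrank_ker N.mulVecLin
  have h2 := LinearMap.finrank_range_add_finrank_ker Nᵀ.mulVecLin
  have h3 : finrank 𝔽 (LinearMap.range N.mulVecLin) =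
      finrank 𝔽 (LinearMap.range Nᵀ.mulVecLin) := by
    have := Matrix.rank_transpose N
    unfold Matrix.rank at this
    exact this.symm
  simp only [Module.finrank_fintype_fun_eq_card] at h1 h2
  omega

end rankLemma

section restrict

variable {α : Type}

/-- Extension by zero. -/
def extZero (s : Finset α) (g : {x // x ∈ s} → 𝔽) : α → 𝔽 :=
  fun x => if h : x ∈ s then g ⟨x, h⟩ else 0

theorem extZero_mem (s : Finset α) (g : {x // x ∈ s} → 𝔽) (x : α) (h : x ∈ s) :
    extZero s g x = g ⟨x, h⟩ := by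
  simp [extZero, h]

theorem extZero_not_mem (s : Finset α) (g : {x // x ∈ s} → 𝔽) (x : α) (h : x ∉ s) :
    extZero s g x = 0 := by
  simp [extZero, h]

/-- A subspace of functions supported on `s` has the dimension of its restriction. -/
theorem finrank_restrict (s : Finset α) (P : Submodule 𝔽 (α → 𝔽))
    (Q : Submodule 𝔽 ({x // x ∈ s} → 𝔽)) (h1 : ∀ f ∈ P, ∀ x, x ∉ s → f x = 0)
    (h2 : ∀ f ∈ P, (fun x : {x // x ∈ s} => f x) ∈ Q)
    (h3 : ∀ g ∈ Q, extZero s g ∈ P) : finrank 𝔽 P = finrank 𝔽 Q := by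
  let e : P ≃ₗ[𝔽] Q :=
    { toFun := fun f => ⟨fun x => f.1 x, h2 f.1 f.2⟩
      map_add' := by intro a b; rfl
      map_smul' := by intro a b; rfl
      invFun := fun g => ⟨extZero s g.1, h3 g.1 g.2⟩
      left_inv := by
        intro f
        ext x
        by_cases hx : x ∈ s
        · simp [extZero, hx]
        · simp [extZero, hx, h1 f.1 f.2 x hx]
      right_inv := by
        intro g
        ext x
        simp [extZero] }
  exact e.finrank_eq

theorem sum_coe_zero [Fintype α] (s : Finset α) (f : α → 𝔽) (h : ∀ x, x ∉ s → f x = 0) :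
    ∑ x : {x // x ∈ s}, f x.1 = ∑ x, f x := by
  rw [Finset.sum_coe_sort s f]
  apply Finset.sum_subset (Finset.subset_univ s)
  intro x _ hx
  exact h x hx

end restrict

variable {D V E F : Type} [Fintype D] [Fintype V] [Fintype E] [Fintype F]

namespace PMap

variable (M : PMap D V E F)

/-- The mod 2 incidence of a vertex and an edge. -/
def inc (v : V) (e : E) : 𝔽 := ∑ d : D, if M.vt d = v ∧ M.ed d = e then 1 else 0

/-- Sum over the darts at a vertex. -/
theorem sum_inc (z : E → 𝔽) (v : V) :
    ∑ e, M.inc v e * z e = ∑ d : D, if M.vt d = v then z (M.ed d) else 0 := by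
  unfold inc
  simp_rw [Finset.sum_mul]
  rw [Finset.sum_comm]
  refine Finset.sum_congr rfl ?_
  intro d _
  by_cases h : M.vt d = v
  · rw [Finset.sum_eq_single (M.ed d)]
    · simp [h]
    · intro e _ he
      have : ¬ (M.vt d = v ∧ M.ed d = e) := fun hh => he hh.2.symm
      simp [this]
    · simp
  · simp [h]

/-- Sum over the two darts of an edge. -/
theorem sum_edge (g : D → 𝔽) (d : D) :
    ∑ d' : D, (if M.ed d' = M.ed d then g d' else 0) = g d + g (M.α d) := by
  have hne : d ≠ M.α d := fun h => M.α_ne d h.symm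
  have : (Finset.univ.filter fun d' => M.ed d' = M.ed d) = {d, M.α d} := by
    ext x
    simp only [mem_filter, mem_univ, true_and, mem_insert, mem_singleton]
    constructor
    · intro h
      exact (M.ed_eq d x).1 h.symm
    · intro h
      exact ((M.ed_eq d x).2 h).symm
  rw [← Finset.sum_filter, this, Finset.sum_pair hne]

/-- The coboundary of a vertex function. -/
def cob : (V → 𝔽) →ₗ[𝔽] (E → 𝔽) where
  toFun W := fun e => ∑ v, M.inc v e * W v
  map_add' := by
    intro a b
    ext e
    simp [mul_add, Finset.sum_add_distrib]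
  map_smul' := by
    intro c a
    ext e
    simp [Finset.mul_sum, mul_left_comm]

theorem cob_apply (W : V → 𝔽) (d : D) : M.cob W (M.ed d) = W (M.vt d) + W (M.vt (M.α d)) := by
  show ∑ v, M.inc v (M.ed d) * W v = _
  unfold inc
  simp_rw [Finset.sum_mul]
  rw [Finset.sum_comm]
  rw [← M.sum_edge (fun d' => W (M.vt d')) d]
  refine Finset.sum_congr rfl ?_
  intro d' _
  by_cases h : M.ed d' = M.ed d
  · rw [Finset.sum_eq_single (M.vt d')]
    · simp [h]
    · intro v _ hv
      have : ¬ (M.vt d' = v ∧ M.ed d' = M.ed d) := fun hh => hv hh.1.symm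
      simp [this]
    · simp
  · simp [h]

/-- The boundary of a set of faces. -/
def bd : (F → 𝔽) →ₗ[𝔽] (E → 𝔽) := M.dual.cob

theorem bd_apply (S : F → 𝔽) (d : D) : M.bd S (M.ed d) = S (M.fc d) + S (M.fc (M.α d)) :=
  M.dual.cob_apply S d

/-- The even edge sets. -/
def Zsp : Submodule 𝔽 (E → 𝔽) where
  carrier := {z | ∀ v, ∑ d : D, (if M.vt d = v then z (M.ed d) else 0) = 0}
  add_mem' := by
    intro a b ha hb v
    have h1 := ha v
    have h2 := hb v
    calc _ = ∑ d : D, ((if M.vt d = v then a (M.ed d) else 0) +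
            (if M.vt d = v then b (M.ed d) else 0)) := by
          refine Finset.sum_congr rfl ?_
          intro d _
          by_cases h : M.vt d = v <;> simp [h]
      _ = 0 := by rw [Finset.sum_add_distrib, h1, h2, add_zero]
  zero_mem' := by
    intro v
    simp
  smul_mem' := by
    intro c a ha v
    have h1 := ha v
    calc _ = c * ∑ d : D, (if M.vt d = v then a (M.ed d) else 0) := by
          rw [Finset.mul_sum]
          refine Finset.sum_congr rfl ?_
          intro d _
          by_cases h : M.vt d = v <;> simp [h]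
      _ = 0 := by rw [h1, mul_zero]

theorem mem_Zsp {z : E → 𝔽} :
    z ∈ M.Zsp ↔ ∀ v, ∑ d : D, (if M.vt d = v then z (M.ed d) else 0) = 0 := Iff.rfl

theorem bd_mem_Zsp (S : F → 𝔽) : M.bd S ∈ M.Zsp := by
  intro v
  have h1 : ∑ d : D, (if M.vt d = v then M.bd S (M.ed d) else 0) =
      ∑ d : D, (if M.vt d = v then S (M.fc d) else 0) +
        ∑ d : D, (if M.vt d = v then S (M.fc (M.σ d)) else 0) := by
    rw [← Finset.sum_add_distrib]
    refine Finset.sum_congr rfl ?_
    intro d _
    by_cases h : M.vt d = v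
    · simp [h, M.bd_apply, M.fc_α]
    · simp [h]
  have h2 : ∑ d : D, (if M.vt d = v then S (M.fc (M.σ d)) else 0) =
      ∑ d : D, (if M.vt d = v then S (M.fc d) else 0) := by
    have := Equiv.sum_comp M.σ (fun d => if M.vt d = v then S (M.fc d) else 0)
    simpa [M.vt_σ] using this
  rw [h1, h2, add_self_F]

theorem constant_of_cob_zero {W : V → 𝔽} (h : M.cob W = 0) (a b : V) : W a = W b := by
  obtain ⟨da, rfl⟩ := M.vt_surj a
  obtain ⟨db, rfl⟩ := M.vt_surj b
  have := M.conn (fun d => W (M.vt d) = W (M.vt da)) ?_ ?_ da db rfl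
  · exact this.symm
  · intro d hd
    simpa [M.vt_σ] using hd
  · intro d hd
    have h1 := M.cob_apply W d
    rw [h] at h1
    have h2 : W (M.vt d) + W (M.vt (M.α d)) = 0 := by simpa using h1.symm
    have h3 := eq_of_add_eq_zero_F h2
    show W (M.vt (M.α d)) = W (M.vt da)
    rw [← h3]
    exact hd

include M in
theorem nonempty_D : Nonempty D := by
  by_contra h
  rw [not_nonempty_iff] at h
  have h1 : IsEmpty V := ⟨fun v => h.false (M.vt_surj v).choose⟩
  have h2 : IsEmpty F := ⟨fun v => h.false (M.fc_surj v).choose⟩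
  have h3 : IsEmpty E := ⟨fun v => h.false (M.ed_surj v).choose⟩
  have := M.euler
  simp at this

include M in
theorem nonempty_V : Nonempty V := by
  obtain ⟨d⟩ := M.nonempty_D
  exact ⟨M.vt d⟩

include M in
theorem nonempty_F : Nonempty F := by
  obtain ⟨d⟩ := M.nonempty_D
  exact ⟨M.fc d⟩

theorem cob_one : M.cob (fun _ => 1) = 0 := by
  ext e
  obtain ⟨d, rfl⟩ := M.ed_surj e
  rw [M.cob_apply]
  simp [add_self_F]

theorem finrank_ker_cob : finrank 𝔽 (LinearMap.ker M.cob) = 1 := by
  obtain ⟨v0⟩ := M.nonempty_V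
  have : LinearMap.ker M.cob = Submodule.span 𝔽 {(fun _ => 1 : V → 𝔽)} := by
    apply le_antisymm
    · intro W hW
      rw [Submodule.mem_span_singleton]
      refine ⟨W v0, ?_⟩
      ext v
      simp [M.constant_of_cob_zero (LinearMap.mem_ker.mp hW) v v0]
    · rw [Submodule.span_singleton_le_iff_mem]
      exact M.cob_one
  rw [this]
  apply finrank_span_singleton
  intro h
  have := congrFun h v0
  simp at this

/-- Incidence matrix. -/
def incM : Matrix V E 𝔽 := fun v e => M.inc v e

theorem ker_incM : LinearMap.ker M.incM.mulVecLin = M.Zsp := by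
  ext z
  rw [LinearMap.mem_ker, mem_Zsp, funext_iff]
  refine forall_congr' ?_
  intro v
  rw [← M.sum_inc z v]
  rfl

theorem ker_incMT : LinearMap.ker M.incMᵀ.mulVecLin = LinearMap.ker M.cob := by
  ext W
  rw [LinearMap.mem_ker, LinearMap.mem_ker]
  have : M.incMᵀ.mulVecLin W = M.cob W := by
    ext e
    rfl
  rw [this]

theorem finrank_Zsp : finrank 𝔽 M.Zsp + Fintype.card V = Fintype.card E + 1 := by
  have := finrank_ker_add M.incM
  rw [M.ker_incM, M.ker_incMT, M.finrank_ker_cob] at this
  exact this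

/-- Every even edge set is the boundary of a set of faces. -/
theorem exists_bd {z : E → 𝔽} (hz : z ∈ M.Zsp) : ∃ S, M.bd S = z := by
  have hle : LinearMap.range M.bd ≤ M.Zsp := by
    rintro _ ⟨S, rfl⟩
    exact M.bd_mem_Zsp S
  have h1 := LinearMap.finrank_range_add_finrank_ker M.bd
  have h2 : finrank 𝔽 (LinearMap.ker M.bd) = 1 := M.dual.finrank_ker_cob
  have h3 := M.finrank_Zsp
  have h4 := M.euler
  simp only [Module.finrank_fintype_fun_eq_card] at h1
  have heq : LinearMap.range M.bd = M.Zsp := by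
    apply Submodule.eq_of_le_of_finrank_le hle
    omega
  rw [← heq] at hz
  exact hz

/-- Every edge set with an even number of sides on each face is a coboundary. -/
theorem exists_cob {z : E → 𝔽} (hz : z ∈ M.dual.Zsp) : ∃ W, M.cob W = z :=
  M.dual.exists_bd hz

/-- Even edge sets inside `E'`. -/
def ZS (E' : Finset E) : Submodule 𝔽 (E → 𝔽) where
  carrier := {z | z ∈ M.Zsp ∧ ∀ e, e ∉ E' → z e = 0}
  add_mem' := by
    rintro a b ⟨ha, ha'⟩ ⟨hb, hb'⟩
    refine ⟨M.Zsp.add_mem ha hb, ?_⟩
    intro e he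
    simp [ha' e he, hb' e he]
  zero_mem' := ⟨M.Zsp.zero_mem, fun _ _ => rfl⟩
  smul_mem' := by
    rintro c a ⟨ha, ha'⟩
    refine ⟨M.Zsp.smul_mem c ha, ?_⟩
    intro e he
    simp [ha' e he]

/-- Functions on `V'` constant along the edges of `E'`. -/
def Cst (E' : Finset E) (V' : Finset V) : Submodule 𝔽 (V → 𝔽) where
  carrier := {g | (∀ v, v ∉ V' → g v = 0) ∧ ∀ d, M.ed d ∈ E' → g (M.vt d) = g (M.vt (M.α d))}
  add_mem' := by
    rintro a b ⟨ha, ha'⟩ ⟨hb, hb'⟩
    refine ⟨?_, ?_⟩
    · intro v hv
      simp [ha v hv, hb v hv]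
    · intro d hd
      simp [ha' d hd, hb' d hd]
  zero_mem' := ⟨fun _ _ => rfl, fun _ _ => rfl⟩
  smul_mem' := by
    rintro c a ⟨ha, ha'⟩
    refine ⟨?_, ?_⟩
    · intro v hv
      simp [ha v hv]
    · intro d hd
      simp [ha' d hd]

/-- The dimension count of even edge sets inside `E'`, when all ends of `E'` lie in `V'`. -/
theorem finrank_ZS (E' : Finset E) (V' : Finset V)
    (hV : ∀ d, M.ed d ∈ E' → M.vt d ∈ V') :
    finrank 𝔽 (M.ZS E') + V'.card = E'.card + finrank 𝔽 (M.Cst E' V') := by
  let N : Matrix {v // v ∈ V'} {e // e ∈ E'} 𝔽 := fun v e => M.inc v.1 e.1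
  have hinc0 : ∀ v e, e ∈ E' → v ∉ V' → M.inc v e = 0 := by
    intro v e he hv
    unfold inc
    apply Finset.sum_eq_zero
    intro d _
    have : ¬ (M.vt d = v ∧ M.ed d = e) := by
      rintro ⟨h1, h2⟩
      exact hv (h1 ▸ hV d (h2 ▸ he))
    simp [this]
  have h1 : finrank 𝔽 (M.ZS E') = finrank 𝔽 (LinearMap.ker N.mulVecLin) := by
    apply finrank_restrict E'
    · rintro f ⟨_, hf⟩ x hx
      exact hf x hx
    · rintro f ⟨hf1, hf2⟩
      rw [LinearMap.mem_ker]
      ext v
      have := hf1 v.1
      rw [← M.sum_inc] at this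
      show ∑ e : {e // e ∈ E'}, M.inc v.1 e.1 * f e.1 = 0
      rw [← this]
      apply sum_coe_zero E' (fun e => M.inc v.1 e * f e)
      intro e he
      simp [hf2 e he]
    · intro g hg
      rw [LinearMap.mem_ker] at hg
      refine ⟨?_, ?_⟩
      · intro v
        rw [← M.sum_inc]
        by_cases hv : v ∈ V'
        · have := congrFun hg ⟨v, hv⟩
          have h2 : ∑ e : {e // e ∈ E'}, M.inc v e.1 * g e = 0 := this
          rw [← h2]
          rw [← sum_coe_zero E' (fun e => M.inc v e * extZero E' g e)]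
          · refine Finset.sum_congr rfl ?_
            intro e _
            simp [extZero]
          · intro e he
            simp [extZero_not_mem E' g e he]
        · apply Finset.sum_eq_zero
          intro e _
          by_cases he : e ∈ E'
          · simp [hinc0 v e he hv]
          · simp [extZero_not_mem E' g e he]
      · intro e he
        exact extZero_not_mem E' g e he
  have h2 : finrank 𝔽 (M.Cst E' V') = finrank 𝔽 (LinearMap.ker Nᵀ.mulVecLin) := by
    apply finrank_restrict V'
    · rintro f ⟨hf, _⟩ x hx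
      exact hf x hx
    · rintro f ⟨hf1, hf2⟩
      rw [LinearMap.mem_ker]
      ext ⟨e, he⟩
      have h3 : ∑ v : {v // v ∈ V'}, M.inc v.1 e * f v.1 = M.cob f e := by
        apply sum_coe_zero V' (fun v => M.inc v e * f v)
        intro v hv
        simp [hf1 v hv]
      show ∑ v : {v // v ∈ V'}, M.inc v.1 e * f v.1 = 0
      rw [h3]
      obtain ⟨d, rfl⟩ := M.ed_surj e
      rw [M.cob_apply, hf2 d he, add_self_F]
    · intro g hg
      rw [LinearMap.mem_ker] at hg
      refine ⟨?_, ?_⟩
      · intro v hv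
        exact extZero_not_mem V' g v hv
      · intro d hd
        have h3 := congrFun hg ⟨M.ed d, hd⟩
        have h4 : ∑ v : {v // v ∈ V'}, M.inc v.1 (M.ed d) * g v = 0 := h3
        have h5 : M.cob (extZero V' g) (M.ed d) = 0 := by
          rw [← h4]
          show ∑ v, M.inc v (M.ed d) * extZero V' g v = _
          rw [← sum_coe_zero V' (fun v => M.inc v (M.ed d) * extZero V' g v)]
          · refine Finset.sum_congr rfl ?_
            intro v _
            simp [extZero]
          · intro v hv
            simp [extZero_not_mem V' g v hv]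
        rw [M.cob_apply] at h5
        exact eq_of_add_eq_zero_F h5
  have := finrank_ker_add N
  simp only [Fintype.card_coe] at this
  rw [h1, h2]
  exact this

/-- Two faces are related when they are separated by an edge outside `E'`. -/
def across (E' : Finset E) (f f' : F) : Prop :=
  ∃ d, M.fc d = f ∧ M.fc (M.α d) = f' ∧ M.ed d ∉ E'

/-- The classes of faces under adjacency across edges outside `E'`. -/
abbrev Bk (E' : Finset E) : Type := Quot (M.across E')

/-- The class of a face. -/
def cl (E' : Finset E) (f : F) : M.Bk E' := Quot.mk _ f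

instance (E' : Finset E) : Fintype (M.Bk E') := Fintype.ofFinite _

theorem cl_across (E' : Finset E) {d : D} (h : M.ed d ∉ E') :
    M.cl E' (M.fc (M.α d)) = M.cl E' (M.fc d) :=
  (Quot.sound ⟨d, rfl, rfl, h⟩).symm

/-- Boundary of a union of classes. -/
def bdCl (E' : Finset E) : (M.Bk E' → 𝔽) →ₗ[𝔽] (E → 𝔽) :=
  M.bd ∘ₗ LinearMap.funLeft 𝔽 𝔽 (M.cl E')

theorem bdCl_apply (E' : Finset E) (s : M.Bk E' → 𝔽) (d : D) :
    M.bdCl E' s (M.ed d) = s (M.cl E' (M.fc d)) + s (M.cl E' (M.fc (M.α d))) := by
  show M.bd (s ∘ M.cl E') (M.ed d) = _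
  rw [M.bd_apply]
  rfl

/-- An even set inside `E'` is the boundary of a union of classes. -/
theorem ZS_le_range (E' : Finset E) : M.ZS E' ≤ LinearMap.range (M.bdCl E') := by
  rintro z ⟨hz, hz'⟩
  obtain ⟨S, rfl⟩ := M.exists_bd hz
  have hS : ∀ a b, M.across E' a b → S a = S b := by
    rintro a b ⟨d, rfl, rfl, hd⟩
    have := hz' _ hd
    rw [M.bd_apply] at this
    exact eq_of_add_eq_zero_F this
  refine ⟨Quot.lift S hS, ?_⟩
  ext e
  obtain ⟨d, rfl⟩ := M.ed_surj e
  rw [M.bdCl_apply, M.bd_apply]
  rfl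

theorem finrank_range_bdCl (E' : Finset E) :
    finrank 𝔽 (LinearMap.range (M.bdCl E')) + 1 ≤ Fintype.card (M.Bk E') := by
  have h1 := LinearMap.finrank_range_add_finrank_ker (M.bdCl E')
  simp only [Module.finrank_fintype_fun_eq_card] at h1
  have h2 : 1 ≤ finrank 𝔽 (LinearMap.ker (M.bdCl E')) := by
    obtain ⟨f0⟩ := M.nonempty_F
    have hmem : (fun _ => 1 : M.Bk E' → 𝔽) ∈ LinearMap.ker (M.bdCl E') := by
      rw [LinearMap.mem_ker]
      ext e
      obtain ⟨d, rfl⟩ := M.ed_surj e
      rw [M.bdCl_apply]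
      simp [add_self_F]
    have hne : (fun _ => 1 : M.Bk E' → 𝔽) ≠ 0 := by
      intro h
      have := congrFun h (M.cl E' f0)
      simp at this
    have hpos : 0 < finrank 𝔽 (LinearMap.ker (M.bdCl E')) := by
      rw [Module.finrank_pos_iff_exists_ne_zero]
      exact ⟨⟨_, hmem⟩, fun h => hne (congrArg Subtype.val h)⟩
    exact hpos
  omega

theorem one_le_finrank_Cst (E' : Finset E) (V' : Finset V) (hne : V'.Nonempty)
    (hV : ∀ d, M.ed d ∈ E' → M.vt d ∈ V') : 1 ≤ finrank 𝔽 (M.Cst E' V') := by
  have hmem : (fun v => if v ∈ V' then 1 else 0 : V → 𝔽) ∈ M.Cst E' V' := by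
    refine ⟨?_, ?_⟩
    · intro v hv
      simp [hv]
    · intro d hd
      have h1 := hV d hd
      have h2 := hV (M.α d) (by rw [M.ed_α]; exact hd)
      simp [h1, h2]
  have hpos : 0 < finrank 𝔽 (M.Cst E' V') := by
    rw [Module.finrank_pos_iff_exists_ne_zero]
    obtain ⟨v, hv⟩ := hne
    refine ⟨⟨_, hmem⟩, fun h => ?_⟩
    have := congrFun (congrArg Subtype.val h) v
    simp [hv] at this
  exact hpos

/-- The basic planarity inequality. -/
theorem card_lower (E' : Finset E) (V' : Finset V) (hne : V'.Nonempty)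
    (hV : ∀ d, M.ed d ∈ E' → M.vt d ∈ V') :
    E'.card + 2 ≤ V'.card + Fintype.card (M.Bk E') := by
  have h1 := M.finrank_ZS E' V' hV
  have h2 := M.one_le_finrank_Cst E' V' hne hV
  have h3 := Submodule.finrank_mono (M.ZS_le_range E')
  have h4 := M.finrank_range_bdCl E'
  omega

end PMap

end

end Vale.Agent.Lib.P039B
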