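import Mathlib

/-!
Combinatorial maps on the sphere (rotation systems), presented with explicit types of
vertices, edges and faces, and the basic rotation facts.
-/

namespace Vale.Agent.Lib.P039B

open Finset

/-- A connected combinatorial map of genus zero with dart type `D`, vertex type `V`, edge type
`E` and face type `F`.  `σ` rotates the darts about their tail, `α` reverses a dart, and the
darts of a face are the orbit of `σ * α`. -/
structure PMap (D V E F : Type) [Fintype V] [Fintype E] [Fintype F] where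
  σ : Equiv.Perm D
  α : Equiv.Perm D
  vt : D → V
  ed : D → E
  fc : D → F
  α_α : ∀ d, α (α d) = d
  α_ne : ∀ d, α d ≠ d
  vt_σ : ∀ d, vt (σ d) = vt d
  fc_step : ∀ d, fc (σ (α d)) = fc d
  ed_eq : ∀ d d', ed d = ed d' ↔ d' = d ∨ d' = α d
  vt_surj : Function.Surjective vt
  ed_surj : Function.Surjective ed
  fc_surj : Function.Surjective fc
  vt_orbit : ∀ d d', vt d = vt d' → ∃ k : ℕ, (σ ^ k) d = d'
  fc_orbit : ∀ d d', fc d = fc d' → ∃ k : ℕ, ((σ * α) ^ k) d = d'
  conn : ∀ P : D → Prop, (∀ d, P d → P (σ d)) → (∀ d, P d → P (α d)) → ∀ a b, P a → P b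
  euler : Fintype.card V + Fintype.card F = Fintype.card E + 2

variable {D V E F : Type} [Fintype V] [Fintype E] [Fintype F]

namespace PMap

variable (M : PMap D V E F)

/-- The dual map: vertices and faces exchange their roles. -/
def dual : PMap D F E V where
  σ := M.σ * M.α
  α := M.α
  vt := M.fc
  ed := M.ed
  fc := M.vt
  α_α := M.α_α
  α_ne := M.α_ne
  vt_σ := by intro d; exact M.fc_step d
  fc_step := by
    intro d
    show M.vt (M.σ (M.α (M.α d))) = M.vt d
    rw [M.α_α, M.vt_σ]
  ed_eq := M.ed_eq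
  vt_surj := M.fc_surj
  ed_surj := M.ed_surj
  fc_surj := M.vt_surj
  vt_orbit := M.fc_orbit
  fc_orbit := by
    intro d d' h
    obtain ⟨k, hk⟩ := M.vt_orbit d d' h
    refine ⟨k, ?_⟩
    have : M.σ * M.α * M.α = M.σ := by
      ext x
      simp [M.α_α]
    rw [this]
    exact hk
  conn := by
    intro P h1 h2 a b ha
    refine M.conn P ?_ h2 a b ha
    intro d hd
    have := h1 (M.α d) (h2 d hd)
    simpa [M.α_α] using this
  euler := by
    have := M.euler
    omega

theorem ed_α (d : D) : M.ed (M.α d) = M.ed d :=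
  ((M.ed_eq d (M.α d)).2 (Or.inr rfl)).symm

theorem fc_α (d : D) : M.fc (M.α d) = M.fc (M.σ d) := by
  have h := M.fc_step (M.α d)
  rw [M.α_α] at h
  exact h.symm

theorem vt_pow (k : ℕ) (d : D) : M.vt ((M.σ ^ k) d) = M.vt d := by
  induction k with
  | zero => simp
  | succ k ih =>
    rw [pow_succ', Equiv.Perm.mul_apply, M.vt_σ, ih]

theorem fc_pow (k : ℕ) (d : D) : M.fc (((M.σ * M.α) ^ k) d) = M.fc d := by
  induction k with
  | zero => simp
  | succ k ih =>
    rw [pow_succ', Equiv.Perm.mul_apply, Equiv.Perm.mul_apply, M.fc_step, ih]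

/-- The next dart along a face. -/
abbrev φ : Equiv.Perm D := M.σ * M.α

theorem vt_φ (d : D) : M.vt (M.φ d) = M.vt (M.α d) := by
  show M.vt (M.σ (M.α d)) = _
  rw [M.vt_σ]

theorem fc_φ (d : D) : M.fc (M.φ d) = M.fc d := M.fc_step d

end PMap

end Vale.Agent.Lib.P039B
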