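import Vale.Agent.Lib.P039B.Good

/-!
A set of vertices with no digon at it has at least four neighbours.
-/

namespace Vale.Agent.Lib.P039B

open Finset Module

open scoped Classical

noncomputable section

variable {D V E F : Type} [Fintype D] [Fintype V] [Fintype E] [Fintype F]

namespace PMap

variable (M : PMap D V E F)

/-- The outside neighbours of a vertex set. -/
def nbr (C : Finset V) : Finset V :=
  univ.filter fun y => y ∉ C ∧ ∃ d, M.vt d ∈ C ∧ M.vt (M.α d) = y

/-- The edges with an end in `C`. -/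
def edC (C : Finset V) : Finset E := univ.filter fun e => ∃ d, M.ed d = e ∧ M.vt d ∈ C

variable {M}

theorem mem_nbr {C : Finset V} {y : V} :
    y ∈ M.nbr C ↔ y ∉ C ∧ ∃ d, M.vt d ∈ C ∧ M.vt (M.α d) = y := by
  simp [nbr]

theorem mem_edC {C : Finset V} {d : D} :
    M.ed d ∈ M.edC C ↔ M.vt d ∈ C ∨ M.vt (M.α d) ∈ C := by
  simp only [edC, mem_filter, mem_univ, true_and]
  constructor
  · rintro ⟨d', hd', hC⟩
    rcases (M.ed_eq d' d).1 hd' with h | h
    · subst h
      exact Or.inl hC
    · subst h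
      right
      rw [M.α_α]
      exact hC
  · rintro (h | h)
    · exact ⟨d, rfl, h⟩
    · exact ⟨M.α d, M.ed_α d, h⟩

/-- Darts of edges in a set, counted by edges. -/
theorem card_darts_edges (E' : Finset E) :
    (univ.filter fun d => M.ed d ∈ E').card = 2 * E'.card := by
  rw [Finset.card_eq_sum_card_fiberwise (f := M.ed) (t := E')]
  · rw [Finset.sum_const_nat (m := 2), mul_comm]
    intro e he
    obtain ⟨d, rfl⟩ := M.ed_surj e
    have : ((univ.filter fun d => M.ed d ∈ E').filter fun d' => M.ed d' = M.ed d) =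
        {d, M.α d} := by
      ext x
      simp only [mem_filter, mem_univ, true_and, mem_insert, mem_singleton]
      constructor
      · rintro ⟨_, h⟩
        exact (M.ed_eq d x).1 h.symm
      · intro h
        have h1 := ((M.ed_eq d x).2 h).symm
        exact ⟨h1 ▸ he, h1⟩
    rw [this, Finset.card_pair (fun h => M.α_ne d h.symm)]
  · intro d hd
    simpa using hd

section core

variable (C : Finset V)


/-- Sides of a class along the edges with an end in `C`. -/
def sideCt (M : PMap D V E F) (C : Finset V) (B : M.Bk (M.edC C)) : ℕ :=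
  (univ.filter fun d => M.cl (M.edC C) (M.fc d) = B ∧ M.ed d ∈ M.edC C).card

/-- Vertices outside `C` that have a side of the class going into `C`. -/
def Tset (M : PMap D V E F) (C : Finset V) (B : M.Bk (M.edC C)) : Finset V :=
  univ.filter fun y => y ∉ C ∧ ∃ d, M.vt d = y ∧ M.ed d ∈ M.edC C ∧ M.cl (M.edC C) (M.fc d) = B

theorem sum_sideCt : ∑ B, sideCt M C B = 2 * (M.edC C).card := by
  rw [← card_darts_edges (M := M) (M.edC C)]
  rw [Finset.card_eq_sum_card_fiberwise (f := fun d => M.cl (M.edC C) (M.fc d))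
    (t := univ) (fun _ _ => Finset.mem_coe.2 (Finset.mem_univ _))]
  refine Finset.sum_congr rfl ?_
  intro B _
  unfold sideCt
  congr 1
  ext d
  simp only [mem_filter, mem_univ, true_and]
  tauto

theorem cl_σ {d : D} (h : M.ed d ∉ M.edC C) :
    M.cl (M.edC C) (M.fc (M.σ d)) = M.cl (M.edC C) (M.fc d) := by
  rw [← M.fc_α]
  exact M.cl_across _ h

theorem cl_iter (d : D) (k : ℕ) (h : ∀ i < k, M.ed ((M.σ ^ i) d) ∉ M.edC C) :
    M.cl (M.edC C) (M.fc ((M.σ ^ k) d)) = M.cl (M.edC C) (M.fc d) := by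
  induction k with
  | zero => simp
  | succ k ih =>
    rw [pow_succ', Equiv.Perm.mul_apply, cl_σ C (h k (by omega))]
    exact ih (fun i hi => h i (by omega))

/-- Rotating from a dart outside the set reaches a side of the same class. -/
theorem mem_Tset_of_rot {d d1 : D} (hd : M.ed d ∉ M.edC C) (h1 : M.vt d1 = M.vt d)
    (h2 : M.ed d1 ∈ M.edC C) : M.vt d ∈ Tset M C (M.cl (M.edC C) (M.fc d)) := by
  have hnot : M.vt d ∉ C := fun h => hd (mem_edC.2 (Or.inl h))
  simp only [Tset, mem_filter, mem_univ, true_and]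
  refine ⟨hnot, ?_⟩
  have hex : ∃ k : ℕ, M.ed ((M.σ ^ k) d) ∈ M.edC C := by
    obtain ⟨k, hk⟩ := M.vt_orbit d d1 h1.symm
    exact ⟨k, hk ▸ h2⟩
  let k := Nat.find hex
  have hk := Nat.find_spec hex
  have hk2 : ∀ i < k, M.ed ((M.σ ^ i) d) ∉ M.edC C := fun i hi => Nat.find_min hex hi
  exact ⟨(M.σ ^ k) d, M.vt_pow k d, hk, cl_iter C d k hk2⟩

/-- The incoming side at a vertex of the `T` set. -/
theorem exists_incoming {d : D} (hd : M.ed d ∈ M.edC C) :
    ∃ d', M.vt d' = M.vt d ∧ M.ed d' ∈ M.edC C ∧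
      M.cl (M.edC C) (M.fc (M.σ d')) = M.cl (M.edC C) (M.fc d) := by
  obtain ⟨k, hk⟩ := M.vt_orbit (M.σ d) d (M.vt_σ d)
  have key : ∀ j : ℕ, M.cl (M.edC C) (M.fc ((M.σ ^ (j + 1)) d)) = M.cl (M.edC C) (M.fc d) →
      ∃ d', M.vt d' = M.vt d ∧ M.ed d' ∈ M.edC C ∧
        M.cl (M.edC C) (M.fc (M.σ d')) = M.cl (M.edC C) (M.fc d) := by
    intro j
    induction j with
    | zero =>
      intro h
      exact ⟨d, rfl, hd, by simpa using h⟩
    | succ j ih =>
      intro h
      by_cases hj : M.ed ((M.σ ^ (j + 1)) d) ∈ M.edC C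
      · refine ⟨(M.σ ^ (j + 1)) d, M.vt_pow _ d, hj, ?_⟩
        rw [← h, pow_succ' M.σ (j + 1), Equiv.Perm.mul_apply]
      · apply ih
        rw [← h, pow_succ' M.σ (j + 1), Equiv.Perm.mul_apply, cl_σ C hj]
  apply key k
  have : (M.σ ^ (k + 1)) d = d := by
    rw [pow_succ, Equiv.Perm.mul_apply]
    exact hk
  rw [this]

/-- Each vertex of the `T` set gives two sides of the class. -/
theorem two_card_Tset_le (B : M.Bk (M.edC C)) : 2 * (Tset M C B).card ≤ sideCt M C B := by
  have hT : ∀ y ∈ Tset M C B, ∃ o i : D, M.vt o = y ∧ M.vt (M.α i) = y ∧ M.vt i ∈ C ∧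
      M.ed o ∈ M.edC C ∧ M.cl (M.edC C) (M.fc o) = B ∧ M.ed i ∈ M.edC C ∧
      M.cl (M.edC C) (M.fc i) = B := by
    intro y hy
    simp only [Tset, mem_filter, mem_univ, true_and] at hy
    obtain ⟨hyC, d, hd, hd1, hd2⟩ := hy
    obtain ⟨d', h1, h2, h3⟩ := exists_incoming C hd1
    refine ⟨d, M.α d', hd, ?_, ?_, hd1, hd2, ?_, ?_⟩
    · rw [M.α_α, h1, hd]
    · rcases mem_edC.1 h2 with h | h
      · exact absurd (by rw [← hd, ← h1]; exact h) hyC
      · exact h
    · rw [M.ed_α]
      exact h2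
    · rw [M.fc_α, h3, hd2]
  haveI : Nonempty D := M.nonempty_D
  choose! o i h1 h2 h3 h4 h5 h6 h7 using hT
  have hO : Set.InjOn o (↑(Tset M C B) : Set V) := by
    intro a ha b hb hab
    have := congrArg M.vt hab
    rwa [h1 a ha, h1 b hb] at this
  have hI : Set.InjOn i (↑(Tset M C B) : Set V) := by
    intro a ha b hb hab
    have := congrArg (fun d => M.vt (M.α d)) hab
    rwa [h2 a ha, h2 b hb] at this
  have hdis : Disjoint ((Tset M C B).image o) ((Tset M C B).image i) := by
    rw [Finset.disjoint_left]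
    intro x hx hx'
    obtain ⟨a, ha, rfl⟩ := mem_image.1 hx
    obtain ⟨b, hb, hb'⟩ := mem_image.1 hx'
    have h8 := h3 b hb
    rw [hb', h1 a ha] at h8
    have := (mem_filter.1 ha).2.1
    exact this h8
  have hsub : (Tset M C B).image o ∪ (Tset M C B).image i ⊆
      univ.filter fun d => M.cl (M.edC C) (M.fc d) = B ∧ M.ed d ∈ M.edC C := by
    intro x hx
    simp only [mem_filter, mem_univ, true_and]
    rcases mem_union.1 hx with hx | hx
    · obtain ⟨a, ha, rfl⟩ := mem_image.1 hx
      exact ⟨h5 a ha, h4 a ha⟩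
    · obtain ⟨a, ha, rfl⟩ := mem_image.1 hx
      exact ⟨h7 a ha, h6 a ha⟩
  have := Finset.card_le_card hsub
  rw [Finset.card_union_of_disjoint hdis, Finset.card_image_of_injOn hO,
    Finset.card_image_of_injOn hI] at this
  unfold sideCt
  omega

end core

section main

variable {C : Finset V}

/-- A class containing an edge outside the set has at least two vertices in its `T` set. -/
theorem two_le_Tset (hG : M.Good) (hC : C.Nonempty) {d0 : D} (hd0 : M.ed d0 ∉ M.edC C) :
    2 ≤ (Tset M C (M.cl (M.edC C) (M.fc d0))).card := by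
  set B := M.cl (M.edC C) (M.fc d0) with hB
  by_contra hlt
  have hle : (Tset M C B).card ≤ 1 := by omega
  have hd0C : M.vt d0 ∉ C := fun h => hd0 (mem_edC.2 (Or.inl h))
  obtain ⟨y0, hy0, hy0C⟩ : ∃ y0, (∀ y ∈ Tset M C B, y = y0) ∧ y0 ∉ C := by
    rcases Finset.eq_empty_or_nonempty (Tset M C B) with h | ⟨y, hy⟩
    · exact ⟨M.vt d0, by simp [h], hd0C⟩
    · refine ⟨y, ?_, (mem_filter.1 hy).2.1⟩
      intro y' hy'
      exact Finset.card_le_one.1 hle y' hy' y hy
  let Y : V → Prop := fun v => v ≠ y0 ∧ ∃ d, M.vt d = v ∧ M.cl (M.edC C) (M.fc d) = B ∧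
    M.ed d ∉ M.edC C
  have hd0' : M.ed (M.α d0) ∉ M.edC C := by rwa [M.ed_α]
  have hne : ∃ v, Y v := by
    by_cases h : M.vt d0 = y0
    · refine ⟨M.vt (M.α d0), ?_, M.α d0, rfl, ?_, hd0'⟩
      · rw [← h]
        exact hG.loopless d0
      · rw [M.cl_across _ hd0]
    · exact ⟨M.vt d0, h, d0, rfl, rfl, hd0⟩
  have hcl : ∀ d, Y (M.vt d) → Y (M.vt (M.α d)) ∨ M.vt (M.α d) = y0 := by
    rintro d ⟨h1, d1, hd1, hd2, hd3⟩
    have hall : ∀ d2, M.vt d2 = M.vt d → M.ed d2 ∉ M.edC C := by
      intro d2 hd2' hmem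
      have := mem_Tset_of_rot C hd3 (hd2'.trans hd1.symm) hmem
      rw [hd2] at this
      exact h1 (hd1 ▸ hy0 _ this)
    have hd4 : M.ed d ∉ M.edC C := hall d rfl
    obtain ⟨k, hk⟩ := M.vt_orbit d1 d hd1
    have hd5 : M.cl (M.edC C) (M.fc d) = B := by
      rw [← hk, cl_iter C d1 k, hd2]
      intro i _
      apply hall
      rw [M.vt_pow, hd1]
    by_cases h : M.vt (M.α d) = y0
    · exact Or.inr h
    · refine Or.inl ⟨h, M.α d, rfl, ?_, ?_⟩
      · rw [M.cl_across _ hd4, hd5]
      · rwa [M.ed_α]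
  obtain ⟨c, hc⟩ := hC
  rcases hG.no_cut y0 Y (fun h => h.1 rfl) hne hcl c with h | h
  · obtain ⟨_, d, hd, _, hd3⟩ := h
    exact hd3 (mem_edC.2 (Or.inl (hd ▸ hc)))
  · exact hy0C (h ▸ hc)

/-- Every class has at least three sides. -/
theorem three_le_sideCt (hG : M.Good) (hC : C.Nonempty)
    (hdg : ∀ d, M.vt d ∈ C → M.fsize (M.fc d) ≠ 2) (B : M.Bk (M.edC C)) :
    3 ≤ sideCt M C B := by
  by_cases hout : ∃ d, M.cl (M.edC C) (M.fc d) = B ∧ M.ed d ∉ M.edC C
  · obtain ⟨d0, rfl, hd0⟩ := hout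
    have h1 := two_le_Tset hG hC hd0
    have h2 := two_card_Tset_le C (M.cl (M.edC C) (M.fc d0))
    omega
  · push Not at hout
    obtain ⟨f, rfl⟩ := Quot.exists_rep B
    obtain ⟨d, rfl⟩ := M.fc_surj f
    have h1 : M.ed d ∈ M.edC C := hout d rfl
    have h2 : M.fsize (M.fc d) ≠ 2 := by
      rcases mem_edC.1 h1 with h | h
      · exact hdg d h
      · have := hdg (M.φ d) (by rw [M.vt_φ]; exact h)
        rwa [M.fc_φ] at this
    have h3 := hG.two_le_fsize d
    have h4 : M.fsize (M.fc d) ≤ sideCt M C (Quot.mk _ (M.fc d)) := by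
      apply Finset.card_le_card
      intro x hx
      simp only [mem_filter, mem_univ, true_and] at hx ⊢
      have h5 : M.cl (M.edC C) (M.fc x) = Quot.mk _ (M.fc d) := by
        rw [hx]
        rfl
      exact ⟨h5, hout x h5⟩
    omega

/-- The neighbours of a digon free vertex set number at least four. -/
theorem four_le_nbr (hG : M.Good) (hC : C.Nonempty) (hout : ∃ v, v ∉ C)
    (hdg : ∀ d, M.vt d ∈ C → M.fsize (M.fc d) ≠ 2) : 4 ≤ (M.nbr C).card := by
  by_contra hlt
  set S := M.nbr C with hS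
  -- darts leaving C
  set X := (univ.filter fun d => M.vt d ∈ C ∧ M.vt (M.α d) ∉ C) with hX
  set D1 := (univ.filter fun d => M.vt d ∈ C) with hD1
  have hcard1 : (univ.filter fun d => M.ed d ∈ (M.edC C)).card = D1.card + X.card := by
    have h1 : (univ.filter fun d => M.ed d ∈ (M.edC C)) =
        D1 ∪ (X.image M.α) := by
      ext d
      simp only [mem_filter, mem_univ, true_and, mem_union, mem_image, hD1, hX, mem_edC]
      constructor
      · rintro (h | h)
        · exact Or.inl h
        · by_cases h' : M.vt d ∈ C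
          · exact Or.inl h'
          · refine Or.inr ⟨M.α d, ⟨h, ?_⟩, M.α_α d⟩
            rwa [M.α_α]
      · rintro (h | ⟨a, ⟨h1, _⟩, rfl⟩)
        · exact Or.inl h
        · right
          rwa [M.α_α]
    have h2 : Disjoint D1 (X.image M.α) := by
      rw [Finset.disjoint_left]
      intro d hd hd'
      obtain ⟨a, ha, rfl⟩ := mem_image.1 hd'
      exact (mem_filter.1 ha).2.2 (mem_filter.1 hd).2
    rw [h1, Finset.card_union_of_disjoint h2,
      Finset.card_image_of_injective _ M.α.injective]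
  have hcard2 : 6 * C.card ≤ D1.card := by
    rw [Finset.card_eq_sum_card_fiberwise (f := M.vt) (t := C)]
    · rw [mul_comm, ← smul_eq_mul]
      apply Finset.card_nsmul_le_sum
      intro v hv
      have h1 := hG.deg6 v
      have h2 : (univ.filter fun d => M.vt d = v) ⊆ D1.filter fun d => M.vt d = v := by
        intro d hd
        have h3 := (mem_filter.1 hd).2
        simp [hD1, h3, hv]
      exact h1.trans (Finset.card_le_card h2)
    · intro d hd
      simpa [hD1] using hd
  have hdisj : Disjoint C S := by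
    rw [Finset.disjoint_left]
    intro v hv hv'
    exact (mem_nbr.1 hv').1 hv
  have hlow := M.card_lower (M.edC C) (C ∪ S) (hC.mono subset_union_left) (by
    intro d hd
    rcases mem_edC.1 hd with h | h
    · exact mem_union_left _ h
    · by_cases h' : M.vt d ∈ C
      · exact mem_union_left _ h'
      · refine mem_union_right _ (mem_nbr.2 ⟨h', M.α d, h, ?_⟩)
        rw [M.α_α])
  rw [Finset.card_union_of_disjoint hdisj] at hlow
  have hdarts := card_darts_edges (M := M) (M.edC C)
  have hsum := sum_sideCt (M := M) C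
  -- excess
  have h3 : ∀ B, 3 ≤ sideCt M C B := three_le_sideCt hG hC hdg
  let x : M.Bk (M.edC C) → ℕ := fun B => 2 * sideCt M C B - 6
  have hx : ∀ B, 2 * sideCt M C B = x B + 6 := by
    intro B
    have := h3 B
    simp only [x]
    omega
  have hsumx : 2 * (2 * (M.edC C).card) = ∑ B, x B + 6 * Fintype.card (M.Bk (M.edC C)) := by
    rw [← hsum, Finset.mul_sum, Finset.sum_congr rfl (fun B _ => hx B), Finset.sum_add_distrib]
    simp only [Finset.sum_const, Finset.card_univ, smul_eq_mul]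
    ring
  have hmain : ∑ B, x B + X.card + 12 ≤ 6 * S.card := by omega
  -- every neighbour receives a dart
  have hX1 : ∀ y ∈ S, ∃ d ∈ X, M.vt (M.α d) = y := by
    intro y hy
    obtain ⟨h1, d, h2, h3⟩ := mem_nbr.1 hy
    exact ⟨d, by simp [hX, h2, h3, h1], h3⟩
  have hmaps : ∀ d ∈ X, M.vt (M.α d) ∈ S := by
    intro d hd
    obtain ⟨h1, h2⟩ := (mem_filter.1 hd).2
    exact mem_nbr.2 ⟨h2, d, h1, rfl⟩
  have hXS : X.card = ∑ y ∈ S, (X.filter fun d => M.vt (M.α d) = y).card :=
    Finset.card_eq_sum_card_fiberwise hmaps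
  have hpos : ∀ y ∈ S, 1 ≤ (X.filter fun d => M.vt (M.α d) = y).card := by
    intro y hy
    obtain ⟨d, hd, hd'⟩ := hX1 y hy
    exact Finset.card_pos.2 ⟨d, mem_filter.2 ⟨hd, hd'⟩⟩
  have hSX : S.card ≤ X.card := by
    rw [hXS]
    calc S.card = ∑ y ∈ S, 1 := by simp
      _ ≤ _ := Finset.sum_le_sum hpos
  have hSne : S.Nonempty := by
    by_contra hempty
    rw [Finset.not_nonempty_iff_eq_empty] at hempty
    obtain ⟨c, hc⟩ := hC
    obtain ⟨v, hv⟩ := hout
    obtain ⟨d1, rfl⟩ := M.vt_surj c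
    obtain ⟨d2, rfl⟩ := M.vt_surj v
    have := M.conn (fun d => M.vt d ∈ C) (fun d hd => by simpa [M.vt_σ] using hd) (by
      intro d hd
      by_contra h
      have h1 : M.vt (M.α d) ∈ S := mem_nbr.2 ⟨h, d, hd, rfl⟩
      rw [hempty] at h1
      simp at h1) d1 d2 hc
    exact hv this
  have hS1 : 1 ≤ S.card := Finset.card_pos.2 hSne
  have hS3 : S.card = 3 := by omega
  have hx0 : ∑ B, x B + X.card ≤ 6 := by omega
  have hX3 : 3 ≤ X.card := by omega
  -- find a vertex of S all of whose darts go into C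
  have hsurr : ∃ y ∈ S, ∀ d, M.vt d = y → M.ed d ∈ (M.edC C) := by
    -- a class with a dart outside has at least four sides
    have hbig : ∀ d, M.ed d ∉ (M.edC C) → 4 ≤ sideCt M C (M.cl (M.edC C) (M.fc d)) := by
      intro d hd
      have h1 := two_le_Tset hG hC hd
      have h2 := two_card_Tset_le C (M.cl (M.edC C) (M.fc d))
      omega
    by_cases hex : ∃ B : M.Bk (M.edC C), 4 ≤ sideCt M C B
    · obtain ⟨B0, hB0⟩ := hex
      have hxB0 : 2 ≤ x B0 := by simp only [x]; omega
      have huniq : ∀ B, 4 ≤ sideCt M C B → B = B0 := by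
        intro B hB
        by_contra hne
        have hxB : 2 ≤ x B := by simp only [x]; omega
        have hsub : ∑ b ∈ ({B, B0} : Finset _), x b ≤ ∑ b, x b :=
          Finset.sum_le_sum_of_subset (Finset.subset_univ _)
        rw [Finset.sum_pair hne] at hsub
        omega
      have hB0le : x B0 ≤ ∑ b, x b := Finset.single_le_sum (fun _ _ => Nat.zero_le _)
        (Finset.mem_univ B0)
      have hT : (Tset M C B0).card ≤ 2 := by
        have h1 := two_card_Tset_le C B0
        have h2 : sideCt M C B0 ≤ 4 := by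
          have h5 := hx B0
          omega
        omega
      obtain ⟨y, hy, hy'⟩ := Finset.exists_mem_notMem_of_card_lt_card
        (show (Tset M C B0).card < S.card by omega)
      refine ⟨y, hy, ?_⟩
      intro d hd
      by_contra hnot
      have hB := huniq _ (hbig d hnot)
      obtain ⟨h1, d1, h2, h3⟩ := mem_nbr.1 hy
      have h4 := mem_Tset_of_rot C (d := d) (d1 := M.α d1) hnot
        (by rw [h3, hd]) (by rw [M.ed_α]; exact mem_edC.2 (Or.inl h2))
      rw [hB, hd] at h4
      exact hy' h4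
    · push Not at hex
      obtain ⟨y, hy⟩ := hSne
      refine ⟨y, hy, ?_⟩
      intro d _
      by_contra hnot
      have h5 := hbig d hnot
      have h6 := hex (M.cl (M.edC C) (M.fc d))
      omega
  obtain ⟨y, hy, hyall⟩ := hsurr
  have hyC : y ∉ C := (mem_nbr.1 hy).1
  -- six darts into y
  have hy6 : 6 ≤ (X.filter fun d => M.vt (M.α d) = y).card := by
    have h1 := hG.deg6 y
    unfold vdeg at h1
    have h2 : ((univ.filter fun d => M.vt d = y).image M.α) ⊆
        X.filter fun d => M.vt (M.α d) = y := by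
      intro d hd
      obtain ⟨a, ha, rfl⟩ := mem_image.1 hd
      have ha' : M.vt a = y := (mem_filter.1 ha).2
      simp only [mem_filter, hX, mem_univ, true_and, M.α_α]
      refine ⟨⟨?_, ha' ▸ hyC⟩, ha'⟩
      rcases mem_edC.1 (hyall a ha') with h | h
      · exact absurd (ha' ▸ h) hyC
      · exact h
    have h3 := Finset.card_le_card h2
    rw [Finset.card_image_of_injective _ M.α.injective] at h3
    omega
  have hfinal : 6 + (S.card - 1) ≤ X.card := by
    rw [hXS, ← Finset.add_sum_erase S _ hy]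
    have h4 : S.card - 1 ≤ ∑ z ∈ S.erase y, (X.filter fun d => M.vt (M.α d) = z).card := by
      calc S.card - 1 = (S.erase y).card := (Finset.card_erase_of_mem hy).symm
        _ = ∑ z ∈ S.erase y, 1 := by simp
        _ ≤ _ := Finset.sum_le_sum (fun z hz => hpos z (Finset.mem_of_mem_erase hz))
    omega
  omega

end main

end PMap

end

end Vale.Agent.Lib.P039B
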